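import Crest.Agent.R162.K

/-!
# Row 162, file K2: nothing happens near `x` before `Υ(x)` reaches `ρ` (shared by blocks P and C).
-/

set_option autoImplicit false

open scoped ENNReal NNReal Topology
open Set Filter MeasureTheory Metric

noncomputable section
namespace Crest.Agent.R162

variable {C ρ T t : ℝ} {ω : Path} {x z : ℂ}

/-- Recipe: if `x` is dead at `t`, let `t* ≤ t` be the supremum of the times at which it is alive (alive at `0`;
alive times form an interval, relatively open by `continuousOn_Yc` and `alive_iff`); for `u < t*`, `ρ < Up x u`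
(`lt_Up_of_lt_hitU`), so `hC.near` gives `Yc z u ≤ 3/2 Yc x u`; let `u → t*`: `Yc z t* ≤ 0`, but `z` is alive.
So `x` is alive; `ρ ≤ Up x t` by `lt_Up_of_lt_hitU`, `hitU_spec`, `hitU_of_not_hit`; then `hC.near` again. -/
theorem KoebeF.before_hit (hC : KoebeF C) (hρ : 0 < ρ) (hx : ρ ≤ x.im) (hT : 0 ≤ T) (hz : z ∈ ball x (ρ / C))
    (ht : t ≤ hitU x ρ T ω) (h : Alive ω z t) : Alive ω x t ∧ ρ ≤ Up ω x t ∧ ρ ≤ C * Up ω z t := by
  have hC0 : 0 < C := by linarith [hC.two_le]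
  have hx0 : Alive ω x 0 := alive_zero.2 (hρ.trans_le hx : 0 < x.im)
  have hc : ContinuousOn (Yc ω x) (Ici 0) :=
    continuousOn_Yc.comp (f := fun u : ℝ => (ω, x, u)) (by fun_prop) fun u hu => ⟨trivial, trivial, hu⟩
  have hball : ∀ u, ρ ≤ Up ω x u → z ∈ ball x (Up ω x u / C) := fun u hu => ball_subset_ball (by gcongr) hz
  have hal : Alive ω x t := by
    by_contra hd
    have hK : IsCompact (Icc 0 t ∩ Yc ω x ⁻¹' Iic 0) := isCompact_Icc.of_isClosed_subset
      ((hc.mono Icc_subset_Ici_self).preimage_isClosed_of_isClosed isClosed_Icc isClosed_Iic) inter_subset_left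
    obtain ⟨s, ⟨hs, hs'⟩, hmin⟩ := hK.exists_isLeast ⟨t, ⟨h.1, le_rfl⟩, (dead hd).2.1.le⟩
    have hs'' : Yc ω x s ≤ 0 := hs'
    have hs0 : 0 < s := hs.1.lt_of_ne fun e => by
      rw [← e] at hs''
      exact hs''.not_gt (alive_iff.1 hx0)
    have h1 : ∀ u ∈ Ico 0 s, 2 / 3 * Yc ω z t ≤ Yc ω x u := by
      intro u hu
      have hu1 : Alive ω x u := alive_iff.2 (lt_of_not_ge fun e =>
        (hmin ⟨⟨hu.1, hu.2.le.trans hs.2⟩, e⟩).not_gt hu.2)
      have hu2 := lt_Up_of_lt_hitU (hu.2.trans_le (hs.2.trans ht)) hu1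
      have h2 := (hC.near ω x u hu1 z (hball u hu2.le)).2.1
      have h3 : Yc ω z u ≤ Yc ω x u + ‖gt ω z u - gt ω x u‖ := (kf_im _ _).2
      have h4 : Yc ω z t ≤ Yc ω z u := Yc_anti hu.1 (hu.2.le.trans hs.2)
      linarith
    have := right_nhdsWithin_Ico_neBot hs0
    have h2 : 2 / 3 * Yc ω z t ≤ Yc ω x s :=
      ge_of_tendsto ((hc s hs.1).mono Ico_subset_Ici_self) (eventually_mem_nhdsWithin.mono h1)
    linarith [alive_iff.1 h]
  have hup : ρ ≤ Up ω x t := by
    by_cases hh : ω ∈ Hit x ρ T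
    · have h1 := (hitU_spec hh).2
      rw [min_eq_left hx] at h1
      exact h1.symm.le.trans (Up_anti h.1 ht)
    · exact le_of_not_gt fun e => hh ⟨t, ⟨h.1, ht.trans (hitU_mem hT).2⟩, hal, e.le⟩
  exact ⟨hal, hup, hup.trans (hC.near ω x t hal z (hball t hup)).2.2.2.2.2.1⟩

/-- no mass is produced near `x` before the hitting time -/
theorem KoebeF.nu_before_hit (hC : KoebeF C) {κ s₀ y : ℝ} (hκ8 : κ < 8) (hs₀ : 0 < s₀) (hy : 0 < y) (hρ : 0 < ρ)
    (hx : ρ ≤ x.im) (hT : 0 ≤ T) (hyρ : 3 * C * y ≤ ρ) {A : Set ℂ} (hA : A ⊆ ball x (ρ / C)) :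
    nu κ s₀ y ω A (Ioc 0 T) = nu κ s₀ y ω A (Ioc (hitU x ρ T ω) T) := by
  have hC0 : 0 < C := by linarith [hC.two_le]
  have hτ : hitU x ρ T ω ∈ Icc 0 T := hitU_mem hT
  refine lintegral_congr_ae ?_
  filter_upwards [ae_restrict_of_ae_restrict_of_subset hA (ae_restrict_mem measurableSet_ball)] with z hz
  unfold nz
  rw [← Ioc_union_Ioc_eq_Ioc hτ.1 hτ.2, lintegral_union measurableSet_Ioc (Ioc_disjoint_Ioc_of_le le_rfl),
    setLIntegral_eq_zero measurableSet_Ioc, zero_add]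
  intro t ht
  show ENNReal.ofReal _ = 0
  by_cases hd : dens κ s₀ y ω z t = 0
  · rw [hd, ENNReal.ofReal_zero]
  obtain ⟨h1, -, h2, -⟩ := dens_supp hκ8 hy hs₀ hd
  have h3 := (hC.before_hit hρ hx hT hz ht.2 h1).2.2
  nlinarith

/-- a finer point is hit after a coarser point: if `z` is hit at level `ρ' < ρ / C` then `x` was hit at level `ρ` before -/
theorem KoebeF.hit_order (hC : KoebeF C) {ρ' : ℝ} (hρ : 0 < ρ) (hx : ρ ≤ x.im) (hT : 0 ≤ T)
    (hz : z ∈ ball x (ρ / C)) (hρ' : C * ρ' < ρ) :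
    hitU x ρ T ω ≤ hitU z ρ' T ω ∧ (ω ∈ Hit z ρ' T → ω ∈ Hit x ρ T) := by
  have hC0 : 0 < C := by linarith [hC.two_le]
  by_cases hh : ω ∈ Hit z ρ' T
  · obtain ⟨h1, h2⟩ := hitU_spec hh
    have h3 : hitU x ρ T ω < hitU z ρ' T ω := lt_of_not_ge fun e => by
      have h4 := (hC.before_hit hρ hx hT hz e h1).2.2
      have h5 : C * Up ω z (hitU z ρ' T ω) ≤ C * ρ' := by
        rw [h2]
        exact mul_le_mul_of_nonneg_left (min_le_left _ _) hC0.le
      linarith
    refine ⟨h3.le, fun _ => by_contra fun hn => ?_⟩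
    rw [hitU_of_not_hit hn] at h3
    exact h3.not_ge (hitU_mem hT).2
  · rw [hitU_of_not_hit hh]
    exact ⟨(hitU_mem hT).2, fun e => absurd e hh⟩

/-- a point with small `Υ` is close to the boundary of the domain -/
theorem KoebeF.exists_frontier (hC : KoebeF C) (h : Alive ω z t) :
    ∃ w ∈ frontier (Dom ω t), dist z w ≤ 3 * Up ω z t := by
  have hU := h.up_pos
  by_contra hn
  have h1 : ball z (3 * Up ω z t) ⊆ Dom ω t := by
    refine (convex_ball _ _).isPreconnected.subset_of_closure_inter_subset isOpen_Dom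
      ⟨z, mem_ball_self (by linarith), h⟩ fun w hw => by_contra fun hw' => hn ⟨w, ?_, ?_⟩
    · rw [isOpen_Dom.frontier_eq]
      exact ⟨hw.1, hw'⟩
    · exact (mem_ball'.1 hw.2).le
  linarith [hC.le_Up ω z t _ h h1]

end Crest.Agent.R162
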