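import Crest.Agent.R162.Defs

/-!
# Row 162, block M: deterministic facts on the gauge and the gauge measure.  API file: statements are FROZEN.
See `notes162/R162.md`.  All proved (helper23).
-/

set_option autoImplicit false

open scoped ENNReal NNReal Topology
open Set Filter MeasureTheory Metric

noncomputable section
namespace Crest.Agent.R162

open Crest.ProbabilityR.Loewner

variable {κ : ℝ}

theorem M.log_ge {x : ℝ} (hx : 0 < x) (h : x ≤ Real.exp (-Real.exp 1)) :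
    Real.exp 1 ≤ Real.log (1 / x) := by
  rw [one_div, Real.log_inv, le_neg]
  have := Real.log_le_log hx h
  rwa [Real.log_exp] at this

theorem M.ll_ge {x : ℝ} (hx : 0 < x) (h : x ≤ Real.exp (-Real.exp 1)) :
    1 ≤ Real.log (Real.log (1 / x)) := by
  have := Real.log_le_log (Real.exp_pos 1) (M.log_ge hx h)
  rwa [Real.log_exp] at this

theorem M.ll_nonneg {x : ℝ} (hx : 0 ≤ x) (h : x ≤ Real.exp (-Real.exp 1)) :
    0 ≤ Real.log (Real.log (1 / x)) := by
  rcases hx.eq_or_lt with rfl | hx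
  · simp
  · exact zero_le_one.trans (M.ll_ge hx h)

theorem M.ll_anti {x y : ℝ} (hx : 0 < x) (hxy : x ≤ y) (h : y ≤ Real.exp (-Real.exp 1)) :
    Real.log (Real.log (1 / y)) ≤ Real.log (Real.log (1 / x)) := by
  have hy : 0 < y := hx.trans_le hxy
  refine Real.log_le_log ((Real.exp_pos 1).trans_le (M.log_ge hy h)) ?_
  exact Real.log_le_log (by positivity) (one_div_le_one_div_of_le hx hxy)

theorem M.mul_ll_mono {x y : ℝ} (hx : 0 ≤ x) (hxy : x ≤ y) (h : y ≤ Real.exp (-Real.exp 1)) :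
    x * Real.log (Real.log (1 / x)) ≤ y * Real.log (Real.log (1 / y)) := by
  rcases hx.eq_or_lt with rfl | hx
  · rw [zero_mul]; exact mul_nonneg hxy (M.ll_nonneg hxy h)
  have hy : 0 < y := hx.trans_le hxy
  set u := Real.log (1 / x) with hu
  set v := Real.log (1 / y) with hv
  have hv1 : Real.exp 1 ≤ v := M.log_ge hy h
  have hlv : 1 ≤ Real.log v := M.ll_ge hy h
  have he : (1 : ℝ) ≤ Real.exp 1 := Real.one_le_exp zero_le_one
  have hv0 : 0 < v := by linarith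
  have huv : v ≤ u := Real.log_le_log (by positivity) (one_div_le_one_div_of_le hx hxy)
  have hu0 : 0 < u := by linarith
  have h1 : Real.log u ≤ Real.log v + (u - v) := by
    have h2 : Real.log (u / v) ≤ u / v - 1 := Real.log_le_sub_one_of_pos (by positivity)
    rw [Real.log_div hu0.ne' hv0.ne'] at h2
    have h3 : u / v - 1 = (u - v) / v := by field_simp
    have h4 : (u - v) / v ≤ u - v := div_le_self (by linarith) (by linarith)
    linarith
  have h5 : Real.log u ≤ Real.exp (u - v) * Real.log v := by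
    have := Real.add_one_le_exp (u - v)
    nlinarith
  have h6 : y = x * Real.exp (u - v) := by
    rw [Real.exp_sub, hu, hv, Real.exp_log (by positivity), Real.exp_log (by positivity)]
    field_simp
  calc x * Real.log u ≤ x * (Real.exp (u - v) * Real.log v) := by gcongr
    _ = y * Real.log v := by rw [h6]; ring

theorem M.split (hκ : 0 < κ) (hκ8 : κ < 8) {x : ℝ} (hx : 0 ≤ x) :
    gaugeReal κ x = (min x (Real.exp (-Real.exp 1))) ^ (dimParam κ - (2 - dimParam κ) / 2) *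
      (min x (Real.exp (-Real.exp 1)) *
        Real.log (Real.log (1 / min x (Real.exp (-Real.exp 1))))) ^ ((2 - dimParam κ) / 2) := by
  have hm : 0 ≤ min x (Real.exp (-Real.exp 1)) := le_min hx (Real.exp_pos _).le
  unfold gaugeReal
  rw [Real.mul_rpow hm (M.ll_nonneg hm (min_le_right _ _)), ← mul_assoc, ← Real.rpow_add' hm]
  · congr 2; ring
  · unfold dimParam; linarith

theorem gaugeReal_nonneg (κ : ℝ) {x : ℝ} (hx : 0 ≤ x) : 0 ≤ gaugeReal κ x := by
  have hm : 0 ≤ min x (Real.exp (-Real.exp 1)) := le_min hx (Real.exp_pos _).le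
  exact mul_nonneg (Real.rpow_nonneg hm _) (Real.rpow_nonneg (M.ll_nonneg hm (min_le_right _ _)) _)

theorem gaugeReal_pos (κ : ℝ) {x : ℝ} (hx : 0 < x) : 0 < gaugeReal κ x := by
  have hm : 0 < min x (Real.exp (-Real.exp 1)) := lt_min hx (Real.exp_pos _)
  exact mul_pos (Real.rpow_pos_of_pos hm _)
    (Real.rpow_pos_of_pos (zero_lt_one.trans_le (M.ll_ge hm (min_le_right _ _))) _)

theorem gaugeReal_eq (κ : ℝ) {x : ℝ} (hx : x ≤ Real.exp (-Real.exp 1)) :
    gaugeReal κ x = x ^ (2 - bb κ) * Real.log (Real.log (1 / x)) ^ (bb κ / 2) := by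
  unfold gaugeReal dimParam bb
  rw [min_eq_left hx]
  congr 2 <;> ring

theorem gaugeReal_mono (hκ : 0 < κ) (hκ8 : κ < 8) : MonotoneOn (gaugeReal κ) (Ici 0) := by
  intro x hx y hy hxy
  have hx : 0 ≤ x := hx
  have hy : 0 ≤ y := hy
  rw [M.split hκ hκ8 hx, M.split hκ hκ8 hy]
  have hm : 0 ≤ min x (Real.exp (-Real.exp 1)) := le_min hx (Real.exp_pos _).le
  have hmm : min x (Real.exp (-Real.exp 1)) ≤ min y (Real.exp (-Real.exp 1)) := min_le_min_right _ hxy
  have h1 : 0 ≤ dimParam κ - (2 - dimParam κ) / 2 := by unfold dimParam; linarith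
  have h2 : 0 ≤ (2 - dimParam κ) / 2 := by unfold dimParam; linarith
  have h3 := mul_nonneg hm (M.ll_nonneg hm (min_le_right _ _))
  refine mul_le_mul (Real.rpow_le_rpow hm hmm h1)
    (Real.rpow_le_rpow h3 (M.mul_ll_mono hm hmm (min_le_right _ _)) h2) (Real.rpow_nonneg h3 _)
    (Real.rpow_nonneg (hm.trans hmm) _)

theorem M.gauge_zero (hκ : 0 < κ) : gaugeReal κ 0 = 0 := by
  unfold gaugeReal
  rw [min_eq_left (Real.exp_pos _).le, Real.zero_rpow (by unfold dimParam; linarith), zero_mul]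

/-- doubling (`x ↦ log log (1/x)` decreases) -/
theorem gaugeReal_mul (hκ : 0 < κ) (hκ8 : κ < 8) {L x : ℝ} (hL : 1 ≤ L) (hx : 0 ≤ x) :
    gaugeReal κ (L * x) ≤ L ^ 2 * gaugeReal κ x := by
  rcases hx.eq_or_lt with rfl | hx
  · rw [mul_zero, M.gauge_zero hκ, mul_zero]
  have he : 0 < Real.exp (-Real.exp 1) := Real.exp_pos _
  have hm : 0 < min x (Real.exp (-Real.exp 1)) := lt_min hx he
  have hmm : min x (Real.exp (-Real.exp 1)) ≤ min (L * x) (Real.exp (-Real.exp 1)) :=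
    min_le_min_right _ (by nlinarith)
  have hmL : min (L * x) (Real.exp (-Real.exp 1)) ≤ L * min x (Real.exp (-Real.exp 1)) := by
    rw [mul_min_of_nonneg _ _ (by linarith : 0 ≤ L)]
    exact min_le_min_left _ (by nlinarith)
  have h2 : 0 ≤ (2 - dimParam κ) / 2 := by unfold dimParam; linarith
  have hd : 0 ≤ dimParam κ := by unfold dimParam; linarith
  unfold gaugeReal
  rw [← mul_assoc]
  refine mul_le_mul ?_ (Real.rpow_le_rpow (M.ll_nonneg (hm.le.trans hmm) (min_le_right _ _))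
    (M.ll_anti hm hmm (min_le_right _ _)) h2)
    (Real.rpow_nonneg (M.ll_nonneg (hm.le.trans hmm) (min_le_right _ _)) _) (by positivity)
  refine (Real.rpow_le_rpow (hm.le.trans hmm) hmL hd).trans ?_
  rw [Real.mul_rpow (by linarith) hm.le]
  refine mul_le_mul_of_nonneg_right ?_ (by positivity)
  rw [← Real.rpow_two]
  exact Real.rpow_le_rpow_of_exponent_le hL (by unfold dimParam; linarith)

theorem gaugeReal_tendsto (hκ : 0 < κ) (hκ8 : κ < 8) : Tendsto (gaugeReal κ) (𝓝[≥] 0) (𝓝 0) := by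
  have he : 0 < Real.exp (-Real.exp 1) := Real.exp_pos _
  have h1 : 0 < dimParam κ - (2 - dimParam κ) / 2 := by unfold dimParam; linarith
  have h2 : 0 ≤ (2 - dimParam κ) / 2 := by unfold dimParam; linarith
  set K := (Real.exp (-Real.exp 1) * Real.log (Real.log (1 / Real.exp (-Real.exp 1)))) ^
    ((2 - dimParam κ) / 2) with hK
  have ht : Tendsto (fun x : ℝ => x ^ (dimParam κ - (2 - dimParam κ) / 2) * K) (𝓝[≥] 0) (𝓝 0) := by
    have := ((Real.continuousAt_rpow_const 0 _ (Or.inr h1.le)).tendsto.mul_const K).mono_left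
      (nhdsWithin_le_nhds (s := Ici 0))
    rwa [Real.zero_rpow h1.ne', zero_mul] at this
  refine squeeze_zero' ?_ ?_ ht
  · filter_upwards [self_mem_nhdsWithin] with x hx using gaugeReal_nonneg κ hx
  · filter_upwards [self_mem_nhdsWithin] with x hx
    have hx : 0 ≤ x := hx
    rw [M.split hκ hκ8 hx]
    have hm : 0 ≤ min x (Real.exp (-Real.exp 1)) := le_min hx he.le
    have h3 := mul_nonneg hm (M.ll_nonneg hm (min_le_right _ _))
    exact mul_le_mul (Real.rpow_le_rpow hm (min_le_left _ _) h1.le)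
      (Real.rpow_le_rpow h3 (M.mul_ll_mono hm (min_le_right _ _) le_rfl) h2) (Real.rpow_nonneg h3 _)
      (Real.rpow_nonneg hx _)

theorem pre_le_gauge (hκ : 0 < κ) (hκ8 : κ < 8) {δ : ℝ≥0∞} {s : Set ℂ} {r : ℝ} (hr : 0 ≤ r)
    (hs : ediam s ≤ ENNReal.ofReal r) (hδ : ENNReal.ofReal r ≤ δ) :
    pre κ δ s ≤ ENNReal.ofReal (gaugeReal κ r) := by
  refine (OuterMeasure.mkMetric'.pre_le (hs.trans hδ)).trans ?_
  exact ENNReal.ofReal_le_ofReal
    (gaugeReal_mono hκ hκ8 ENNReal.toReal_nonneg hr (ENNReal.toReal_le_of_le_ofReal hr hs))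

theorem tendsto_pre (κ : ℝ) {δ : ℕ → ℝ≥0∞} (hδ : Tendsto δ atTop (𝓝[>] 0)) (s : Set ℂ) :
    Tendsto (fun j => pre κ (δ j) s) atTop (𝓝 (gaugeMeasure κ s)) := by
  have := (OuterMeasure.mkMetric'.tendsto_pre (fun s : Set ℂ => gaugeExt κ (ediam s)) s).comp hδ
  unfold gaugeMeasure
  rw [← OuterMeasure.coe_mkMetric]
  exact this

/-- Lipschitz images -/
theorem gauge_image_le (hκ : 0 < κ) (hκ8 : κ < 8) {L : ℝ≥0} (hL : 1 ≤ L) {f : ℂ → ℂ} {s : Set ℂ}
    (hf : LipschitzOnWith L f s) : gaugeMeasure κ (f '' s) ≤ (L : ℝ≥0∞) ^ 2 * gaugeMeasure κ s := by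
  have hL0 : (L : ℝ≥0∞) ≠ 0 := by
    have : (0 : ℝ≥0) < L := zero_lt_one.trans_le hL
    exact_mod_cast this.ne'
  have hL2 : (L : ℝ≥0∞) ^ 2 ≠ 0 := pow_ne_zero _ hL0
  have hL3 : (L : ℝ≥0∞) ^ 2 ≠ ⊤ := ENNReal.pow_ne_top ENNReal.coe_ne_top
  have hδ : Tendsto (fun n : ℕ => ((n + 1 : ℕ) : ℝ≥0∞)⁻¹) atTop (𝓝[>] 0) := by
    refine tendsto_inf.2 ⟨ENNReal.tendsto_inv_nat_nhds_zero.comp (tendsto_add_atTop_nat 1), ?_⟩
    exact tendsto_principal.2 (Eventually.of_forall fun n => by simp)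
  refine le_of_tendsto' (tendsto_pre κ hδ _) fun n => ?_
  set δ : ℝ≥0∞ := ((n + 1 : ℕ) : ℝ≥0∞)⁻¹ with hδdef
  have hδ0 : δ ≠ 0 := by simp [hδdef]
  have hδt : δ ≠ ⊤ := by simp [hδdef]
  have key : ((L : ℝ≥0∞) ^ 2)⁻¹ • OuterMeasure.restrict s (OuterMeasure.comap f (pre κ δ)) ≤
      OuterMeasure.mkMetric (gaugeExt κ) := by
    refine OuterMeasure.le_mkMetric _ _ (δ / L) (ENNReal.div_pos hδ0 ENNReal.coe_ne_top) fun t ht => ?_
    have htt : ediam t ≠ ⊤ := ne_top_of_le_ne_top (ENNReal.div_ne_top hδt hL0) ht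
    rw [smul_apply, smul_eq_mul, OuterMeasure.restrict_apply, OuterMeasure.comap_apply,
      ← ENNReal.div_eq_inv_mul, ENNReal.div_le_iff hL2 hL3]
    have h1 : ENNReal.ofReal (L * (ediam t).toReal) = L * ediam t := by
      rw [ENNReal.ofReal_mul L.coe_nonneg, ENNReal.ofReal_toReal htt, ENNReal.ofReal_coe_nnreal]
    refine (pre_le_gauge hκ hκ8 (r := L * (ediam t).toReal) (by positivity) ?_ ?_).trans ?_
    · rw [h1]
      refine ediam_image_le_iff.2 fun x hx y hy => (hf hx.2 hy.2).trans ?_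
      gcongr
      exact edist_le_ediam_of_mem hx.1 hy.1
    · rw [h1, mul_comm]
      exact (ENNReal.le_div_iff_mul_le (Or.inl hL0) (Or.inl ENNReal.coe_ne_top)).1 ht
    · refine (ENNReal.ofReal_le_ofReal
        (gaugeReal_mul hκ hκ8 (by exact_mod_cast hL) ENNReal.toReal_nonneg)).trans ?_
      rw [ENNReal.ofReal_mul (by positivity), mul_comm, ENNReal.ofReal_pow L.coe_nonneg,
        ENNReal.ofReal_coe_nnreal]
      rfl
  have := key s
  rw [smul_apply, smul_eq_mul, OuterMeasure.restrict_apply, OuterMeasure.comap_apply,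
      ← ENNReal.div_eq_inv_mul, ENNReal.div_le_iff hL2 hL3, inter_self, OuterMeasure.coe_mkMetric,
      mul_comm] at this
  exact this

/-- a set of measure zero is covered by balls with a small sum of gauges -/
theorem M.cover (hκ : 0 < κ) (hκ8 : κ < 8) {Γ : Set ℂ} (h0 : gaugeMeasure κ Γ = 0) {η : ℝ≥0∞} (hη : η ≠ 0)
    {r : ℝ} (hr : 0 < r) :
    ∃ (x : ℕ → ℂ) (ρ : ℕ → ℝ), (∀ n, 0 < ρ n) ∧ (∀ n, ρ n ≤ r) ∧ Γ ⊆ ⋃ n, ball (x n) (ρ n) ∧
      ∑' n, ENNReal.ofReal (gaugeReal κ (ρ n)) ≤ 5 * η := by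
  unfold gaugeMeasure at h0
  rw [Measure.mkMetric_apply] at h0
  have h1 := (le_iSup₂_of_le (f := fun (r : ℝ≥0∞) (_ : 0 < r) =>
    ⨅ (t : ℕ → Set ℂ) (_ : Γ ⊆ iUnion t) (_ : ∀ n, ediam (t n) ≤ r),
          ∑' n, ⨆ _ : (t n).Nonempty, gaugeExt κ (ediam (t n))) (ENNReal.ofReal (r / 2))
          (ENNReal.ofReal_pos.2 (half_pos hr)) le_rfl).trans h0.le
  have h2 := h1.trans_lt (pos_iff_ne_zero.2 hη)
  simp only [iInf_lt_iff] at h2
  obtain ⟨t, ht, hd, hs⟩ := h2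
  obtain ⟨e, he, hes⟩ := ENNReal.exists_pos_sum_of_countable hη ℕ
  have key : ∀ n, ∃ (x : ℂ) (ρ : ℝ), 0 < ρ ∧ ρ ≤ r ∧ t n ⊆ ball x ρ ∧
      ENNReal.ofReal (gaugeReal κ ρ) ≤ 4 * (⨆ _ : (t n).Nonempty, gaugeExt κ (ediam (t n))) + e n := by
    intro n
    have htt : ediam (t n) ≠ ⊤ := ne_top_of_le_ne_top ENNReal.ofReal_ne_top (hd n)
    by_cases hz : ediam (t n) = 0
    · have hsub : (t n).Subsingleton := ediam_eq_zero_iff.1 hz
      obtain ⟨x, hx⟩ : ∃ x, t n ⊆ {x} := by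
        rcases hsub.eq_empty_or_singleton with h | ⟨x, h⟩
        · exact ⟨0, by simp [h]⟩
        · exact ⟨x, h.subset⟩
      have h3 : ∀ᶠ ρ in 𝓝[>] (0 : ℝ), gaugeReal κ ρ < e n :=
        ((gaugeReal_tendsto hκ hκ8).mono_left (nhdsWithin_mono _ Ioi_subset_Ici_self)).eventually
          (gt_mem_nhds (by exact_mod_cast he n))
      obtain ⟨ρ, h4, h5⟩ := (h3.and (Ioo_mem_nhdsGT hr)).exists
      refine ⟨x, ρ, h5.1, h5.2.le, hx.trans (singleton_subset_iff.2 (mem_ball_self h5.1)), ?_⟩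
      refine le_add_left ((ENNReal.ofReal_le_ofReal h4.le).trans ?_)
      rw [ENNReal.ofReal_coe_nnreal]
    · obtain ⟨x, hx, -⟩ := ediam_pos_iff.1 (pos_iff_ne_zero.2 hz)
      have hp : 0 < (ediam (t n)).toReal := ENNReal.toReal_pos hz htt
      have hle : (ediam (t n)).toReal ≤ r / 2 := ENNReal.toReal_le_of_le_ofReal (half_pos hr).le (hd n)
      refine ⟨x, 2 * (ediam (t n)).toReal, by positivity, by linarith, fun y hy => ?_, ?_⟩
      · rw [mem_ball, dist_edist]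
        have := ENNReal.toReal_mono htt (edist_le_ediam_of_mem hy hx)
        linarith
      · refine le_add_right ?_
        rw [iSup_pos ⟨x, hx⟩]
        refine (ENNReal.ofReal_le_ofReal (gaugeReal_mul hκ hκ8 one_le_two hp.le)).trans ?_
        rw [ENNReal.ofReal_mul (by positivity)]
        refine mul_le_mul' (le_of_eq ?_) le_rfl
        rw [show ((2 : ℝ) ^ 2) = ((4 : ℕ) : ℝ) by norm_num, ENNReal.ofReal_natCast]
        rfl
  choose x ρ h3 h4 h5 h6 using key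
  refine ⟨x, ρ, h3, h4, ht.trans (iUnion_mono h5), ?_⟩
  refine (ENNReal.tsum_le_tsum h6).trans ?_
  rw [ENNReal.tsum_add, ENNReal.tsum_mul_left, show (5 : ℝ≥0∞) = 4 + 1 by norm_num, add_mul, one_mul]
  gcongr

/-- mass distribution principle for a sequence of approximate measures -/
theorem frostman (hκ : 0 < κ) (hκ8 : κ < 8) {Γ : Set ℂ} (hΓ : IsCompact Γ) (ν : ℕ → Measure ℂ) {ε : ℕ → ℝ}
    (hε : Tendsto ε atTop (𝓝 0)) {c C r₀ : ℝ} (hc : 0 < c) (hr₀ : 0 < r₀)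
    (hsupp : ∀ n, ∀ᵐ z ∂ν n, ∃ w ∈ Γ, dist z w ≤ ε n) (hmass : ∀ n, ENNReal.ofReal c ≤ ν n univ)
    (hball : ∀ n, ∀ᵐ z ∂ν n, ∀ r, ε n ≤ r → 0 < r → r ≤ r₀ →
      ν n (ball z r) ≤ ENNReal.ofReal (C * gaugeReal κ r)) :
    0 < gaugeMeasure κ Γ := by
  classical
  refine pos_iff_ne_zero.2 fun h0 => ?_
  set K : ℝ := 16 * (|C| + 1) with hK
  have hK0 : 0 < K := by positivity
  have hη : 0 < c / (10 * K) := by positivity
  obtain ⟨x, ρ, hρ, hρr, hcov, hsum⟩ := M.cover hκ hκ8 h0 (η := ENNReal.ofReal (c / (10 * K)))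
    (ENNReal.ofReal_pos.2 hη).ne' (r := r₀ / 4) (by positivity)
  obtain ⟨F, hF⟩ := hΓ.elim_finite_subcover _ (fun n => isOpen_ball) hcov
  have hev : ∀ᶠ n in atTop, ∀ i ∈ F, ε n ≤ ρ i :=
    (eventually_all_finset F).2 fun i _ => hε.eventually (ge_mem_nhds (hρ i))
  obtain ⟨n, hn⟩ := hev.exists
  have h1 : ∀ i ∈ F, ν n (ball (x i) (2 * ρ i)) ≤ ENNReal.ofReal K * ENNReal.ofReal (gaugeReal κ (ρ i)) := by
    intro i hi
    by_cases hz : ν n (ball (x i) (2 * ρ i)) = 0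
    · rw [hz]; exact zero_le
    obtain ⟨z, hz1, hz2⟩ := Measure.exists_mem_of_measure_ne_zero_of_ae hz (ae_restrict_of_ae (hball n))
    have h2 := hz2 (4 * ρ i) (by linarith [hn i hi, hρ i]) (by linarith [hρ i]) (by linarith [hρr i])
    have h3 : ball (x i) (2 * ρ i) ⊆ ball z (4 * ρ i) := by
      intro w hw
      rw [mem_ball] at hw hz1 ⊢
      linarith [dist_triangle_right w z (x i)]
    refine (measure_mono h3).trans (h2.trans ?_)
    rw [← ENNReal.ofReal_mul hK0.le]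
    refine ENNReal.ofReal_le_ofReal ?_
    have h4 := gaugeReal_mul hκ hκ8 (L := 4) (by norm_num) (hρ i).le
    have h5 := gaugeReal_nonneg κ (x := 4 * ρ i) (by linarith [hρ i])
    have h6 : C ≤ |C| + 1 := by linarith [le_abs_self C]
    calc C * gaugeReal κ (4 * ρ i) ≤ (|C| + 1) * gaugeReal κ (4 * ρ i) := by gcongr
      _ ≤ (|C| + 1) * (4 ^ 2 * gaugeReal κ (ρ i)) := by gcongr
      _ = K * gaugeReal κ (ρ i) := by rw [hK]; ring
  have h2 : ν n univ ≤ ν n (⋃ i ∈ F, ball (x i) (2 * ρ i)) := by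
    refine measure_mono_ae ?_
    filter_upwards [hsupp n] with z hz _
    obtain ⟨w, hw, hzw⟩ := hz
    obtain ⟨i, hi, hwi⟩ := mem_iUnion₂.1 (hF hw)
    refine mem_iUnion₂.2 ⟨i, hi, ?_⟩
    rw [mem_ball] at hwi ⊢
    linarith [dist_triangle z w (x i), hn i hi]
  have h3 : ENNReal.ofReal c ≤ ENNReal.ofReal K * (5 * ENNReal.ofReal (c / (10 * K))) :=
    calc ENNReal.ofReal c ≤ ν n (⋃ i ∈ F, ball (x i) (2 * ρ i)) := (hmass n).trans h2
      _ ≤ ∑ i ∈ F, ν n (ball (x i) (2 * ρ i)) := measure_biUnion_finset_le F _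
      _ ≤ ∑ i ∈ F, ENNReal.ofReal K * ENNReal.ofReal (gaugeReal κ (ρ i)) := Finset.sum_le_sum h1
      _ = ENNReal.ofReal K * ∑ i ∈ F, ENNReal.ofReal (gaugeReal κ (ρ i)) := (Finset.mul_sum _ _ _).symm
      _ ≤ _ := by
        gcongr
        exact (ENNReal.sum_le_tsum F).trans hsum
  rw [show (5 : ℝ≥0∞) = ENNReal.ofReal 5 by simp, ← ENNReal.ofReal_mul (by norm_num),
    ← ENNReal.ofReal_mul hK0.le, ENNReal.ofReal_le_ofReal_iff (by positivity)] at h3
  have h4 : K * (5 * (c / (10 * K))) = c / 2 := by field_simp; ring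
  linarith

end Crest.Agent.R162
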