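import Crest.Agent.R162.Z
import Crest.Agent.R162.K2
import Crest.Agent.R162.M
import Crest.Agent.R162.C.Fin

/-!
# Row 162, block C: finite expectation (random fractional cover).  API file: the statement is FROZEN; the owner
proves it in `R162/C/*.lean`.  See `notes162/R162.md`.
-/

set_option autoImplicit false

open scoped ENNReal NNReal Topology
open Set Filter MeasureTheory Metric

noncomputable section
namespace Crest.Agent.R162

open Crest.ProbabilityR.Loewner

theorem finiteness {κ : ℝ} {μ : Measure Path} (hκ : 0 < κ) (hκ8 : κ < 8) (hμ : Wie κ μ) (R : ℝ) :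
    ∃ F : Path → ℝ≥0∞, Measurable F ∧ ∫⁻ ω, F ω ∂μ < ⊤ ∧
      ∀ (ω : Path) (γ : ℝ → ℂ), IsChordalTrace ω γ → gaugeMeasure κ (γ '' Ici 0 ∩ closedBall 0 R) ≤ F ω :=
  Cv.finiteness hκ hκ8 hμ R

end Crest.Agent.R162
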