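import Mathlib
import Crest.Prelude.Def_Loewner

/-!
# Row 162 (exact Hausdorff gauge of SLE): shared definitions.  FROZEN (ask helper16).
Blueprint: `notes162/R162.md`.  Block statements: `R162/Iface.lean`.
-/

set_option autoImplicit false

open scoped ENNReal NNReal Topology
open Set Filter MeasureTheory Metric

noncomputable section
namespace Crest.Agent.R162

/-! ## Path space -/

/-- driving functions (compact-open topology; Polish) -/
abbrev Path := C(ℝ, ℝ)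

instance : MeasurableSpace Path := borel _
instance : BorelSpace Path := ⟨rfl⟩

/-- follow `ω` up to time `t`, then the increments of `ω'` -/
def spl (t : ℝ) (ω ω' : Path) : Path :=
  ⟨fun s => ω (min s t) + (ω' (max (s - t) 0) - ω' 0), by fun_prop⟩

/-- the increments after time `t` -/
def sh (t : ℝ) (ω : Path) : Path := ⟨fun s => ω (t + max s 0) - ω t, by fun_prop⟩

/-- Brownian scaling -/
def scl (c : ℝ) (ω : Path) : Path := ⟨fun s => ω (c ^ 2 * s) / c, by fun_prop⟩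

/-- `0` before `a`, slope `1` on `[a, b]`, constant after `b` -/
def ramp (a b : ℝ) : Path := ⟨fun s => min (max s a) b - a, by fun_prop⟩

/-- `ω` and `ω'` agree up to time `t` -/
def Agr (t : ℝ) (ω ω' : Path) : Prop := ∀ s, s ≤ t → ω' s = ω s

/-- finite stopping time (Galmarino's form) -/
structure Stop (τ : Path → ℝ) : Prop where
  meas : Measurable τ
  nonneg : ∀ ω, 0 ≤ τ ω
  agr : ∀ ω ω', Agr (τ ω) ω ω' → τ ω' = τ ω

/-- `sup_{0 ≤ t ≤ T} |ω t - ω 0|` -/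
def osc (T : ℝ) (ω : Path) : ℝ := sSup ((fun t => |ω t - ω 0|) '' Icc 0 T)

/-- the law of `√κ B`, through the properties we use -/
structure Wie (κ : ℝ) (μ : Measure Path) : Prop where
  prob : IsProbabilityMeasure μ
  zero : ∀ᵐ ω ∂μ, ∀ t, t ≤ 0 → ω t = 0
  law : ∀ h : ℝ, 0 ≤ h →
    μ.map (fun ω : Path => ω h) = ProbabilityTheory.gaussianReal 0 (κ * h).toNNReal
  /-- strong Markov property -/
  markov : ∀ τ : Path → ℝ, Stop τ →
    MeasurePreserving (fun p : Path × Path => spl (τ p.1) p.1 p.2) (μ.prod μ) μ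
  scale : ∀ c : ℝ, 0 < c → MeasurePreserving (scl c) μ μ
  /-- Cameron–Martin -/
  cm : ∀ (a b c : ℝ) (F : Path → ℝ≥0∞), 0 ≤ a → a ≤ b → Measurable F →
    ∫⁻ ω, F (ω + c • ramp a b) ∂μ = ∫⁻ ω, F ω *
      ENNReal.ofReal (Real.exp (c * (ω b - ω a) / κ - c ^ 2 * (b - a) / (2 * κ))) ∂μ

/-- conditional expectation given the path `ω` up to time `s` -/
def EE (μ : Measure Path) (ω : Path) (s : ℝ) (F : Path → ℝ≥0∞) : ℝ≥0∞ := ∫⁻ ω', F (spl s ω ω') ∂μ

/-- `τ` is a bounded stopping time which is `≥ s` on the continuations of `ω` after `s` -/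
structure After (τ : Path → ℝ) (ω : Path) (s T : ℝ) : Prop where
  stop : Stop τ
  nonneg : 0 ≤ s
  le : ∀ ω', s ≤ τ (spl s ω ω')
  bdd : ∀ ω', τ ω' ≤ T

/-- first time in `[s, T]` at which `X ≥ c` (`T` if there is none) -/
def hitX (X : ℝ → Path → ℝ) (c s T : ℝ) (ω : Path) : ℝ :=
  sInf ({t | t ∈ Icc s T ∧ c ≤ X t ω} ∪ {T})

/-! ## Random fields `Ψ (time, space, path)` with one time and two space derivatives -/

structure Jet (E : Type) where
  f : ℝ → ℝ → Path → E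
  s : ℝ → ℝ → Path → E
  x : ℝ → ℝ → Path → E
  xx : ℝ → ℝ → Path → E

section jet
variable {E : Type} [NormedAddCommGroup E] [NormedSpace ℝ E]

/-- joint continuity at a point of `[0, ∞) × ℝ × Path` -/
def CtsAt (f : ℝ → ℝ → Path → E) (t x : ℝ) (ω : Path) : Prop :=
  ContinuousWithinAt (fun p : ℝ × ℝ × Path => f p.1 p.2.1 p.2.2) (Ici 0 ×ˢ univ) (t, x, ω)

/-- the local conditions -/
structure Jet.At (J : Jet E) (t x : ℝ) (ω : Path) : Prop where
  cf : CtsAt J.f t x ω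
  cs : CtsAt J.s t x ω
  cx : CtsAt J.x t x ω
  cxx : CtsAt J.xx t x ω
  ds : HasDerivWithinAt (fun r => J.f r x ω) (J.s t x ω) (Ici t) t
  dx : HasDerivAt (fun y => J.f t y ω) (J.x t x ω) x
  dxx : HasDerivAt (fun y => J.x t y ω) (J.xx t x ω) x

/-- the value at time `t` only depends on the path up to time `t` -/
def Adapted (f : ℝ → ℝ → Path → E) (t₀ : ℝ) : Prop :=
  ∀ t x ω ω', t₀ ≤ t → Agr t ω ω' → f t x ω' = f t x ω

/-- all four components are bounded by `C` -/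
def Jet.Bd (J : Jet E) (t x : ℝ) (ω : Path) (C : ℝ) : Prop :=
  ‖J.f t x ω‖ ≤ C ∧ ‖J.s t x ω‖ ≤ C ∧ ‖J.x t x ω‖ ≤ C ∧ ‖J.xx t x ω‖ ≤ C

structure Jet.Ok (J : Jet E) (t₀ T : ℝ) : Prop where
  nonneg : 0 ≤ t₀
  af : Adapted J.f t₀
  as : Adapted J.s t₀
  ax : Adapted J.x t₀
  axx : Adapted J.xx t₀
  loc : ∀ t ∈ Icc t₀ T, ∀ x ω, J.At t x ω
  bd : ∃ C, ∀ t ∈ Icc t₀ T, ∀ x ω, J.Bd t x ω C

/-- the process `Ψ (t, ω t, ω)` -/
def Jet.val (J : Jet E) (t : ℝ) (ω : Path) : E := J.f t (ω t) ω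

/-- its drift -/
def Jet.gen (J : Jet E) (κ t : ℝ) (ω : Path) : E := J.s t (ω t) ω + (κ / 2) • J.xx t (ω t) ω

def Jet.add (J K : Jet E) : Jet E := ⟨J.f + K.f, J.s + K.s, J.x + K.x, J.xx + K.xx⟩

def Jet.mul {A : Type} [NormedRing A] (J K : Jet A) : Jet A :=
  ⟨J.f * K.f, J.s * K.f + J.f * K.s, J.x * K.f + J.f * K.x,
    J.xx * K.f + J.x * K.x + (J.x * K.x + J.f * K.xx)⟩

/-- constant in time and space -/
def Jet.const (c : Path → E) : Jet E := ⟨fun _ _ => c, 0, 0, 0⟩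

/-- the space variable -/
def Jet.X : Jet ℝ := ⟨fun _ x _ => x, 0, 1, 0⟩

/-- a process of finite variation -/
def Jet.fv (a a' : ℝ → Path → E) : Jet E := ⟨fun t _ => a t, fun t _ => a' t, 0, 0⟩

/-- image by a linear map -/
def Jet.clm {F : Type} [NormedAddCommGroup F] [NormedSpace ℝ F] (L : E →L[ℝ] F) (J : Jet E) : Jet F :=
  ⟨fun t x ω => L (J.f t x ω), fun t x ω => L (J.s t x ω), fun t x ω => L (J.x t x ω),
    fun t x ω => L (J.xx t x ω)⟩

/-- composition with a function of one (real or complex) variable with derivatives `φ'`, `φ''` -/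
def Jet.comp {A : Type} [NormedRing A] (φ φ' φ'' : A → A) (J : Jet A) : Jet A :=
  ⟨fun t x ω => φ (J.f t x ω), fun t x ω => φ' (J.f t x ω) * J.s t x ω,
    fun t x ω => φ' (J.f t x ω) * J.x t x ω,
    fun t x ω => φ'' (J.f t x ω) * J.x t x ω * J.x t x ω + φ' (J.f t x ω) * J.xx t x ω⟩

/-- integral over a parameter -/
def Jet.int {α : Type} [MeasurableSpace α] (m : Measure α) (J : α → Jet E) : Jet E :=
  ⟨fun t x ω => ∫ z, (J z).f t x ω ∂m, fun t x ω => ∫ z, (J z).s t x ω ∂m,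
    fun t x ω => ∫ z, (J z).x t x ω ∂m, fun t x ω => ∫ z, (J z).xx t x ω ∂m⟩

/-- the field seen along the path `ω + h`, where `h t = h₀ + c t` on the time interval of interest -/
def Jet.drift (J : Jet E) (h : Path) (h₀ c : ℝ) : Jet E :=
  ⟨fun t x ω => J.f t (x + (h₀ + c * t)) (ω + h),
    fun t x ω => J.s t (x + (h₀ + c * t)) (ω + h) + c • J.x t (x + (h₀ + c * t)) (ω + h),
    fun t x ω => J.x t (x + (h₀ + c * t)) (ω + h), fun t x ω => J.xx t (x + (h₀ + c * t)) (ω + h)⟩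

end jet

/-! ## The Loewner flow -/

/-- the upper half-plane -/
def HH : Set ℂ := {z | 0 < z.im}

/-- `g` solves Loewner's equation in the half-plane on `[0, t]`, starting at `z` -/
structure Sol (ω : Path) (z : ℂ) (t : ℝ) (g : ℝ → ℂ) : Prop where
  init : g 0 = z
  cont : ContinuousOn g (Icc 0 t)
  pos : ∀ s ∈ Icc 0 t, 0 < (g s).im
  ode : ∀ s ∈ Ico 0 t, HasDerivWithinAt g (2 / (g s - ω s)) (Ici s) s

def Alive (ω : Path) (z : ℂ) (t : ℝ) : Prop := 0 ≤ t ∧ ∃ g, Sol ω z t g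

/-- the domain at time `t` -/
def Dom (ω : Path) (t : ℝ) : Set ℂ := {z | Alive ω z t}

open Classical in
/-- `g_t(z)`, and `0` if `z` is dead -/
def gt (ω : Path) (z : ℂ) (t : ℝ) : ℂ := if h : Alive ω z t then h.2.choose t else 0

/-- the inverse map `g_t⁻¹ : HH → Dom ω t` -/
def ft (ω : Path) (t : ℝ) : ℂ → ℂ := Function.invFunOn (fun z => gt ω z t) (Dom ω t)

def Zc (ω : Path) (z : ℂ) (t : ℝ) : ℂ := gt ω z t - ω t

def Yc (ω : Path) (z : ℂ) (t : ℝ) : ℝ := (gt ω z t).im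

/-- sine of the argument (`0` for dead points) -/
def Sc (ω : Path) (z : ℂ) (t : ℝ) : ℝ := Yc ω z t / ‖Zc ω z t‖

/-- `Υ = Y / |g_t'|`, half the conformal radius (`0` for dead points) -/
def Up (ω : Path) (z : ℂ) (t : ℝ) : ℝ :=
  Yc ω z t * Real.exp (∫ s in (0 : ℝ)..t, (2 / Zc ω z s ^ 2).re)

/-- first time `≤ T` at which `x` is alive with `Υ ≤ ρ` (`T` if there is none) -/
def hitU (x : ℂ) (ρ T : ℝ) (ω : Path) : ℝ :=
  sInf ({t | t ∈ Icc 0 T ∧ Alive ω x t ∧ Up ω x t ≤ ρ} ∪ {T})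

/-- `x` is approached before time `T` -/
def Hit (x : ℂ) (ρ T : ℝ) : Set Path := {ω | ∃ t ∈ Icc 0 T, Alive ω x t ∧ Up ω x t ≤ ρ}

/-! ## The basic jets of the flow -/

/-- `g_t(z)` -/
def jG (z : ℂ) : Jet ℂ := Jet.fv (fun t ω => gt ω z t) (fun t ω => 2 / Zc ω z t)

/-- `g_t(z) - x`; on the diagonal `x = ω t` this is `Z_t(z)` -/
def jZ (z : ℂ) : Jet ℂ := ⟨fun t x ω => gt ω z t - x, fun t _ ω => 2 / Zc ω z t, fun _ _ _ => -1, 0⟩

/-- `Y_t(z)` -/
def jY (z : ℂ) : Jet ℝ := Jet.fv (fun t ω => Yc ω z t) (fun t ω => -2 * Yc ω z t / ‖Zc ω z t‖ ^ 2)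

/-- `Υ_t(z)` -/
def jU (z : ℂ) : Jet ℝ :=
  Jet.fv (fun t ω => Up ω z t) (fun t ω => -4 * Up ω z t * Sc ω z t ^ 2 / ‖Zc ω z t‖ ^ 2)

/-- `g_t⁻¹` applied to a field with values in `HH` -/
def Jet.ft (J : Jet ℂ) : Jet ℂ :=
  ⟨fun t x ω => R162.ft ω t (J.f t x ω),
    fun t x ω => deriv (R162.ft ω t) (J.f t x ω) * (J.s t x ω - 2 / (J.f t x ω - ω t)),
    fun t x ω => deriv (R162.ft ω t) (J.f t x ω) * J.x t x ω,
    fun t x ω => deriv (deriv (R162.ft ω t)) (J.f t x ω) * J.x t x ω * J.x t x ω +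
      deriv (R162.ft ω t) (J.f t x ω) * J.xx t x ω⟩

/-! ## Green's function and the approximate natural measure -/

/-- boundary exponent `8/κ - 1` -/
def aa (κ : ℝ) : ℝ := 8 / κ - 1

/-- `2 - d` -/
def bb (κ : ℝ) : ℝ := 1 - κ / 8

/-- `Υ^{d-2} S^g` -/
def Vg (κ g : ℝ) (ω : Path) (z : ℂ) (t : ℝ) : ℝ := Up ω z t ^ (-bb κ) * Sc ω z t ^ g

/-- the Green's function local martingale -/
def Gr (κ : ℝ) (ω : Path) (z : ℂ) (t : ℝ) : ℝ := Vg κ (aa κ) ω z t

/-- value at time `0` -/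
def V0 (κ g : ℝ) (z : ℂ) : ℝ := z.im ^ (-bb κ) * (z.im / ‖z‖) ^ g

/-- rate at which `Gr · smoothTransition (log (Υ/y))` is killed, restricted to `S ≥ s₀` -/
def dens (κ s₀ y : ℝ) (ω : Path) (z : ℂ) (t : ℝ) : ℝ :=
  4 * deriv Real.smoothTransition (Real.log (Up ω z t / y)) * Gr κ ω z t * Sc ω z t ^ 2 *
    Real.smoothTransition (Sc ω z t / s₀ - 1) / ‖Zc ω z t‖ ^ 2

/-- mass produced at `z` during the set of times `I` -/
def nz (κ s₀ y : ℝ) (ω : Path) (z : ℂ) (I : Set ℝ) : ℝ≥0∞ :=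
  ∫⁻ t in I, ENNReal.ofReal (dens κ s₀ y ω z t)

/-- mass produced in `A` during the set of times `I` -/
def nu (κ s₀ y : ℝ) (ω : Path) (A : Set ℂ) (I : Set ℝ) : ℝ≥0∞ := ∫⁻ z in A, nz κ s₀ y ω z I

/-- weight localising `Υ` at the scale `ε` -/
def wt (η ε v : ℝ) : ℝ := min ((v / ε) ^ η) ((ε / v) ^ η)

/-- a mark: the probability of declaring that the path is a snake on `[0, T]` -/
structure Mark (π : Path → ℝ) (T Lip : ℝ) : Prop where
  cont : Continuous π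
  nonneg : ∀ ω, 0 ≤ π ω
  half : ∀ ω, π ω ≤ 1 / 2
  lip : ∀ (ω ω' : Path) (β : ℝ), (∀ t ∈ Icc 0 T, |(ω t - ω 0) - (ω' t - ω' 0)| ≤ β) →
    1 - π ω ≤ Real.exp (Lip * β) * (1 - π ω')
  agr : ∀ ω ω' : Path, Agr T ω ω' → π ω' = π ω

/-- positivity of the gauge measure of every compact set carrying the boundaries of the hulls up to time `T` in the
disc `closedBall (2 i) 1` -/
def PosAt (κ T : ℝ) (ω : Path) : Prop := ∀ Γ : Set ℂ, IsCompact Γ →
  (∀ t ∈ Icc 0 T, frontier (Dom ω t) ∩ closedBall (2 * Complex.I) 1 ⊆ Γ) →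
  0 < Crest.ProbabilityR.Loewner.gaugeMeasure κ Γ

/-- the gauge outer measure at mesh `δ` -/
def pre (κ : ℝ) (δ : ℝ≥0∞) : OuterMeasure ℂ :=
  OuterMeasure.mkMetric'.pre (fun s => Crest.ProbabilityR.Loewner.gaugeExt κ (ediam s)) δ

end Crest.Agent.R162
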