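import Crest.Agent.R162.E.Fin

/-!
# Row 162, block E: exponential tail of the mass of a ball.  API file: the statement is FROZEN (owner helper16).
See `notes162/R162.md`.
-/

set_option autoImplicit false

open scoped ENNReal NNReal Topology
open Set Filter MeasureTheory Metric

noncomputable section
namespace Crest.Agent.R162

structure Tail (κ : ℝ) (μ : Measure Path) (s₀ c C : ℝ) : Prop where
  c_pos : 0 < c
  one_le : 1 ≤ C
  tail : ∀ (ω : Path) (s T : ℝ) (x₀ : ℂ) (r m y l : ℝ), 0 ≤ s → 0 < r → 1 ≤ m → 0 < y → y ≤ c * r / m → 0 ≤ l →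
    (∀ z ∈ ball x₀ r, Alive ω z s ∧ 3 * r / m ≤ Up ω z s) →
    μ {ω' | ENNReal.ofReal l ≤ nu κ s₀ y (spl s ω ω') (ball x₀ r) (Ioc s T)} ≤
      ENNReal.ofReal (Real.exp (C * m ^ 2 - c * (m / r) ^ (2 - bb κ) * l))

theorem exists_tail {κ : ℝ} {μ : Measure Path} (hκ : 0 < κ) (hκ8 : κ < 8) (hμ : Wie κ μ) {s₀ : ℝ} (hs₀ : 0 < s₀) :
    ∃ c C, Tail κ μ s₀ c C := by
  obtain ⟨c, K, K₃, hc, hK, hK1, hK₃, hd⟩ := E.drift hκ hκ8 hs₀
  refine ⟨c, 400 * K₃, hc, by linarith, ?_⟩
  intro ω s T x₀ r m y l hs hr hm hy hyc hl hball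
  have hm0 : 0 < m := by linarith
  have hprob := hμ.prob
  have hpow : (r / m) ^ (bb κ - 2) = (m / r) ^ (2 - bb κ) := by
    rw [show bb κ - 2 = -(2 - bb κ) by ring, Real.rpow_neg (by positivity), ← Real.inv_rpow (by positivity), inv_div]
  rcases lt_or_ge T s with hT | hT
  · have h0 : ∀ ω', nu κ s₀ y (spl s ω ω') (ball x₀ r) (Ioc s T) = 0 := fun ω' => by
      simp [nu, nz, Ioc_eq_empty (not_lt.2 hT.le)]
    rcases hl.eq_or_lt with rfl | hl
    · refine prob_le_one.trans ?_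
      rw [ENNReal.one_le_ofReal]
      exact Real.one_le_exp (by rw [mul_zero, sub_zero]; positivity)
    · have : {ω' | ENNReal.ofReal l ≤ nu κ s₀ y (spl s ω ω') (ball x₀ r) (Ioc s T)} = ∅ := by
        ext ω'; simp [h0, hl]
      rw [this]; simp
  let p : ℕ → E.Par := fun n => ⟨κ, x₀, r, r / m, y, 1 / ((n : ℝ) + 1), K, K₃⟩
  have hp : ∀ n, (p n).Ok := fun n =>
    ⟨hκ, hκ8, hr, by show 0 < r / m; positivity, hy, by show 0 < 1 / ((n : ℝ) + 1); positivity, hK, hK1, hK₃⟩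
  have hA : 0 < c * (r / m) ^ (bb κ - 2) := by positivity
  have hint : ∀ n ω₁, ENNReal.ofReal (∫ t in s..T, E.rate (p n) s₀ t ω₁) = ∫⁻ z in ball x₀ r, ∫⁻ t in Ioc s T,
      ENNReal.ofReal (cut (1 / ((n : ℝ) + 1)) (Yc ω₁ z t) * dens κ s₀ y ω₁ z t) := fun n ω₁ =>
    E.rate_integral (hp n) hs₀ hT ω₁
  have h0 : ∀ n ω₁, 0 ≤ ∫ t in s..T, E.rate (p n) s₀ t ω₁ := fun n ω₁ => by
    obtain ⟨B, hB⟩ := E.rate_bd (hp n) hs₀
    exact intervalIntegral.integral_nonneg hT fun t _ => (hB t ω₁).1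
  have hcont : ∀ n, Continuous fun ω₁ : Path => ∫ t in s..T, E.rate (p n) s₀ t ω₁ := fun n => by
    obtain ⟨B, hB⟩ := E.rate_bd (hp n) hs₀
    have hc := E.rate_cont (hp n) hs₀
    refine intervalIntegral.continuous_of_dominated_interval (bound := fun _ => B) ?_ ?_ intervalIntegrable_const ?_
    · intro ω₁
      refine ContinuousOn.aestronglyMeasurable ?_ measurableSet_uIoc
      refine hc.comp (f := fun t : ℝ => (t, ω₁)) (by fun_prop) fun t ht => ⟨?_, trivial⟩
      rw [uIoc_of_le hT] at ht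
      exact hs.trans ht.1.le
    · intro ω₁
      exact Eventually.of_forall fun t _ => by rw [Real.norm_eq_abs, abs_of_nonneg (hB t ω₁).1]; exact (hB t ω₁).2
    · refine Eventually.of_forall fun t ht => ?_
      rw [uIoc_of_le hT] at ht
      exact continuousOn_univ.1 (hc.comp (f := fun ω₁ : Path => (t, ω₁)) (by fun_prop)
        fun ω₁ _ => ⟨hs.trans ht.1.le, trivial⟩)
  have hspl : Continuous fun ω' : Path => spl s ω ω' :=
    continuous_spl.comp (f := fun ω' : Path => (s, ω, ω')) (by fun_prop)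
  have key := E.cheb (μ := μ) (X := fun n ω' => ∫ t in s..T, E.rate (p n) s₀ t (spl s ω ω'))
    (Y := fun ω' => nu κ s₀ y (spl s ω ω') (ball x₀ r) (Ioc s T)) (D := 400 * K₃ * m ^ 2) hA hl
    (fun n => ((hcont n).comp hspl).measurable) (fun n ω' => h0 n _)
    (fun ω' => by
      simp only [hint]
      exact (E.iSup_cut_nu hκ8 hs₀ hy _ _ _).1)
    (fun ω' => by
      simp only [hint]
      exact (E.iSup_cut_nu hκ8 hs₀ hy _ _ _).2)
    (fun n => by
      refine (E.expo hκ hμ hs₀ (hp n) hA.le (fun ω₁ t ht => hd (p n) (hp n) rfl rfl rfl ?_ ω₁ t ht) ω hs hT).trans ?_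
      · show y ≤ c * (r / m)
        rwa [← mul_div_assoc]
      · refine ENNReal.ofReal_le_ofReal (Real.exp_le_exp.2 ((E.Phi_val_le (hp n) fun z hz => ?_).trans ?_))
        · refine le_trans ?_ (hball z hz).2
          show 2 * (r / m) ≤ 3 * r / m
          rw [mul_div_assoc]
          have : 0 < r / m := by positivity
          linarith
        · show 200 * K₃ * (1 + (r / (r / m)) ^ 2) ≤ 400 * K₃ * m ^ 2
          have : r / (r / m) = m := by field_simp
          rw [this]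
          have h1 : 1 ≤ m ^ 2 := one_le_pow₀ hm
          nlinarith)
  rwa [hpow] at key

end Crest.Agent.R162
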