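import Crest.Agent.R162.K.Half
import Crest.Agent.R162.K.Flow
import Crest.Agent.R162.K.Trace

/-!
# Row 162, block K/T: Koebe distortion (unspecified constants) and the link with the trace.  API file: statements
are FROZEN; the owner proves them in `R162/K/*.lean` and fills the `sorry`s here by `exact`.
See `notes162/R162.md`.  The structures `Koebe`, `KoebeF` are in `R162/K/Str.lean`.
-/

set_option autoImplicit false

open scoped ENNReal NNReal Topology
open Set Filter MeasureTheory Metric

noncomputable section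
namespace Crest.Agent.R162

open Crest.ProbabilityR.Loewner

theorem exists_koebe : ∃ C, Koebe C :=
  kh_exists

theorem exists_koebeF : ∃ C, KoebeF C :=
  let ⟨_, hC⟩ := exists_koebe; ⟨_, kf_main hC⟩

/-! ### the trace -/

variable {ω : Path} {γ : ℝ → ℂ} {s t : ℝ}

theorem trace_dom (h : IsChordalTrace ω γ) (ht : 0 ≤ t) : survivingDomain γ t = Dom ω t :=
  kt_dom h ht

theorem trace_not_mem (h : IsChordalTrace ω γ) (hs : s ∈ Icc 0 t) : γ s ∉ Dom ω t :=
  kt_not_mem h hs

theorem trace_mem_closure (h : IsChordalTrace ω γ) (hs : s ∈ Icc 0 t) : γ t ∈ closure (Dom ω s) :=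
  kt_mem_closure h hs

/-- T1: new boundary points lie on the new part of the trace -/
theorem trace_frontier (h : IsChordalTrace ω γ) (hs : s ∈ Icc 0 t) {z : ℂ} (hz : z ∈ Dom ω s)
    (hz' : z ∈ frontier (Dom ω t)) : z ∈ γ '' Icc s t :=
  kt_frontier h hs hz hz'

/-- T2: if the trace visits `ball x ρ` then `Υ(x)` gets below `C ρ` before -/
theorem trace_hit {C : ℝ} (hC : KoebeF C) (h : IsChordalTrace ω γ) {x : ℂ} {ρ T : ℝ} (ht : t ∈ Icc 0 T)
    (hx : ‖γ t - x‖ < ρ) (hρ : 2 * ρ ≤ x.im) : ω ∈ Hit x (C * ρ) T ∧ hitU x (C * ρ) T ω ≤ t :=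
  kt_hit hC h ht hx hρ

end Crest.Agent.R162
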