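import Crest.Agent.R162.I.Calc
import Crest.Agent.R162.I.Int
import Crest.Agent.R162.I.Hit
import Crest.Agent.R162.I.Dyn

/-!
# Row 162, block I: Dynkin's formula for jets, and the jet calculus.  API file: statements are FROZEN; the owner
proves them in `R162/I/*.lean` and fills the `sorry`s here by `exact`.  See `notes162/R162.md`.
-/

set_option autoImplicit false

open scoped ENNReal NNReal Topology
open Set Filter MeasureTheory Metric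

noncomputable section
namespace Crest.Agent.R162

section calculus
variable {E : Type} [NormedAddCommGroup E] [NormedSpace ℝ E] {t x : ℝ} {ω : Path}

/-- the filter of neighbourhoods of `(t, x, ω)` in `[0, ∞) × ℝ × Path` -/
def nb (t x : ℝ) (ω : Path) : Filter (ℝ × ℝ × Path) := 𝓝[Ici 0 ×ˢ univ] (t, x, ω)

theorem Jet.At.add {J K : Jet E} (hJ : J.At t x ω) (hK : K.At t x ω) : (J.add K).At t x ω :=
  I.at_add hJ hK

theorem Jet.At.mul {A : Type} [NormedRing A] [NormedAlgebra ℝ A] {J K : Jet A} (hJ : J.At t x ω)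
    (hK : K.At t x ω) : (J.mul K).At t x ω :=
  I.at_mul hJ hK

theorem Jet.at_const {c : Path → E} (hc : ContinuousAt c ω) : (Jet.const c).At t x ω :=
  I.at_const hc

theorem Jet.at_X : Jet.X.At t x ω :=
  I.at_X

theorem Jet.at_fv {a a' : ℝ → Path → E}
    (ha : ContinuousWithinAt (fun p : ℝ × Path => a p.1 p.2) (Ici 0 ×ˢ univ) (t, ω))
    (ha' : ContinuousWithinAt (fun p : ℝ × Path => a' p.1 p.2) (Ici 0 ×ˢ univ) (t, ω))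
    (hd : HasDerivWithinAt (fun r => a r ω) (a' t ω) (Ici t) t) : (Jet.fv a a').At t x ω :=
  I.at_fv ha ha' hd

/-- accumulators -/
theorem Jet.at_acc [CompleteSpace E] {a' : ℝ → Path → E} {t₀ : ℝ} (ht₀ : 0 ≤ t₀) (ht : 0 ≤ t)
    (ha' : ContinuousOn (fun p : ℝ × Path => a' p.1 p.2) (Ici 0 ×ˢ univ)) :
    (Jet.fv (fun r ω => ∫ u in t₀..r, a' u ω) a').At t x ω :=
  I.at_acc ht₀ ht ha'

theorem Jet.At.clm {F : Type} [NormedAddCommGroup F] [NormedSpace ℝ F] (L : E →L[ℝ] F) {J : Jet E}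
    (hJ : J.At t x ω) : (J.clm L).At t x ω :=
  I.at_clm L hJ

theorem Jet.At.comp {φ φ' φ'' : ℝ → ℝ} {J : Jet ℝ} (hJ : J.At t x ω)
    (h1 : ∀ᶠ u in 𝓝 (J.f t x ω), HasDerivAt φ (φ' u) u) (h2 : ∀ᶠ u in 𝓝 (J.f t x ω), HasDerivAt φ' (φ'' u) u)
    (h3 : ContinuousAt φ'' (J.f t x ω)) : (J.comp φ φ' φ'').At t x ω :=
  I.at_comp hJ h1 h2 h3

theorem Jet.At.compC {φ φ' φ'' : ℂ → ℂ} {J : Jet ℂ} (hJ : J.At t x ω)
    (h1 : ∀ᶠ u in 𝓝 (J.f t x ω), HasDerivAt φ (φ' u) u) (h2 : ∀ᶠ u in 𝓝 (J.f t x ω), HasDerivAt φ' (φ'' u) u)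
    (h3 : ContinuousAt φ'' (J.f t x ω)) : (J.comp φ φ' φ'').At t x ω :=
  I.at_compC hJ h1 h2 h3

/-- gluing -/
theorem Jet.At.congr {J K : Jet E} (ht : 0 ≤ t) (hJ : J.At t x ω)
    (h : ∀ᶠ p in nb t x ω, K.f p.1 p.2.1 p.2.2 = J.f p.1 p.2.1 p.2.2 ∧ K.s p.1 p.2.1 p.2.2 = J.s p.1 p.2.1 p.2.2 ∧
      K.x p.1 p.2.1 p.2.2 = J.x p.1 p.2.1 p.2.2 ∧ K.xx p.1 p.2.1 p.2.2 = J.xx p.1 p.2.1 p.2.2) :
    K.At t x ω :=
  I.at_congr ht hJ h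

/-- a product with a cut-off that vanishes near the point -/
theorem Jet.at_mul_of_zero {A : Type} [NormedRing A] [NormedAlgebra ℝ A] {J : Jet A} (K : Jet A) (ht : 0 ≤ t)
    (h : ∀ᶠ p in nb t x ω, J.f p.1 p.2.1 p.2.2 = 0 ∧ J.s p.1 p.2.1 p.2.2 = 0 ∧ J.x p.1 p.2.1 p.2.2 = 0 ∧
      J.xx p.1 p.2.1 p.2.2 = 0) : (J.mul K).At t x ω :=
  I.at_mul_of_zero K ht h

/-- differentiation under the integral sign -/
theorem Jet.at_int [CompleteSpace E] {α : Type} [MeasurableSpace α] {m : Measure α} {J : α → Jet E} {T : ℝ}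
    {b : α → ℝ} (ht : t ∈ Ico 0 T) (hb : Integrable b m)
    (hJ : ∀ z, ∀ r ∈ Ico 0 T, ∀ y ω', (J z).At r y ω' ∧ (J z).Bd r y ω' (b z))
    (hm : ∀ r ∈ Ico 0 T, ∀ y ω', AEStronglyMeasurable (fun z => (J z).f r y ω') m ∧
      AEStronglyMeasurable (fun z => (J z).s r y ω') m ∧ AEStronglyMeasurable (fun z => (J z).x r y ω') m ∧
      AEStronglyMeasurable (fun z => (J z).xx r y ω') m) : (Jet.int m J).At t x ω :=
  I.at_int ht hb hJ hm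

theorem Jet.At.drift {J : Jet E} (h : Path) (h₀ c : ℝ) (ht : 0 ≤ t)
    (hJ : ∀ᶠ p in nb t (x + (h₀ + c * t)) (ω + h), J.At p.1 p.2.1 p.2.2) : (J.drift h h₀ c).At t x ω :=
  I.at_drift h h₀ c ht hJ

end calculus

/-! ### hitting times -/

section hit
variable {X : ℝ → Path → ℝ} {c s T : ℝ} {ω : Path}

theorem hitX_mem (hs : s ≤ T) : hitX X c s T ω ∈ Icc s T :=
  I.hitX_mem hs

theorem lt_of_lt_hitX {t : ℝ} (hs : s ≤ t) (ht : t < hitX X c s T ω) : X t ω < c :=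
  I.lt_of_lt_hitX hs ht

theorem le_hitX (hs : s ≤ T) (hX : ContinuousOn (fun t => X t ω) (Icc s T)) :
    hitX X c s T ω = T ∨ c ≤ X (hitX X c s T ω) ω :=
  I.le_hitX hs hX

theorem hitX_le (hs : s ≤ T) (hX : ContinuousOn (fun t => X t ω) (Icc s T)) (h0 : X s ω ≤ c) :
    X (hitX X c s T ω) ω ≤ c :=
  I.hitX_le hs hX h0

theorem stop_hitX {σ : Path → ℝ} (hσ : Stop σ) (hσT : ∀ ω, σ ω ≤ T)
    (hX : ContinuousOn (fun p : ℝ × Path => X p.1 p.2) (Ici 0 ×ˢ univ))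
    (ha : ∀ t ω ω', 0 ≤ t → Agr t ω ω' → X t ω' = X t ω) : Stop fun ω => hitX X c (σ ω) T ω :=
  I.stop_hitX hσ hσT hX ha

end hit

/-! ### Dynkin's formula -/

variable {κ : ℝ} {μ : Measure Path} {J : Jet ℝ} {t₀ T s : ℝ} {τ : Path → ℝ} {ω : Path}

theorem dynkin_integrable (hμ : Wie κ μ) (hJ : J.Ok t₀ T) (hτ : After τ ω s T) (hs : t₀ ≤ s) :
    Integrable (fun ω' => J.val (τ (spl s ω ω')) (spl s ω ω')) μ ∧
      Integrable (fun ω' => ∫ t in s..τ (spl s ω ω'), J.gen κ t (spl s ω ω')) μ :=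
  I.dynkin_integrable hμ hJ hτ hs

theorem dynkin (hκ : 0 < κ) (hμ : Wie κ μ) (hJ : J.Ok t₀ T) (hτ : After τ ω s T) (hs : t₀ ≤ s) :
    ∫ ω', (J.val (τ (spl s ω ω')) (spl s ω ω') - ∫ t in s..τ (spl s ω ω'), J.gen κ t (spl s ω ω')) ∂μ =
      J.val s ω :=
  I.dynkin hκ hμ hJ hτ hs

theorem dynkin_super (hκ : 0 < κ) (hμ : Wie κ μ) (hJ : J.Ok t₀ T) (hτ : After τ ω s T) (hs : t₀ ≤ s)
    (hg : ∀ ω', ∀ t ∈ Ioo s (τ (spl s ω ω')), J.gen κ t (spl s ω ω') ≤ 0) :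
    ∫ ω', J.val (τ (spl s ω ω')) (spl s ω ω') ∂μ ≤ J.val s ω :=
  I.dynkin_super hκ hμ hJ hτ hs hg

/-- supermartingale with a running gain `h` (no measurability is needed for `F`, `h`) -/
theorem dynkin_le (hκ : 0 < κ) (hμ : Wie κ μ) (hJ : J.Ok t₀ T) (hτ : After τ ω s T) (hs : t₀ ≤ s)
    {F : Path → ℝ≥0∞} {h : ℝ → Path → ℝ≥0∞}
    (hg : ∀ ω', ∀ t ∈ Ioo s (τ (spl s ω ω')), J.gen κ t (spl s ω ω') ≤ 0 ∧
      h t (spl s ω ω') ≤ ENNReal.ofReal (-J.gen κ t (spl s ω ω')))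
    (hv : ∀ ω', 0 ≤ J.val (τ (spl s ω ω')) (spl s ω ω') ∧
      F (spl s ω ω') ≤ ENNReal.ofReal (J.val (τ (spl s ω ω')) (spl s ω ω'))) :
    EE μ ω s (fun ω₁ => F ω₁ + ∫⁻ t in Ioc s (τ ω₁), h t ω₁) ≤ ENNReal.ofReal (J.val s ω) :=
  I.dynkin_le hκ hμ hJ hτ hs hg hv

/-- submartingale up to a running loss `h` -/
theorem dynkin_ge (hκ : 0 < κ) (hμ : Wie κ μ) (hJ : J.Ok t₀ T) (hτ : After τ ω s T) (hs : t₀ ≤ s)
    {F : Path → ℝ≥0∞} {h : ℝ → Path → ℝ≥0∞}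
    (hg : ∀ ω', ∀ t ∈ Ioo s (τ (spl s ω ω')),
      ENNReal.ofReal (-J.gen κ t (spl s ω ω')) ≤ h t (spl s ω ω'))
    (hv : ∀ ω', ENNReal.ofReal (J.val (τ (spl s ω ω')) (spl s ω ω')) ≤ F (spl s ω ω')) :
    ENNReal.ofReal (J.val s ω) ≤ EE μ ω s (fun ω₁ => F ω₁ + ∫⁻ t in Ioc s (τ ω₁), h t ω₁) :=
  I.dynkin_ge hκ hμ hJ hτ hs hg hv

end Crest.Agent.R162
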