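import Crest.Agent.R162.L

/-!
# Row 162, file J: the jets `S^p` and the cut-off in `Y` (shared by blocks O and E).  Statements are FROZEN.
-/

set_option autoImplicit false

open scoped ENNReal NNReal Topology
open Set Filter MeasureTheory Metric

noncomputable section
namespace Crest.Agent.R162

/-- `(Y / |g - x|)^p`; on the diagonal `S^p` -/
def jSp (p : ℝ) (z : ℂ) : Jet ℝ :=
  ⟨fun t x ω => (Yc ω z t / ‖gt ω z t - x‖) ^ p,
    fun t x ω => (Yc ω z t / ‖gt ω z t - x‖) ^ p * p * ((2 / Zc ω z t).im / Yc ω z t -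
      (((gt ω z t).re - x) * (2 / Zc ω z t).re + Yc ω z t * (2 / Zc ω z t).im) / ‖gt ω z t - x‖ ^ 2),
    fun t x ω => (Yc ω z t / ‖gt ω z t - x‖) ^ p * p * ((gt ω z t).re - x) / ‖gt ω z t - x‖ ^ 2,
    fun t x ω => (Yc ω z t / ‖gt ω z t - x‖) ^ p * (p ^ 2 * ((gt ω z t).re - x) ^ 2 / ‖gt ω z t - x‖ ^ 4 +
      p * (2 * ((gt ω z t).re - x) ^ 2 / ‖gt ω z t - x‖ ^ 4 - 1 / ‖gt ω z t - x‖ ^ 2))⟩

/-- `0` for `v ≤ η`, `1` for `v ≥ 2η`, increasing -/
def cut (η v : ℝ) : ℝ := Real.smoothTransition (v / η - 1)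

/-- a function `φ(Y)` of `Y` -/
def jfY (φ : ℝ → ℝ) (z : ℂ) : Jet ℝ :=
  Jet.fv (fun t ω => φ (Yc ω z t)) (fun t ω => deriv φ (Yc ω z t) * (-2 * Yc ω z t / ‖Zc ω z t‖ ^ 2))

/-- a function `φ(Υ)` of `Υ` -/
def jfU (φ : ℝ → ℝ) (z : ℂ) : Jet ℝ :=
  Jet.fv (fun t ω => φ (Up ω z t))
    (fun t ω => deriv φ (Up ω z t) * (-4 * Up ω z t * Sc ω z t ^ 2 / ‖Zc ω z t‖ ^ 2))

variable {ω : Path} {z : ℂ} {t x p η κ : ℝ}

theorem cut_mem (η v : ℝ) : cut η v ∈ Icc (0 : ℝ) 1 := by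
  exact ⟨Real.smoothTransition.nonneg _, Real.smoothTransition.le_one _⟩

theorem cut_eq_zero (hη : 0 < η) {v : ℝ} (hv : v ≤ η) : cut η v = 0 ∧ deriv (cut η) v = 0 := by
  have h0 : cut η v = 0 := Real.smoothTransition.zero_of_nonpos (sub_nonpos.2 ((div_le_one hη).2 hv))
  exact ⟨h0, IsLocalMin.deriv_eq_zero (Eventually.of_forall fun w => h0.le.trans (cut_mem η w).1)⟩

theorem cut_eq_one (hη : 0 < η) {v : ℝ} (hv : 2 * η ≤ v) : cut η v = 1 := by
  exact Real.smoothTransition.one_of_one_le (by linarith [(le_div_iff₀ hη).2 hv])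

theorem contDiff_cut (η : ℝ) : ContDiff ℝ 2 (cut η) := by
  exact (Real.smoothTransition.contDiff (n := 2)).comp (by fun_prop)

theorem cut_mono (hη : 0 < η) : Monotone (cut η) := by
  exact fun a b h => Real.smoothTransition.monotone (by gcongr)

theorem cut_anti {η' v : ℝ} (hη : 0 < η) (h : η ≤ η') (hv : 0 ≤ v) : cut η' v ≤ cut η v := by
  exact Real.smoothTransition.monotone (by gcongr)

theorem deriv_cut_nonneg (hη : 0 < η) (v : ℝ) : 0 ≤ deriv (cut η) v := by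
  exact (cut_mono hη).deriv_nonneg

theorem deriv_cut_le (hη : 0 < η) : ∃ C, ∀ v, |deriv (cut η) v| ≤ C := by
  obtain ⟨C, hC⟩ := (isCompact_Icc (a := η) (b := 2 * η)).exists_bound_of_continuousOn
    ((contDiff_cut η).continuous_deriv one_le_two).continuousOn
  refine ⟨|C|, fun v => ?_⟩
  rcases le_total v η with h | h
  · simp [(cut_eq_zero hη h).2]
  rcases le_total v (2 * η) with h' | h'
  · exact (hC v ⟨h, h'⟩).trans (le_abs_self _)
  · simp [IsLocalMax.deriv_eq_zero (Eventually.of_forall fun w => (cut_mem η w).2.trans (cut_eq_one hη h').ge)]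

theorem j_pow {f : ℝ → ℂ} {f' : ℂ} {s : Set ℝ} (p : ℝ) (hf : HasDerivWithinAt f f' s x) (h0 : 0 < (f x).im) :
    HasDerivWithinAt (fun y => ((f y).im / ‖f y‖) ^ p) (((f x).im / ‖f x‖) ^ p * p *
      (f'.im / (f x).im - ((f x).re * f'.re + (f x).im * f'.im) / ‖f x‖ ^ 2)) s x := by
  have N0 : 0 < ‖f x‖ := h0.trans_le ((le_abs_self _).trans (Complex.abs_im_le_norm _))
  have h1 := hf.norm_sq.sqrt (pow_ne_zero 2 N0.ne')
  simp only [Real.sqrt_sq (norm_nonneg _)] at h1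
  refine (((Complex.imCLM.hasFDerivAt.comp_hasDerivWithinAt x hf).div h1 N0.ne').rpow_const
    (Or.inl (div_pos h0 N0).ne')).congr_deriv ?_
  simp [Real.rpow_sub_one (div_pos h0 N0).ne']
  field_simp

theorem Alive.at_jSp (h : Alive ω z t) : (jSp p z).At t x ω := by
  have Y0 := alive_iff.1 h
  have im : ∀ (r y : ℝ), (gt ω z r - y).im = Yc ω z r := fun r y => by simp [Yc]
  have re : ∀ (r y : ℝ), (gt ω z r - y).re = (gt ω z r).re - y := fun r y => by simp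
  have N0 : 0 < ‖gt ω z t - x‖ := (Y0.trans_eq (im t x).symm).trans_le ((le_abs_self _).trans (Complex.abs_im_le_norm _))
  have cY : CtsAt (fun t _ ω => Yc ω z t) t x ω := h.at_jY.cf
  have cN : CtsAt (fun t x ω => ‖gt ω z t - x‖) t x ω := h.at_jZ.cf.norm
  have cA : CtsAt (fun t x ω => (gt ω z t).re - x) t x ω :=
    (Complex.continuous_re.continuousAt.comp_continuousWithinAt h.at_jG.cf).sub
      (Continuous.continuousWithinAt (by fun_prop))
  have cR := Complex.continuous_re.continuousAt.comp_continuousWithinAt (h.at_jZ (x := x)).cs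
  have cI := Complex.continuous_im.continuousAt.comp_continuousWithinAt (h.at_jZ (x := x)).cs
  have cf : CtsAt (jSp p z).f t x ω := (cY.div cN N0.ne').rpow_const (Or.inl (div_pos Y0 N0).ne')
  have c2 := pow_ne_zero 2 N0.ne'
  have c4 := pow_ne_zero 4 N0.ne'
  have dz : HasDerivAt (fun y : ℝ => gt ω z t - y) (-1) x := (h.at_jZ (x := x)).dx
  have dx : HasDerivAt (fun y => (jSp p z).f t y ω) ((jSp p z).x t x ω) x := by
    have := j_pow (s := univ) p dz.hasDerivWithinAt (Y0.trans_eq (im t x).symm)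
    simp only [im, re, hasDerivWithinAt_univ] at this
    exact this.congr_deriv (by simp [jSp]; ring)
  refine ⟨cf, (cf.mul continuousWithinAt_const).mul ((cI.div cY Y0.ne').sub
      (((cA.mul cR).add (cY.mul cI)).div (cN.pow 2) c2)),
    ((cf.mul continuousWithinAt_const).mul cA).div (cN.pow 2) c2,
    cf.mul (((continuousWithinAt_const.mul (cA.pow 2)).div (cN.pow 4) c4).add (continuousWithinAt_const.mul
      (((continuousWithinAt_const.mul (cA.pow 2)).div (cN.pow 4) c4).sub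
        (continuousWithinAt_const.div (cN.pow 2) c2)))), ?_, dx, ?_⟩
  · have := j_pow (f := fun r => gt ω z r - x) p (h.at_jZ (x := x)).ds (Y0.trans_eq (im t x).symm)
    simp only [im, re] at this
    exact this
  · refine (((dx.mul_const p).mul ((hasDerivAt_id x).const_sub (gt ω z t).re)).div dz.norm_sq c2).congr_deriv ?_
    simp [jSp]
    field_simp
    ring

theorem jSp_val : (jSp p z).val t ω = Sc ω z t ^ p := by
  rfl

theorem Alive.jSp_gen (hκ : 0 < κ) (h : Alive ω z t) : (jSp p z).gen κ t ω = Sc ω z t ^ p *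
    (-(κ / 2) * p * (aa κ - p) * (1 - Sc ω z t ^ 2) - κ / 2 * p * Sc ω z t ^ 2) / ‖Zc ω z t‖ ^ 2 := by
  have Y0 := (alive_iff.1 h).ne'
  have N0 := (Lx.norm_pos h).ne'
  have e0 : (gt ω z t).re - ω t = (Zc ω z t).re := by simp [Zc]
  have e1 : (2 / Zc ω z t).re = 2 * (Zc ω z t).re / ‖Zc ω z t‖ ^ 2 := by simp [Complex.div_re, Complex.sq_norm]
  have e2 : (2 / Zc ω z t).im = -2 * Yc ω z t / ‖Zc ω z t‖ ^ 2 := by
    simp [Complex.div_im, Complex.sq_norm, Lx.zc_im, neg_div]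
  have e3 : (Zc ω z t).re ^ 2 = ‖Zc ω z t‖ ^ 2 - Yc ω z t ^ 2 := by
    rw [Complex.sq_norm, Complex.normSq_apply, Lx.zc_im]; ring
  simp only [Jet.gen, jSp, smul_eq_mul, e0, e1, e2, ← mul_div_assoc, mul_left_comm (Zc ω z t).re, ← sq, e3, aa, Sc,
    show gt ω z t - ω t = Zc ω z t from rfl]
  field_simp
  ring

theorem jSp_x_le : |(jSp p z).x t (ω t) ω| ≤ |p| * Sc ω z t ^ p / ‖Zc ω z t‖ := by
  have e0 : (gt ω z t).re - ω t = (Zc ω z t).re := by simp [Zc]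
  change |Sc ω z t ^ p * p * ((gt ω z t).re - ω t) / ‖Zc ω z t‖ ^ 2| ≤ _
  have s0 := Real.rpow_nonneg (Sc_mem (ω := ω) (z := z) (t := t)).1 p
  rw [e0, abs_div, abs_mul, abs_mul, abs_of_nonneg s0, abs_sq]
  refine (div_le_div_of_nonneg_right (mul_le_mul_of_nonneg_left (Complex.abs_re_le_norm _) (by positivity))
    (sq_nonneg _)).trans_eq ?_
  rcases eq_or_ne ‖Zc ω z t‖ 0 with h | h
  · simp [h]
  · field_simp

theorem jSp_bd (hp : 0 ≤ p) (hη : 0 < η) (h : η ≤ Yc ω z t) :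
    (jSp p z).Bd t x ω (1 + 10 * (p + p ^ 2) * (1 + 1 / η ^ 2)) := by
  have m : ∀ {a b c d : ℝ}, |a| ≤ c → |b| ≤ d → |a * b| ≤ c * d := fun h1 h2 =>
    (abs_mul _ _).trans_le (mul_le_mul h1 h2 (abs_nonneg _) ((abs_nonneg _).trans h1))
  have Y0 := hη.trans_le h
  have a1 : |(gt ω z t).re - x| ≤ ‖gt ω z t - x‖ := by simpa using Complex.abs_re_le_norm (gt ω z t - x)
  have a2 : |Yc ω z t| ≤ ‖gt ω z t - x‖ := by simpa [Yc] using Complex.abs_im_le_norm (gt ω z t - x)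
  have a3 := (le_abs_self _).trans a2
  have N0 := Y0.trans_le a3
  have a4 : ‖2 / Zc ω z t‖ ≤ 2 * (1 / η) := by
    rw [norm_div, Complex.norm_ofNat, mul_one_div]
    exact div_le_div_of_nonneg_left zero_le_two hη (h.trans Yc_le_norm)
  have a5 := (Complex.abs_re_le_norm _).trans a4
  have a6 := (Complex.abs_im_le_norm _).trans a4
  have a7 : ∀ c, η ≤ c → |1 / c| ≤ 1 / η := fun c hc => by
    rw [abs_of_pos (one_div_pos.2 (hη.trans_le hc))]
    exact one_div_le_one_div_of_le hη hc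
  have a8 := a7 _ (h.trans a3)
  have a9 : ∀ {c}, |c| ≤ ‖gt ω z t - x‖ → |c / ‖gt ω z t - x‖ * (1 / ‖gt ω z t - x‖)| ≤ 1 * (1 / η) := fun hc =>
    m (by rw [abs_div, abs_of_pos N0]; exact (div_le_one N0).2 hc) a8
  have q : |(Yc ω z t / ‖gt ω z t - x‖) ^ p| ≤ 1 := by
    rw [abs_of_nonneg (by positivity)]
    exact Real.rpow_le_one (by positivity) ((div_le_one N0).2 a3) hp
  have b1 := abs_le.1 (m a6 (a7 _ h))
  have b2 := abs_le.1 (m (a9 a1) a5)
  have b3 := abs_le.1 (m (a9 a2) a6)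
  have b4 := abs_le.1 (m (a9 a1) (a9 a1))
  have b5 := abs_le.1 (m a8 a8)
  have hp' := (abs_of_nonneg hp).le
  have u2 : 1 / η ^ 2 = (1 / η) ^ 2 := by ring
  have u0 : 0 ≤ p * (1 / η) ^ 2 := by positivity
  have u1 : 0 ≤ p ^ 2 * (1 / η) ^ 2 := by positivity
  have u3 : 0 ≤ p * (1 / η - 1) ^ 2 := by positivity
  have u4 := sq_nonneg p
  simp only [Jet.Bd, jSp, Real.norm_eq_abs, u2]
  refine ⟨by linarith, ?_, ?_, ?_⟩
  · refine (m (m q hp') (d := 6 * (1 / η) ^ 2) (abs_le.2 ⟨?_, ?_⟩)).trans (by linarith)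
    · linear_combination b1.1 + b2.2 + b3.2
    · linear_combination b1.2 + b2.1 + b3.1
  · refine le_trans (le_of_eq (congrArg _ (by ring))) ((m (m q hp') (a9 a1)).trans (by linarith))
  · refine (m q (d := p ^ 2 * (1 / η) ^ 2 + p * (3 * (1 / η) ^ 2)) ((abs_add_le _ _).trans (add_le_add ?_ (m hp'
      (abs_le.2 ⟨?_, ?_⟩))))).trans (by linarith)
    · rw [mul_div_assoc]
      refine m (abs_of_nonneg u4).le (abs_le.2 ⟨?_, ?_⟩)
      · linear_combination b4.1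
      · linear_combination b4.2
    · linear_combination 2 * b4.1 + b5.2
    · linear_combination 2 * b4.2 + b5.1

theorem j_fv {φ : ℝ → ℝ} {a a' : ℝ → Path → ℝ} (h : (Jet.fv a a').At t x ω) (h0 : 0 < a t ω)
    (hφ : ContDiffOn ℝ 1 φ (Ioi 0)) :
    (Jet.fv (fun t ω => φ (a t ω)) fun t ω => deriv φ (a t ω) * a' t ω).At t x ω := by
  have c1 := (hφ.contDiffAt (Ioi_mem_nhds h0)).differentiableAt one_ne_zero
  have c2 := (hφ.continuousOn_deriv_of_isOpen isOpen_Ioi le_rfl).continuousAt (Ioi_mem_nhds h0)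
  exact ⟨ContinuousAt.comp_continuousWithinAt (f := fun p : ℝ × ℝ × Path => a p.1 p.2.2) c1.continuousAt h.cf,
    (ContinuousAt.comp_continuousWithinAt (g := deriv φ) (f := fun p : ℝ × ℝ × Path => a p.1 p.2.2) c2 h.cf).mul h.cs,
    h.cx, h.cxx,
    c1.hasDerivAt.comp_hasDerivWithinAt t h.ds, hasDerivAt_const _ _, h.dxx⟩

theorem Alive.at_jfY {φ : ℝ → ℝ} (h : Alive ω z t) (hφ : ContDiffOn ℝ 1 φ (Ioi 0)) : (jfY φ z).At t x ω := by
  exact j_fv h.at_jY (alive_iff.1 h) hφ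

theorem Alive.at_jfU {φ : ℝ → ℝ} (h : Alive ω z t) (hφ : ContDiffOn ℝ 1 φ (Ioi 0)) : (jfU φ z).At t x ω := by
  exact j_fv h.at_jU h.up_pos hφ

/-- the cut-off makes every jet that is regular at living points regular everywhere -/
theorem at_cut_mul (hη : 0 < η) (ht : 0 ≤ t) {K : Jet ℝ} (hK : Alive ω z t → K.At t x ω) :
    ((jfY (cut η) z).mul K).At t x ω := by
  by_cases h : Alive ω z t
  · exact (h.at_jfY ((contDiff_cut η).of_le one_le_two).contDiffOn).mul (hK h)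
  · exact Jet.at_mul_of_zero K ht ((eventually_Yc_lt ht ((dead h).2.1.trans_lt hη)).mono fun p hp =>
      ⟨(cut_eq_zero hη hp.le).1, by simp [jfY, Jet.fv, (cut_eq_zero hη hp.le).2], rfl, rfl⟩)

theorem Jet.Bd.mul {A : Type} [NormedRing A] {J K : Jet A} {B B' : ℝ} (hJ : J.Bd t x ω B)
    (hK : K.Bd t x ω B') : (J.mul K).Bd t x ω (4 * B * B') := by
  obtain ⟨a1, a2, a3, a4⟩ := hJ
  obtain ⟨b1, b2, b3, b4⟩ := hK
  have m : ∀ {a b : A}, ‖a‖ ≤ B → ‖b‖ ≤ B' → ‖a * b‖ ≤ B * B' := fun h1 h2 => norm_mul_le_of_le h1 h2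
  have := (norm_nonneg _).trans (m a1 b1)
  exact ⟨(m a1 b1).trans (by linarith), (norm_add_le_of_le (m a2 b1) (m a1 b2)).trans (by linarith),
    (norm_add_le_of_le (m a3 b1) (m a1 b3)).trans (by linarith), (norm_add_le_of_le (norm_add_le_of_le (m a4 b1)
      (m a3 b3)) (norm_add_le_of_le (m a3 b3) (m a1 b4))).trans (by linarith)⟩

/-- ... and bounded -/
theorem bd_cut_mul (hη : 0 < η) : ∃ C, 0 ≤ C ∧ ∀ (z : ℂ) (t x : ℝ) (ω : Path) (K : Jet ℝ) (B : ℝ), 0 ≤ B →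
    (η ≤ Yc ω z t → K.Bd t x ω B) → ((jfY (cut η) z).mul K).Bd t x ω (C * B) := by
  obtain ⟨D, hD⟩ := deriv_cut_le hη
  have D0 := (abs_nonneg _).trans (hD 0)
  have C0 : 0 ≤ D * (2 / η) := by positivity
  refine ⟨4 * (1 + D * (2 / η)), by positivity, fun z t x ω K B hB hK => ?_⟩
  rcases le_total η (Yc ω z t) with h | h
  · refine Jet.Bd.mul ⟨?_, ?_, (norm_zero (E := ℝ)).trans_le (by positivity),
      (norm_zero (E := ℝ)).trans_le (by positivity)⟩ (hK h)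
    · exact (abs_of_nonneg (cut_mem _ _).1).trans_le ((cut_mem _ _).2.trans (by linarith))
    · refine (norm_mul_le_of_le (hD _) (show _ ≤ 2 / η from ?_)).trans (by linarith)
      have N := h.trans Yc_le_norm
      rw [neg_mul, neg_div, norm_neg, Real.norm_of_nonneg (by have := hη.trans_le h; positivity),
        div_le_div_iff₀ (pow_pos (hη.trans_le N) 2) hη, sq, mul_assoc]
      gcongr
      exact Yc_le_norm
  · have : 0 ≤ 4 * (1 + D * (2 / η)) * B := by positivity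
    simp [Jet.Bd, Jet.mul, jfY, Jet.fv, cut_eq_zero hη h, this]

/-- all four components are adapted -/
def Jet.Ad {E : Type} (J : Jet E) : Prop :=
  ∀ t x ω ω', Agr t ω ω' → J.f t x ω' = J.f t x ω ∧ J.s t x ω' = J.s t x ω ∧ J.x t x ω' = J.x t x ω ∧
    J.xx t x ω' = J.xx t x ω

theorem Jet.Ad.ok {J : Jet ℝ} (h : J.Ad) {t₀ T C : ℝ} (h0 : 0 ≤ t₀)
    (h1 : ∀ t ∈ Icc t₀ T, ∀ x ω, J.At t x ω ∧ J.Bd t x ω C) : J.Ok t₀ T := by
  exact ⟨h0, fun t x ω ω' _ a => (h t x ω ω' a).1, fun t x ω ω' _ a => (h t x ω ω' a).2.1,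
    fun t x ω ω' _ a => (h t x ω ω' a).2.2.1, fun t x ω ω' _ a => (h t x ω ω' a).2.2.2,
    fun t ht x ω => (h1 t ht x ω).1, C, fun t ht x ω => (h1 t ht x ω).2⟩

theorem Jet.Ad.add {E : Type} [NormedAddCommGroup E] {J K : Jet E} (hJ : J.Ad) (hK : K.Ad) : (J.add K).Ad := by
  exact fun t x ω ω' h => by simp only [Jet.add, Pi.add_apply, hJ t x ω ω' h, hK t x ω ω' h, and_self]

theorem Jet.Ad.mul {A : Type} [NormedRing A] {J K : Jet A} (hJ : J.Ad) (hK : K.Ad) : (J.mul K).Ad := by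
  exact fun t x ω ω' h => by simp only [Jet.mul, Pi.add_apply, Pi.mul_apply, hJ t x ω ω' h, hK t x ω ω' h, and_self]

theorem Jet.Ad.comp {A : Type} [NormedRing A] {J : Jet A} (hJ : J.Ad) (φ φ' φ'' : A → A) :
    (J.comp φ φ' φ'').Ad := by
  exact fun t x ω ω' h => by simp only [Jet.comp, hJ t x ω ω' h, and_self]

theorem Jet.ad_const {E : Type} [NormedAddCommGroup E] (c : E) : (Jet.const fun _ => c).Ad := by
  exact fun t x ω ω' h => ⟨rfl, rfl, rfl, rfl⟩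

theorem ad_jSp : (jSp p z).Ad := by
  exact fun t x ω ω' h => by simp only [jSp, Lx.agr_Yc h, h.gt, Lx.agr_Zc h, and_self]

theorem ad_jfY (φ : ℝ → ℝ) : (jfY φ z).Ad := by
  exact fun t x ω ω' h => ⟨by simp only [jfY, Jet.fv, Lx.agr_Yc h],
    by simp only [jfY, Jet.fv, Lx.agr_Yc h, Lx.agr_Zc h], rfl, rfl⟩

theorem ad_jfU (φ : ℝ → ℝ) : (jfU φ z).Ad := by
  exact fun t x ω ω' h => ⟨by simp only [jfU, Jet.fv, h.Up],
    by simp only [jfU, Jet.fv, h.Up, Lx.agr_Sc h, Lx.agr_Zc h], rfl, rfl⟩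

theorem ad_jZ : (jZ z).Ad := by
  exact fun t x ω ω' h => ⟨by simp only [jZ, h.gt], by simp only [jZ, Lx.agr_Zc h], rfl, rfl⟩

theorem Jet.Bd.add {E : Type} [NormedAddCommGroup E] {J K : Jet E} {B B' : ℝ} (hJ : J.Bd t x ω B)
    (hK : K.Bd t x ω B') : (J.add K).Bd t x ω (B + B') := by
  exact ⟨norm_add_le_of_le hJ.1 hK.1, norm_add_le_of_le hJ.2.1 hK.2.1, norm_add_le_of_le hJ.2.2.1 hK.2.2.1,
    norm_add_le_of_le hJ.2.2.2 hK.2.2.2⟩

theorem Jet.Bd.mono {E : Type} [NormedAddCommGroup E] {J : Jet E} {B B' : ℝ} (hJ : J.Bd t x ω B) (h : B ≤ B') :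
    J.Bd t x ω B' := by
  exact ⟨hJ.1.trans h, hJ.2.1.trans h, hJ.2.2.1.trans h, hJ.2.2.2.trans h⟩

theorem Jet.Bd.comp {A : Type} [NormedRing A] {J : Jet A} {φ φ' φ'' : A → A} {B D : ℝ} (hJ : J.Bd t x ω B)
    (h0 : ‖φ (J.f t x ω)‖ ≤ D) (h1 : ‖φ' (J.f t x ω)‖ ≤ D) (h2 : ‖φ'' (J.f t x ω)‖ ≤ D) :
    (J.comp φ φ' φ'').Bd t x ω (D * (1 + B + B ^ 2)) := by
  obtain ⟨a1, a2, a3, a4⟩ := hJ
  have D0 := (norm_nonneg _).trans h0
  have B0 := (norm_nonneg _).trans a1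
  have p1 := mul_nonneg D0 B0
  have p2 := mul_nonneg p1 B0
  exact ⟨h0.trans (by linarith), (norm_mul_le_of_le h1 a2).trans (by linarith),
    (norm_mul_le_of_le h1 a3).trans (by linarith), (norm_add_le_of_le (norm_mul_le_of_le (norm_mul_le_of_le h2 a3) a3)
      (norm_mul_le_of_le h1 a4)).trans (by linarith)⟩

theorem Jet.val_add (J K : Jet ℝ) : (J.add K).val t ω = J.val t ω + K.val t ω := rfl

theorem Jet.val_mul (J K : Jet ℝ) : (J.mul K).val t ω = J.val t ω * K.val t ω := rfl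

theorem Jet.gen_add (J K : Jet ℝ) : (J.add K).gen κ t ω = J.gen κ t ω + K.gen κ t ω := by
  simp only [Jet.gen, Jet.add, Pi.add_apply, smul_eq_mul]; ring

theorem Jet.gen_mul (J K : Jet ℝ) : (J.mul K).gen κ t ω =
    J.gen κ t ω * K.val t ω + J.val t ω * K.gen κ t ω + κ * J.x t (ω t) ω * K.x t (ω t) ω := by
  simp only [Jet.gen, Jet.val, Jet.mul, Pi.add_apply, Pi.mul_apply, smul_eq_mul]; ring

theorem Jet.gen_comp (J : Jet ℝ) (φ φ' φ'' : ℝ → ℝ) : (J.comp φ φ' φ'').gen κ t ω =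
    φ' (J.val t ω) * J.gen κ t ω + κ / 2 * φ'' (J.val t ω) * J.x t (ω t) ω ^ 2 := by
  simp only [Jet.gen, Jet.val, Jet.comp, smul_eq_mul]; ring

theorem Jet.gen_fv (a a' : ℝ → Path → ℝ) : (Jet.fv a a').gen κ t ω = a' t ω := by
  simp [Jet.gen, Jet.fv]

theorem Jet.gen_const (c : Path → ℝ) : (Jet.const c).gen κ t ω = 0 := by
  simp [Jet.gen, Jet.const]

end Crest.Agent.R162
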