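import Crest.Agent.R162.I

/-!
# Row 162, block L: the deterministic Loewner flow.  API file (statements FROZEN), now fully proved.
Auxiliary lemmas are private; the useful ones are exported in the namespace `Lx` at the end of the file.
See `notes162/R162.md`.
-/

set_option autoImplicit false

open scoped ENNReal NNReal Topology
open Set Filter MeasureTheory Metric Asymptotics

noncomputable section
namespace Crest.Agent.R162

/-! ## Row 162, block L, part A: the truncated Loewner flows -/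

section partA

/-- clamp the imaginary part from below -/
private def cl (ε : ℝ) (u : ℂ) : ℂ := u.re + (max u.im ε : ℝ) * Complex.I

variable {σ ε T δ : ℝ} {u v z z' : ℂ} {ω ω' : Path} {g g' : ℝ → ℂ}

@[simp] private theorem cl_re : (cl ε u).re = u.re := by simp [cl]
@[simp] private theorem cl_im : (cl ε u).im = max u.im ε := by simp [cl]

private theorem cl_of_le (h : ε ≤ u.im) : cl ε u = u := by
  apply Complex.ext <;> simp [h]

private theorem le_norm_cl : ε ≤ ‖cl ε u‖ :=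
  (le_max_right u.im ε).trans (cl_im.symm.le.trans ((le_abs_self _).trans (Complex.abs_im_le_norm _)))

private theorem cl_ne (hε : 0 < ε) : cl ε u ≠ 0 := norm_pos_iff.1 (hε.trans_le le_norm_cl)

private theorem norm_cl_sub : ‖cl ε u - cl ε v‖ ≤ ‖u - v‖ := by
  have h := abs_max_sub_max_le_abs u.im v.im ε
  rw [← sq_le_sq₀ (norm_nonneg _) (norm_nonneg _), Complex.sq_norm, Complex.sq_norm, Complex.normSq_apply,
    Complex.normSq_apply]
  simp only [Complex.sub_re, Complex.sub_im, cl_re, cl_im]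
  have := mul_self_le_mul_self (abs_nonneg _) h
  rw [abs_mul_abs_self, abs_mul_abs_self] at this
  linarith

@[fun_prop] private theorem continuous_cl : Continuous (cl ε) := by unfold cl; fun_prop

/-- the truncated field -/
private def fd (σ ε : ℝ) (u : ℂ) : ℂ := σ * (2 / cl ε u)

private theorem norm_fd (hσ : |σ| ≤ 1) (hε : 0 < ε) : ‖fd σ ε u‖ ≤ 2 / ε := by
  rw [fd, norm_mul, norm_div, Complex.norm_real, Real.norm_eq_abs, Complex.norm_ofNat]
  have : 2 / ‖cl ε u‖ ≤ 2 / ε := div_le_div_of_nonneg_left (by norm_num) hε le_norm_cl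
  have h0 : 0 ≤ 2 / ‖cl ε u‖ := by positivity
  nlinarith [abs_nonneg σ]

private theorem norm_fd_sub (hσ : |σ| ≤ 1) (hε : 0 < ε) : ‖fd σ ε u - fd σ ε v‖ ≤ 2 / ε ^ 2 * ‖u - v‖ := by
  have hu := cl_ne (u := u) hε
  have hv := cl_ne (u := v) hε
  have e : fd σ ε u - fd σ ε v = σ * (2 * (cl ε v - cl ε u) / (cl ε u * cl ε v)) := by
    unfold fd; field_simp
  rw [e, norm_mul, norm_div, norm_mul, norm_mul, Complex.norm_real, Real.norm_eq_abs, Complex.norm_ofNat,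
    norm_sub_rev (cl ε v)]
  have h1 : ε ^ 2 ≤ ‖cl ε u‖ * ‖cl ε v‖ := by
    rw [sq]; exact mul_le_mul le_norm_cl le_norm_cl hε.le (norm_nonneg _)
  have h2 : 2 * ‖cl ε u - cl ε v‖ / (‖cl ε u‖ * ‖cl ε v‖) ≤ 2 * ‖u - v‖ / ε ^ 2 :=
    div_le_div₀ (by positivity) (by linarith [norm_cl_sub (ε := ε) (u := u) (v := v)]) (by positivity) h1
  have h0 : 0 ≤ 2 * ‖cl ε u - cl ε v‖ / (‖cl ε u‖ * ‖cl ε v‖) := by positivity
  calc _ ≤ 1 * (2 * ‖u - v‖ / ε ^ 2) := mul_le_mul hσ h2 h0 zero_le_one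
    _ = _ := by ring

private theorem continuous_fd (hε : 0 < ε) : Continuous (fd σ ε) := by
  unfold fd
  exact continuous_const.mul (continuous_const.div continuous_cl fun _ => cl_ne hε)

private theorem fd_im : (fd σ ε u).im = -σ * (2 * max u.im ε / ‖cl ε u‖ ^ 2) := by
  rw [fd, Complex.im_ofReal_mul, Complex.div_im, Complex.sq_norm]
  simp only [Complex.im_ofNat, Complex.re_ofNat, cl_re, cl_im]; ring

private theorem lip_fd (hσ : |σ| ≤ 1) (hε : 0 < ε) (c : ℂ) :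
    LipschitzWith (Real.toNNReal (2 / ε ^ 2)) fun y => fd σ ε (y - c) := by
  refine LipschitzWith.of_dist_le_mul fun x y => ?_
  rw [dist_eq_norm, dist_eq_norm, Real.coe_toNNReal _ (by positivity)]
  simpa using norm_fd_sub (u := x - c) (v := y - c) hσ hε

/-- solutions of the truncated equation -/
private structure TSol (σ ε : ℝ) (ω : Path) (z : ℂ) (T : ℝ) (g : ℝ → ℂ) : Prop where
  init : g 0 = z
  cont : ContinuousOn g (Icc 0 T)
  ode : ∀ s ∈ Ico 0 T, HasDerivWithinAt g (fd σ ε (g s - ω s)) (Ici s) s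

private theorem TSol.gron (hσ : |σ| ≤ 1) (hε : 0 < ε) (h : TSol σ ε ω z T g) (h' : TSol σ ε ω' z' T g')
    (hδ : 0 ≤ δ) (hω : ∀ s ∈ Icc 0 T, |ω s - ω' s| ≤ δ) (hz : ‖z - z'‖ ≤ δ) :
    ∀ s ∈ Icc 0 T, ‖g s - g' s‖ ≤ 2 * δ * Real.exp (2 / ε ^ 2 * T) := by
  intro s hs
  have hK : (0 : ℝ) < 2 / ε ^ 2 := by positivity
  have := dist_le_of_approx_trajectories_ODE (v := fun s y => fd σ ε (y - ω s))
    (εf := 0) (εg := 2 / ε ^ 2 * δ) (δ := δ) (fun t => lip_fd hσ hε _) h.cont h.ode (fun t _ => by simp)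
    h'.cont h'.ode (fun t ht => by
      rw [dist_eq_norm]
      refine (norm_fd_sub hσ hε).trans (mul_le_mul_of_nonneg_left ?_ hK.le)
      have : g' t - ω' t - (g' t - ω t) = ((ω t - ω' t : ℝ) : ℂ) := by push_cast; ring
      rw [this, Complex.norm_real]
      exact hω t (Ico_subset_Icc_self ht))
    (by rw [h.init, h'.init, dist_eq_norm]; exact hz) s hs
  rw [dist_eq_norm, Real.coe_toNNReal _ hK.le, gronwallBound_of_K_ne_0 hK.ne'] at this
  refine this.trans ?_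
  have e1 : Real.exp (2 / ε ^ 2 * (s - 0)) ≤ Real.exp (2 / ε ^ 2 * T) :=
    Real.exp_le_exp.2 (mul_le_mul_of_nonneg_left (by linarith [hs.2]) hK.le)
  have e2 : (0 + 2 / ε ^ 2 * δ) / (2 / ε ^ 2) = δ := by field_simp; simp
  simp only [e2]
  nlinarith

private theorem TSol.uniq (hσ : |σ| ≤ 1) (hε : 0 < ε) (h : TSol σ ε ω z T g) (h' : TSol σ ε ω z T g') :
    ∀ s ∈ Icc 0 T, g s = g' s := fun s hs => by
  have := h.gron hσ hε h' le_rfl (by simp) (by simp) s hs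
  simpa [sub_eq_zero] using this

private theorem TSol.mono (h : TSol σ ε ω z T g) {t : ℝ} (ht : t ≤ T) : TSol σ ε ω z t g :=
  ⟨h.init, h.cont.mono (Icc_subset_Icc_right ht), fun s hs => h.ode s (Ico_subset_Ico_right ht hs)⟩

private theorem TSol.norm_sub (hσ : |σ| ≤ 1) (hε : 0 < ε) (h : TSol σ ε ω z T g) :
    ∀ s ∈ Icc 0 T, ‖g s - z‖ ≤ 2 / ε * s := fun s hs => by
  simpa [h.init] using norm_image_sub_le_of_norm_deriv_right_le_segment h.cont h.ode
    (fun t _ => norm_fd hσ hε) s hs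

/-- `σ · Im g` decreases -/
private theorem TSol.im_anti (hε : 0 < ε) (h : TSol σ ε ω z T g) (hσ : σ * σ = 1) {s t : ℝ} (hs : 0 ≤ s) (hst : s ≤ t)
    (ht : t ≤ T) : σ * (g t).im ≤ σ * (g s).im := by
  have hc : ContinuousOn (fun r => σ * (g r).im) (Icc s t) :=
    continuousOn_const.mul (Complex.continuous_im.comp_continuousOn (h.cont.mono (Icc_subset_Icc hs ht)))
  refine image_le_of_deriv_right_le_deriv_boundary (B := fun _ => σ * (g s).im) (B' := fun _ => 0)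
    (f' := fun r => σ * (fd σ ε (g r - ω r)).im) hc (fun r hr => ?_) le_rfl continuousOn_const
    (fun r _ => hasDerivWithinAt_const _ _ _) (fun r _ => ?_) (right_mem_Icc.2 hst)
  · exact (Complex.imCLM.hasFDerivAt.comp_hasDerivWithinAt r
      (h.ode r ⟨hs.trans hr.1, hr.2.trans_le ht⟩)).const_mul σ
  · rw [fd_im]
    have : 0 ≤ 2 * max (g r - ω r).im ε / ‖cl ε (g r - ω r)‖ ^ 2 := by
      have := le_max_right (g r - ω r).im ε
      have : 0 ≤ max (g r - ω r).im ε := by linarith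
      positivity
    calc _ = -(σ * σ) * (2 * max (g r - ω r).im ε / ‖cl ε (g r - ω r)‖ ^ 2) := by ring
      _ ≤ 0 := by rw [hσ]; linarith

private theorem exists_tsol (hσ : |σ| ≤ 1) (hε : 0 < ε) (hT : 0 ≤ T) (ω : Path) (z : ℂ) :
    ∃ g : ℝ → ℂ, g 0 = z ∧ ∀ s ∈ Icc 0 T, HasDerivWithinAt g (fd σ ε (g s - ω s)) (Icc 0 T) s := by
  have hL0 : (0 : ℝ) ≤ 2 / ε := by positivity
  set a : ℝ≥0 := ⟨2 / ε * (T - 0), mul_nonneg hL0 (sub_nonneg.2 hT)⟩
  have hPL : IsPicardLindelof (fun s y => fd σ ε (y - ω s)) (tmin := 0) (tmax := T) ⟨0, left_mem_Icc.2 hT⟩ z a 0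
      ⟨2 / ε, hL0⟩ (Real.toNNReal (2 / ε ^ 2)) :=
    { lipschitzOnWith := fun t _ => (lip_fd hσ hε _).lipschitzOnWith
      continuousOn := fun y _ => ((continuous_fd hε).comp (by fun_prop)).continuousOn
      norm_le := fun t _ y _ => norm_fd hσ hε
      mul_max_le := by
        simp only [sub_self, NNReal.coe_zero, sub_zero, a]
        rw [max_eq_left hT]
        exact le_rfl }
  exact hPL.exists_eq_forall_mem_Icc_hasDerivWithinAt₀

/-- the truncated flow on `[0, T]`, constant outside -/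
private def fl (σ ε T : ℝ) (ω : Path) (z : ℂ) (s : ℝ) : ℂ :=
  Classical.epsilon (fun g : ℝ → ℂ => g 0 = z ∧
    ∀ s ∈ Icc 0 T, HasDerivWithinAt g (fd σ ε (g s - ω s)) (Icc 0 T) s) (max 0 (min s T))

private theorem clamp_mem (hT : 0 ≤ T) (s : ℝ) : max 0 (min s T) ∈ Icc 0 T :=
  ⟨le_max_left _ _, max_le hT (min_le_right _ _)⟩

private theorem clamp_eq {s : ℝ} (hs : s ∈ Icc 0 T) : max 0 (min s T) = s := by
  rw [min_eq_left hs.2, max_eq_right hs.1]

private theorem fl_clamp (hT : 0 ≤ T) (s : ℝ) : fl σ ε T ω z s = fl σ ε T ω z (max 0 (min s T)) := by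
  simp only [fl, clamp_eq (clamp_mem hT s)]

private theorem fl_zero (hσ : |σ| ≤ 1) (hε : 0 < ε) (hT : 0 ≤ T) : fl σ ε T ω z 0 = z := by
  have := (Classical.epsilon_spec (exists_tsol hσ hε hT ω z)).1
  simpa only [fl, clamp_eq (left_mem_Icc.2 hT)] using this

private theorem fl_deriv (hσ : |σ| ≤ 1) (hε : 0 < ε) {s : ℝ} (hs : s ∈ Icc 0 T) :
    HasDerivWithinAt (fl σ ε T ω z) (fd σ ε (fl σ ε T ω z s - ω s)) (Icc 0 T) s := by
  have := (Classical.epsilon_spec (exists_tsol hσ hε (hs.1.trans hs.2) ω z)).2 s hs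
  refine (this.congr_of_mem (fun r hr => by simp only [fl, clamp_eq hr]) hs).congr_deriv ?_
  simp only [fl, clamp_eq hs]

private theorem fl_tsol (hσ : |σ| ≤ 1) (hε : 0 < ε) (hT : 0 ≤ T) : TSol σ ε ω z T (fl σ ε T ω z) :=
  ⟨fl_zero hσ hε hT, fun _ hs => (fl_deriv hσ hε hs).continuousWithinAt, fun _ hs =>
    (fl_deriv hσ hε (Ico_subset_Icc_self hs)).mono_of_mem_nhdsWithin (Icc_mem_nhdsGE_of_mem hs)⟩

private theorem eventually_close (ω : Path) (T : ℝ) (hδ : 0 < δ) :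
    ∀ᶠ ω' : Path in 𝓝 ω, ∀ s ∈ Icc 0 T, |ω' s - ω s| ≤ δ := by
  refine isCompact_Icc.eventually_forall_of_forall_eventually fun s _ => ?_
  have h1 : Continuous fun w : Path × ℝ => |w.1 w.2 - ω w.2| := by fun_prop
  exact (h1.tendsto (ω, s)).eventually (ge_mem_nhds (by simpa using hδ))

private theorem continuous_fl (hσ : |σ| ≤ 1) (hε : 0 < ε) (hT : 0 ≤ T) :
    Continuous fun p : Path × ℂ × ℝ => fl σ ε T p.1 p.2.1 p.2.2 := by
  refine continuous_iff_continuousAt.2 fun p₀ => ?_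
  obtain ⟨ω, z, s⟩ := p₀
  have hc : Continuous (fl σ ε T ω z) := by
    have := (fl_tsol (ω := ω) (z := z) hσ hε hT).cont.comp_continuous (f := fun s => max 0 (min s T))
      (by fun_prop) (clamp_mem hT)
    exact this.congr fun s => (fl_clamp hT s).symm
  rw [ContinuousAt, Metric.tendsto_nhds]
  intro η hη
  set E := Real.exp (2 / ε ^ 2 * T)
  have hE : 0 < E := Real.exp_pos _
  have hδ : 0 < η / (5 * E) := by positivity
  have e1 : ∀ᶠ p : Path × ℂ × ℝ in 𝓝 (ω, z, s), ∀ r ∈ Icc 0 T, |p.1 r - ω r| ≤ η / (5 * E) :=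
    (continuous_fst.tendsto (ω, z, s)).eventually (p := fun ω' : Path => ∀ r ∈ Icc 0 T, |ω' r - ω r| ≤ _)
      (eventually_close ω T hδ)
  have e2 : ∀ᶠ p : Path × ℂ × ℝ in 𝓝 (ω, z, s), ‖p.2.1 - z‖ ≤ η / (5 * E) := by
    have h1 : Continuous fun p : Path × ℂ × ℝ => ‖p.2.1 - z‖ := by fun_prop
    exact (h1.tendsto _).eventually (ge_mem_nhds (by simpa using hδ))
  have e3 : ∀ᶠ p : Path × ℂ × ℝ in 𝓝 (ω, z, s), ‖fl σ ε T ω z p.2.2 - fl σ ε T ω z s‖ < η / 2 := by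
    have h1 : Continuous fun p : Path × ℂ × ℝ => ‖fl σ ε T ω z p.2.2 - fl σ ε T ω z s‖ := by fun_prop
    exact (h1.tendsto _).eventually (gt_mem_nhds (by simpa using hη))
  filter_upwards [e1, e2, e3] with p h1 h2 h3
  have h4 := (fl_tsol hσ hε hT).gron hσ hε (fl_tsol hσ hε hT) hδ.le h1 h2 _ (clamp_mem hT p.2.2)
  rw [← fl_clamp hT, ← fl_clamp hT] at h4
  have e : 2 * (η / (5 * E)) * E = 2 / 5 * η := by field_simp
  rw [dist_eq_norm]
  have := norm_sub_le_norm_sub_add_norm_sub (fl σ ε T p.1 p.2.1 p.2.2) (fl σ ε T ω z p.2.2) (fl σ ε T ω z s)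
  change _ ≤ 2 * (η / (5 * E)) * E at h4
  linarith

/-! ### linear equations -/

private theorem prim_deriv {E : Type} [NormedAddCommGroup E] [NormedSpace ℝ E] [CompleteSpace E] {a : ℝ → E} {s t r : ℝ}
    (ha : ContinuousOn a (Icc s t)) (hr : r ∈ Icc s t) :
    HasDerivWithinAt (fun x => ∫ v in s..x, a v) (a r) (Icc s t) r := by
  have : Fact (r ∈ Icc s t) := ⟨hr⟩
  refine intervalIntegral.integral_hasDerivWithinAt_right (t := Icc s t) ?_ ?_ (ha r hr)
  · exact (ha.mono (by rw [uIcc_of_le hr.1]; exact Icc_subset_Icc_right hr.2)).intervalIntegrable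
  · exact ha.stronglyMeasurableAtFilter_nhdsWithin measurableSet_Icc r

private theorem lin_ode {a d : ℝ → ℂ} {s t : ℝ} (hst : s ≤ t) (ha : ContinuousOn a (Icc s t))
    (hd : ContinuousOn d (Icc s t)) (h : ∀ r ∈ Ico s t, HasDerivWithinAt d (-a r * d r) (Ici r) r) :
    d t = d s * Complex.exp (-∫ v in s..t, a v) := by
  have hp : ContinuousOn (fun x => ∫ v in s..x, a v) (Icc s t) := fun r hr =>
    (prim_deriv ha hr).continuousWithinAt
  have := constant_of_has_deriv_right_zero (f := fun x => d x * Complex.exp (∫ v in s..x, a v))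
    (hd.mul hp.cexp) (fun r hr => by
      have h1 := ((prim_deriv ha (Ico_subset_Icc_self hr)).mono_of_mem_nhdsWithin
        (Icc_mem_nhdsGE_of_mem hr)).cexp
      exact ((h r hr).fun_mul h1).congr_deriv (by ring)) t (right_mem_Icc.2 hst)
  simp only [intervalIntegral.integral_same, Complex.exp_zero, mul_one] at this
  rw [← this, mul_assoc, ← Complex.exp_add, add_neg_cancel, Complex.exp_zero, mul_one]

private theorem lin_ode_real {a d : ℝ → ℝ} {s t : ℝ} (hst : s ≤ t) (ha : ContinuousOn a (Icc s t))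
    (hd : ContinuousOn d (Icc s t)) (h : ∀ r ∈ Ico s t, HasDerivWithinAt d (-a r * d r) (Ici r) r) :
    d t = d s * Real.exp (-∫ v in s..t, a v) := by
  have := lin_ode (a := fun r => (a r : ℂ)) (d := fun r => (d r : ℂ)) hst
    (Complex.continuous_ofReal.comp_continuousOn ha) (Complex.continuous_ofReal.comp_continuousOn hd)
    (fun r hr => by simpa using (h r hr).ofReal_comp)
  rw [intervalIntegral.integral_ofReal] at this
  exact_mod_cast this

end partA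

/-! ## Row 162, block L, part B: solutions, adaptedness, continuity, the ODEs -/

section partB

variable {ω ω' : Path} {z ζ : ℂ} {s t T : ℝ}

private theorem abs_one_le : |(1 : ℝ)| ≤ 1 := by simp

private theorem fd_one {ε : ℝ} {u : ℂ} (h : ε ≤ u.im) : fd 1 ε u = 2 / u := by simp [fd, cl_of_le h]

private theorem Sol.mono {g : ℝ → ℂ} (h : Sol ω z t g) (hst : s ≤ t) : Sol ω z s g :=
  ⟨h.init, h.cont.mono (Icc_subset_Icc_right hst), fun r hr => h.pos r (Icc_subset_Icc_right hst hr),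
    fun r hr => h.ode r (Ico_subset_Ico_right hst hr)⟩

private theorem Sol.im_anti {g : ℝ → ℂ} (h : Sol ω z T g) (hs : 0 ≤ s) (hst : s ≤ t) (ht : t ≤ T) :
    (g t).im ≤ (g s).im := by
  have hc : ContinuousOn (fun r => (g r).im) (Icc s t) :=
    Complex.continuous_im.comp_continuousOn (h.cont.mono (Icc_subset_Icc hs ht))
  refine image_le_of_deriv_right_le_deriv_boundary (B := fun _ => (g s).im) (B' := fun _ => 0)
    (f' := fun r => (2 / (g r - ω r)).im) hc (fun r hr => ?_) le_rfl continuousOn_const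
    (fun r _ => hasDerivWithinAt_const _ _ _) (fun r hr => ?_) (right_mem_Icc.2 hst)
  · exact Complex.imCLM.hasFDerivAt.comp_hasDerivWithinAt r (h.ode r ⟨hs.trans hr.1, hr.2.trans_le ht⟩)
  · have h1 := h.pos r ⟨hs.trans hr.1, hr.2.le.trans ht⟩
    have h2 := Complex.normSq_nonneg (g r - ω r)
    rw [Complex.div_im]
    simp only [Complex.im_ofNat, Complex.re_ofNat, Complex.sub_im, Complex.ofReal_im, zero_mul, zero_div,
      sub_zero, zero_sub, Left.neg_nonpos_iff]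
    positivity

private theorem Sol.tsol {g : ℝ → ℂ} {ε : ℝ} (h : Sol ω z t g) (hε : ε ≤ (g t).im) : TSol 1 ε ω z t g :=
  ⟨h.init, h.cont, fun s hs => by
    rw [fd_one (by simpa using hε.trans (h.im_anti hs.1 hs.2.le le_rfl))]; exact h.ode s hs⟩

private theorem TSol.sol {g : ℝ → ℂ} {ε : ℝ} (h : TSol 1 ε ω z t g) (hε0 : 0 < ε) (hε : ε ≤ (g t).im) :
    Sol ω z t g := by
  have key : ∀ s ∈ Icc 0 t, ε ≤ (g s).im := fun s hs => by
    simpa using hε.trans (by simpa using h.im_anti hε0 (by norm_num) hs.1 hs.2 le_rfl)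
  refine ⟨h.init, h.cont, fun s hs => hε0.trans_le (key s hs), fun s hs => ?_⟩
  rw [← fd_one (ε := ε) (by simpa using key s (Ico_subset_Icc_self hs))]
  exact h.ode s hs

private theorem Sol.uniq {g g' : ℝ → ℂ} (h : Sol ω z t g) (h' : Sol ω z t g') (hs : s ∈ Icc 0 t) : g s = g' s := by
  have ht : t ∈ Icc 0 t := right_mem_Icc.2 (hs.1.trans hs.2)
  exact (h.tsol (min_le_left _ (g' t).im)).uniq abs_one_le (lt_min (h.pos t ht) (h'.pos t ht))
    (h'.tsol (min_le_right _ _)) s hs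

/-! ### L1: solutions, life time -/

theorem Alive.mono (h : Alive ω z t) (hs : 0 ≤ s) (hst : s ≤ t) : Alive ω z s :=
  ⟨hs, h.2.imp fun _ hg => hg.mono hst⟩

theorem Alive.mem (h : Alive ω z t) : z ∈ HH := by
  obtain ⟨ht, g, hg⟩ := h
  have := hg.pos 0 (left_mem_Icc.2 ht)
  rwa [hg.init] at this

theorem alive_zero : Alive ω z 0 ↔ z ∈ HH :=
  ⟨Alive.mem, fun h => ⟨le_rfl, fun _ => z, rfl, continuousOn_const, fun _ _ => h, fun _ hs => by simp at hs⟩⟩

theorem Sol.gt_eq {g : ℝ → ℂ} (h : Sol ω z t g) (hs : s ∈ Icc 0 t) : gt ω z s = g s := by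
  have ha : Alive ω z s := ⟨hs.1, g, h.mono hs.2⟩
  rw [gt, dif_pos ha]
  exact ha.2.choose_spec.uniq (h.mono hs.2) (right_mem_Icc.2 hs.1)

private theorem Sol.congr {g g' : ℝ → ℂ} (h : Sol ω z t g) (ht : 0 ≤ t) (e : ∀ s ∈ Icc 0 t, g' s = g s) :
    Sol ω z t g' := by
  refine ⟨(e 0 (left_mem_Icc.2 ht)).trans h.init, h.cont.congr e, fun s hs => e s hs ▸ h.pos s hs,
    fun s hs => ?_⟩
  rw [e s (Ico_subset_Icc_self hs)]
  exact (h.ode s hs).congr_of_eventuallyEq (mem_of_superset (Icc_mem_nhdsGE_of_mem hs) e)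
    (e s (Ico_subset_Icc_self hs))

theorem Alive.sol (h : Alive ω z t) : Sol ω z t (gt ω z) := by
  obtain ⟨ht, g, hg⟩ := h
  exact hg.congr ht fun s hs => hg.gt_eq hs

theorem gt_zero (hz : z ∈ HH) : gt ω z 0 = z := (alive_zero.2 hz).sol.init

private theorem Yc_zero (hz : z ∈ HH) : Yc ω z 0 = z.im := by rw [Yc, gt_zero hz]

theorem Up_zero (hz : z ∈ HH) : Up ω z 0 = z.im := by simp [Up, Yc_zero hz]

theorem dead (h : ¬Alive ω z t) : gt ω z t = 0 ∧ Yc ω z t = 0 ∧ Up ω z t = 0 ∧ Sc ω z t = 0 := by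
  have : gt ω z t = 0 := by rw [gt, dif_neg h]
  simp [Yc, Up, Sc, this]

theorem alive_iff : Alive ω z t ↔ 0 < Yc ω z t :=
  ⟨fun h => h.sol.pos t (right_mem_Icc.2 h.1), fun h => by_contra fun h' => h.ne' (dead h').2.1⟩

private theorem Alive.yc_pos (h : Alive ω z t) : 0 < Yc ω z t := alive_iff.1 h

theorem Yc_nonneg : 0 ≤ Yc ω z t := by
  by_cases h : Alive ω z t
  exacts [h.yc_pos.le, (dead h).2.1.ge]

theorem Alive.up_pos (h : Alive ω z t) : 0 < Up ω z t := mul_pos h.yc_pos (Real.exp_pos _)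

theorem Up_nonneg : 0 ≤ Up ω z t := mul_nonneg Yc_nonneg (Real.exp_pos _).le

private theorem Zc_im : (Zc ω z t).im = Yc ω z t := by simp [Zc, Yc]

theorem Yc_le_norm : Yc ω z t ≤ ‖Zc ω z t‖ :=
  Zc_im.symm.le.trans ((le_abs_self _).trans (Complex.abs_im_le_norm _))

private theorem Alive.norm_pos (h : Alive ω z t) : 0 < ‖Zc ω z t‖ := h.yc_pos.trans_le Yc_le_norm

private theorem Alive.Zc_ne (h : Alive ω z t) : Zc ω z t ≠ 0 := norm_pos_iff.1 h.norm_pos

theorem Sc_mem : Sc ω z t ∈ Icc (0 : ℝ) 1 :=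
  ⟨div_nonneg Yc_nonneg (norm_nonneg _), div_le_one_of_le₀ Yc_le_norm (norm_nonneg _)⟩

theorem Alive.sc_pos (h : Alive ω z t) : 0 < Sc ω z t := div_pos h.yc_pos h.norm_pos

private theorem Alive.gt_mem (h : Alive ω z t) : gt ω z t ∈ HH := h.yc_pos

private theorem Alive.Zc_mem (h : Alive ω z t) : Zc ω z t ∈ HH := by
  change 0 < (Zc ω z t).im; rw [Zc_im]; exact h.yc_pos

theorem Yc_anti (hs : 0 ≤ s) (hst : s ≤ t) : Yc ω z t ≤ Yc ω z s := by
  by_cases h : Alive ω z t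
  exacts [h.sol.im_anti hs hst le_rfl, (dead h).2.1.le.trans Yc_nonneg]

/-! ### L2: adaptedness -/

private theorem Agr.symm (h : Agr t ω ω') : Agr t ω' ω := fun s hs => (h s hs).symm

private theorem Agr.of_le (h : Agr t ω ω') (hst : s ≤ t) : Agr s ω ω' := fun r hr => h r (hr.trans hst)

private theorem Agr.sol {g : ℝ → ℂ} (h : Agr t ω ω') (hg : Sol ω z t g) : Sol ω' z t g :=
  ⟨hg.init, hg.cont, hg.pos, fun s hs => by rw [h s hs.2.le]; exact hg.ode s hs⟩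

theorem Agr.alive (h : Agr t ω ω') : Alive ω' z t ↔ Alive ω z t :=
  ⟨fun h' => ⟨h'.1, h'.2.imp fun _ => h.symm.sol⟩, fun h' => ⟨h'.1, h'.2.imp fun _ => h.sol⟩⟩

theorem Agr.gt (h : Agr t ω ω') : gt ω' z t = gt ω z t := by
  by_cases h' : Alive ω z t
  · exact (h.sol h'.sol).gt_eq (right_mem_Icc.2 h'.1)
  · rw [(dead h').1, (dead (mt h.alive.1 h')).1]

private theorem Agr.Zc (h : Agr t ω ω') : Zc ω' z t = Zc ω z t := by
  rw [R162.Zc, R162.Zc, h.gt, h t le_rfl]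

private theorem Agr.Yc (h : Agr t ω ω') : Yc ω' z t = Yc ω z t := by rw [R162.Yc, R162.Yc, h.gt]

private theorem Agr.Sc (h : Agr t ω ω') : Sc ω' z t = Sc ω z t := by rw [R162.Sc, R162.Sc, h.Yc, h.Zc]

theorem Agr.Up (h : Agr t ω ω') : Up ω' z t = Up ω z t := by
  by_cases h' : Alive ω z t
  · rw [R162.Up, R162.Up, h.Yc, intervalIntegral.integral_congr (g := fun s => (2 / R162.Zc ω z s ^ 2).re)]
    intro s hs
    rw [uIcc_of_le h'.1] at hs
    simp only [(h.of_le hs.2).Zc]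
  · rw [(dead h').2.2.1, (dead (mt h.alive.1 h')).2.2.1]

theorem Agr.ft (h : Agr t ω ω') : ft ω' t = ft ω t := by
  have e1 : Dom ω' t = Dom ω t := Set.ext fun _ => h.alive
  have e2 : (fun z => R162.gt ω' z t) = fun z => R162.gt ω z t := funext fun _ => h.gt
  rw [R162.ft, R162.ft, e1, e2]

/-! ### comparison with the truncated flow -/

private theorem gt_eq_fl {ε : ℝ} (hε : 0 < ε) (h : ε ≤ Yc ω z t) (hT : t ≤ T) (hs : s ∈ Icc 0 t) :
    gt ω z s = fl 1 ε T ω z s := by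
  have ha : Alive ω z t := alive_iff.2 (hε.trans_le h)
  exact (ha.sol.tsol h).uniq abs_one_le hε ((fl_tsol abs_one_le hε (ha.1.trans hT)).mono hT) s hs

private theorem sol_fl {ε : ℝ} (hε : 0 < ε) (ht : t ∈ Icc 0 T) (h : ε ≤ (fl 1 ε T ω z t).im) :
    Sol ω z t (fl 1 ε T ω z) :=
  ((fl_tsol abs_one_le hε (ht.1.trans ht.2)).mono ht.2).sol hε h

private theorem max_Yc {ε : ℝ} (hε : 0 < ε) (ht : t ∈ Icc 0 T) : max (Yc ω z t) ε = max (fl 1 ε T ω z t).im ε := by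
  rcases le_or_gt ε (fl 1 ε T ω z t).im with h | h
  · rw [Yc, (sol_fl hε ht h).gt_eq (right_mem_Icc.2 ht.1)]
  · rw [max_eq_right h.le, max_eq_right]
    by_contra h'
    rw [← gt_eq_fl hε (not_le.1 h').le ht.2 (right_mem_Icc.2 ht.1)] at h
    exact h' h.le

/-! ### L3: continuity in `(ω, z, t)` -/

private theorem eventually_time (p₀ : Path × ℂ × ℝ) :
    ∀ᶠ p in 𝓝[univ ×ˢ univ ×ˢ Ici 0] p₀, p.2.2 ∈ Icc 0 (p₀.2.2 + 1) := by
  have h1 : Continuous fun p : Path × ℂ × ℝ => p.2.2 := by fun_prop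
  filter_upwards [self_mem_nhdsWithin, mem_nhdsWithin_of_mem_nhds
    ((h1.tendsto p₀).eventually (ge_mem_nhds (lt_add_one _)))] with p h2 h3 using ⟨h2.2.2, h3⟩

theorem continuousOn_Yc :
    ContinuousOn (fun p : Path × ℂ × ℝ => Yc p.1 p.2.1 p.2.2) (univ ×ˢ univ ×ˢ Ici 0) := by
  intro p₀ hp₀
  have hT : 0 ≤ p₀.2.2 + 1 := by linarith [show 0 ≤ p₀.2.2 from hp₀.2.2]
  rw [ContinuousWithinAt, Metric.tendsto_nhds]
  intro η hη
  have hε : 0 < η / 3 := by positivity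
  have hc : Continuous fun p : Path × ℂ × ℝ => max (fl 1 (η / 3) (p₀.2.2 + 1) p.1 p.2.1 p.2.2).im (η / 3) :=
    (Complex.continuous_im.comp (continuous_fl abs_one_le hε hT)).max continuous_const
  filter_upwards [eventually_time p₀, mem_nhdsWithin_of_mem_nhds
    (Metric.tendsto_nhds.1 (hc.tendsto p₀) _ hε)] with p h1 h2
  rw [← max_Yc hε h1, ← max_Yc hε ⟨hp₀.2.2, by linarith⟩, Real.dist_eq, abs_lt] at h2
  have a1 := Yc_nonneg (ω := p.1) (z := p.2.1) (t := p.2.2)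
  have a2 := Yc_nonneg (ω := p₀.1) (z := p₀.2.1) (t := p₀.2.2)
  rw [Real.dist_eq, abs_lt]
  rcases max_cases (Yc p.1 p.2.1 p.2.2) (η / 3) with b | b <;>
    rcases max_cases (Yc p₀.1 p₀.2.1 p₀.2.2) (η / 3) with c | c <;> constructor <;> linarith [h2.1, h2.2]

private theorem Alive.pmem (h : Alive ω z t) :
    (ω, z, t) ∈ (univ ×ˢ univ ×ˢ Ici 0 : Set (Path × ℂ × ℝ)) := ⟨trivial, trivial, h.1⟩

private theorem Alive.eventually_Yc (h : Alive ω z t) :
    ∀ᶠ p : Path × ℂ × ℝ in 𝓝[univ ×ˢ univ ×ˢ Ici 0] (ω, z, t), Yc ω z t / 2 ≤ Yc p.1 p.2.1 p.2.2 :=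
  (continuousOn_Yc _ h.pmem).eventually (le_mem_nhds (half_lt_self h.yc_pos))

private theorem Alive.eventually_alive (h : Alive ω z t) :
    ∀ᶠ p : Path × ℂ × ℝ in 𝓝[univ ×ˢ univ ×ˢ Ici 0] (ω, z, t), Alive p.1 p.2.1 p.2.2 :=
  h.eventually_Yc.mono fun _ hp => alive_iff.2 ((half_pos h.yc_pos).trans_le hp)

private theorem Alive.eventually_fl (h : Alive ω z t) :
    ∀ᶠ p : Path × ℂ × ℝ in 𝓝[univ ×ˢ univ ×ˢ Ici 0] (ω, z, t), 0 ≤ p.2.2 ∧ ∀ s ∈ Icc 0 p.2.2,
      gt p.1 p.2.1 s = fl 1 (Yc ω z t / 2) (t + 1) p.1 p.2.1 s ∧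
      Zc p.1 p.2.1 s = cl (Yc ω z t / 2) (fl 1 (Yc ω z t / 2) (t + 1) p.1 p.2.1 s - p.1 s) := by
  filter_upwards [h.eventually_Yc, eventually_time (ω, z, t)] with p h1 h2
  refine ⟨h2.1, fun s hs => ?_⟩
  have e := gt_eq_fl (half_pos h.yc_pos) h1 h2.2 hs
  refine ⟨e, ?_⟩
  rw [← e, cl_of_le]
  · rfl
  · exact h1.trans ((Yc_anti hs.1 hs.2).trans Zc_im.ge)

theorem Alive.cont_gt (h : Alive ω z t) :
    ContinuousWithinAt (fun p : Path × ℂ × ℝ => gt p.1 p.2.1 p.2.2) (univ ×ˢ univ ×ˢ Ici 0) (ω, z, t) :=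
  (continuous_fl abs_one_le (half_pos h.yc_pos) (T := t + 1)
    (by linarith [h.1])).continuousWithinAt.congr_of_eventuallyEq_of_mem
    (h.eventually_fl.mono fun _ hp => (hp.2 _ (right_mem_Icc.2 hp.1)).1) h.pmem

private theorem Alive.cont_Zc (h : Alive ω z t) :
    ContinuousWithinAt (fun p : Path × ℂ × ℝ => Zc p.1 p.2.1 p.2.2) (univ ×ˢ univ ×ˢ Ici 0) (ω, z, t) :=
  h.cont_gt.sub (Continuous.continuousWithinAt (by fun_prop))

/-- `∫₀ᵗ 2 / Z²` is continuous -/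
private theorem Alive.cont_int (h : Alive ω z t) :
    ContinuousWithinAt (fun p : Path × ℂ × ℝ => ∫ u in (0 : ℝ)..p.2.2, 2 / Zc p.1 p.2.1 u ^ 2)
      (univ ×ˢ univ ×ˢ Ici 0) (ω, z, t) := by
  have hε := half_pos h.yc_pos
  have hfl := continuous_fl abs_one_le hε (T := t + 1) (by linarith [h.1])
  have hc : Continuous fun p : Path × ℂ × ℝ => ∫ u in (0 : ℝ)..p.2.2,
      2 / cl (Yc ω z t / 2) (fl 1 (Yc ω z t / 2) (t + 1) p.1 p.2.1 u - p.1 u) ^ 2 := by
    refine intervalIntegral.continuous_parametric_intervalIntegral_of_continuous ?_ (by fun_prop)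
    refine continuous_const.div (Continuous.pow (continuous_cl.comp (Continuous.sub ?_ (by fun_prop))) 2)
      fun _ => pow_ne_zero 2 (cl_ne hε)
    exact hfl.comp (f := fun q : (Path × ℂ × ℝ) × ℝ => (q.1.1, q.1.2.1, q.2)) (by fun_prop)
  refine hc.continuousWithinAt.congr_of_eventuallyEq_of_mem (h.eventually_fl.mono fun p hp => ?_) h.pmem
  refine intervalIntegral.integral_congr fun s hs => ?_
  rw [uIcc_of_le hp.1] at hs
  simp only [(hp.2 s hs).2]

private theorem Alive.contOn_Zc (h : Alive ω z t) : ContinuousOn (Zc ω z) (Icc 0 t) :=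
  h.sol.cont.sub (Continuous.continuousOn (by fun_prop))

private theorem Alive.contOn_inv (h : Alive ω z t) : ContinuousOn (fun u => 2 / Zc ω z u ^ 2) (Icc 0 t) :=
  continuousOn_const.div (h.contOn_Zc.pow 2) fun _ hu => pow_ne_zero 2 (h.mono hu.1 hu.2).Zc_ne

private theorem Alive.Up_eq_re (h : Alive ω z t) :
    Up ω z t = Yc ω z t * Real.exp (∫ u in (0 : ℝ)..t, 2 / Zc ω z u ^ 2).re := by
  rw [Up]
  congr 2
  exact Complex.reCLM.intervalIntegral_comp_comm (h.contOn_inv.intervalIntegrable_of_Icc h.1)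

theorem Alive.cont_Up (h : Alive ω z t) :
    ContinuousWithinAt (fun p : Path × ℂ × ℝ => Up p.1 p.2.1 p.2.2) (univ ×ˢ univ ×ˢ Ici 0) (ω, z, t) :=
  ((continuousOn_Yc _ h.pmem).mul
    (Complex.continuous_re.continuousAt.comp_continuousWithinAt h.cont_int).rexp).congr_of_eventuallyEq_of_mem
    (h.eventually_alive.mono fun _ hp => hp.Up_eq_re) h.pmem

private theorem Alive.cont_Sc (h : Alive ω z t) :
    ContinuousWithinAt (fun p : Path × ℂ × ℝ => Sc p.1 p.2.1 p.2.2) (univ ×ˢ univ ×ˢ Ici 0) (ω, z, t) :=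
  (continuousOn_Yc _ h.pmem).div h.cont_Zc.norm h.norm_pos.ne'

private theorem tendsto_space (ω : Path) (z : ℂ) (ht : 0 ≤ t) :
    Tendsto (fun w => (ω, w, t)) (𝓝 z) (𝓝[univ ×ˢ univ ×ˢ Ici 0] (ω, z, t)) :=
  tendsto_nhdsWithin_iff.2 ⟨Continuous.tendsto (by fun_prop) z, Eventually.of_forall fun _ =>
    ⟨trivial, trivial, ht⟩⟩

private theorem tendsto_time (ω : Path) (z : ℂ) (t : ℝ) :
    Tendsto (fun r => (ω, z, r)) (𝓝[Ici 0] t) (𝓝[univ ×ˢ univ ×ˢ Ici 0] (ω, z, t)) :=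
  tendsto_nhdsWithin_iff.2 ⟨(Continuous.tendsto (by fun_prop) t).mono_left nhdsWithin_le_nhds,
    eventually_mem_nhdsWithin.mono fun _ hr => ⟨trivial, trivial, hr⟩⟩

theorem isOpen_Dom : IsOpen (Dom ω t) :=
  isOpen_iff_mem_nhds.2 fun z hz => (tendsto_space ω z hz.1).eventually (Alive.eventually_alive hz)

private theorem Alive.eventually_time (h : Alive ω z t) : ∀ᶠ r in 𝓝[Ici 0] t, Alive ω z r :=
  (tendsto_time ω z t).eventually h.eventually_alive

private theorem Alive.exists_gt (h : Alive ω z t) : ∃ T, t < T ∧ Alive ω z T := by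
  have : ∀ᶠ r in 𝓝[>] t, Alive ω z r :=
    h.eventually_time.filter_mono (nhdsWithin_mono _ fun r hr => h.1.trans (le_of_lt hr))
  exact (eventually_mem_nhdsWithin.and this).exists

/-! ### L4: the ODEs -/

theorem Alive.deriv_gt (h : Alive ω z t) : HasDerivWithinAt (gt ω z) (2 / Zc ω z t) (Ici 0) t := by
  have hε := half_pos h.yc_pos
  have h1 := (tendsto_time ω z t).eventually h.eventually_fl
  have h2 := fl_deriv (ω := ω) (z := z) (T := t + 1) abs_one_le hε ⟨h.1, by linarith⟩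
  have h3 := (h1.self_of_nhdsWithin h.1).2 t (right_mem_Icc.2 h.1)
  have h4 : Icc 0 (t + 1) ∈ 𝓝[Ici 0] t := by
    filter_upwards [self_mem_nhdsWithin, mem_nhdsWithin_of_mem_nhds (Iic_mem_nhds (lt_add_one t))] with r a b
      using ⟨a, b⟩
  refine ((h2.mono_of_mem_nhdsWithin h4).congr_of_eventuallyEq_of_mem
    (h1.mono fun r hr => (hr.2 r (right_mem_Icc.2 hr.1)).1) h.1).congr_deriv ?_
  simp only at h3
  simp [fd, h3.2]

theorem Alive.deriv_Yc (h : Alive ω z t) :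
    HasDerivWithinAt (Yc ω z) (-2 * Yc ω z t / ‖Zc ω z t‖ ^ 2) (Ici 0) t := by
  refine (Complex.imCLM.hasFDerivAt.comp_hasDerivWithinAt t h.deriv_gt).congr_deriv ?_
  rw [Complex.imCLM_apply, Complex.div_im, Zc_im, Complex.sq_norm]
  simp; ring

theorem Alive.deriv_Up (h : Alive ω z t) :
    HasDerivWithinAt (Up ω z) (-4 * Up ω z t * Sc ω z t ^ 2 / ‖Zc ω z t‖ ^ 2) (Ici 0) t := by
  obtain ⟨T, hT, h'⟩ := h.exists_gt
  have h4 : Icc 0 T ∈ 𝓝[Ici 0] t := by
    filter_upwards [self_mem_nhdsWithin, mem_nhdsWithin_of_mem_nhds (Iic_mem_nhds hT)] with r a b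
      using ⟨a, b⟩
  have h1 := ((prim_deriv (Complex.continuous_re.comp_continuousOn h'.contOn_inv)
    ⟨h.1, hT.le⟩).mono_of_mem_nhdsWithin h4).exp
  refine (h.deriv_Yc.fun_mul h1).congr_deriv ?_
  have hn := h.norm_pos.ne'
  have e : (2 / Zc ω z t ^ 2).re = 2 * (‖Zc ω z t‖ ^ 2 - 2 * Yc ω z t ^ 2) / ‖Zc ω z t‖ ^ 4 := by
    rw [Complex.div_re, ← Zc_im, map_pow, show ‖Zc ω z t‖ ^ 4 = (‖Zc ω z t‖ ^ 2) ^ 2 by ring, Complex.sq_norm,
      Complex.normSq_apply]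
    simp [sq]; ring
  simp only [Function.comp_apply, e, Up, Sc]
  field_simp
  ring

end partB

/-! ## Row 162, block L, part C: a priori bounds, domain Markov property, scaling -/

section partC

variable {ω ω' : Path} {z ζ : ℂ} {s t T : ℝ}

private theorem contOn_Yc : ContinuousOn (Yc ω z) (Ici 0) := fun r hr =>
  (continuousOn_Yc (ω, z, r) ⟨trivial, trivial, hr⟩).tendsto.comp (tendsto_time ω z r)

private theorem Alive.contOn_Up (h : Alive ω z t) : ContinuousOn (Up ω z) (Icc 0 t) := fun _ hr =>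
  (h.mono hr.1 hr.2).deriv_Up.continuousWithinAt.mono Icc_subset_Ici_self

private theorem Alive.contOn_Sc (h : Alive ω z t) : ContinuousOn (Sc ω z) (Icc 0 t) :=
  (contOn_Yc.mono Icc_subset_Ici_self).div h.contOn_Zc.norm fun _ hr => (h.mono hr.1 hr.2).norm_pos.ne'

private theorem Alive.contOn_a (h : Alive ω z t) : ContinuousOn (fun u => 2 / ‖Zc ω z u‖ ^ 2) (Icc 0 t) :=
  continuousOn_const.div (h.contOn_Zc.norm.pow 2) fun _ hr => pow_ne_zero 2 (h.mono hr.1 hr.2).norm_pos.ne'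

private theorem Alive.contOn_b (h : Alive ω z t) :
    ContinuousOn (fun u => 4 * Sc ω z u ^ 2 / ‖Zc ω z u‖ ^ 2) (Icc 0 t) :=
  (continuousOn_const.mul (h.contOn_Sc.pow 2)).div (h.contOn_Zc.norm.pow 2) fun _ hr =>
    pow_ne_zero 2 (h.mono hr.1 hr.2).norm_pos.ne'

/-- `log (Y_s / Y_t) = ∫ 2 / |Z|²` -/
theorem Alive.Yc_eq (h : Alive ω z t) (hs : 0 ≤ s) (hst : s ≤ t) :
    Yc ω z t = Yc ω z s * Real.exp (-∫ u in s..t, 2 / ‖Zc ω z u‖ ^ 2) :=
  lin_ode_real hst (h.contOn_a.mono (Icc_subset_Icc_left hs)) (contOn_Yc.mono fun _ hr => hs.trans hr.1)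
    fun r hr => ((h.mono (hs.trans hr.1) hr.2.le).deriv_Yc.mono
      (Ici_subset_Ici.2 (hs.trans hr.1))).congr_deriv (by ring)

theorem Alive.Up_eq (h : Alive ω z t) (hs : 0 ≤ s) (hst : s ≤ t) :
    Up ω z t = Up ω z s * Real.exp (-∫ u in s..t, 4 * Sc ω z u ^ 2 / ‖Zc ω z u‖ ^ 2) :=
  lin_ode_real hst (h.contOn_b.mono (Icc_subset_Icc_left hs)) (h.contOn_Up.mono (Icc_subset_Icc_left hs))
    fun r hr => ((h.mono (hs.trans hr.1) hr.2.le).deriv_Up.mono
      (Ici_subset_Ici.2 (hs.trans hr.1))).congr_deriv (by ring)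

theorem Up_anti (hs : 0 ≤ s) (hst : s ≤ t) : Up ω z t ≤ Up ω z s := by
  by_cases h : Alive ω z t
  · rw [h.Up_eq hs hst]
    refine mul_le_of_le_one_right Up_nonneg (Real.exp_le_one_iff.2 (neg_nonpos.2 ?_))
    exact intervalIntegral.integral_nonneg hst fun _ _ => by positivity
  · exact (dead h).2.2.1.le.trans Up_nonneg

/-- continuation principle -/
private theorem Alive.extend {c : ℝ} (h : Alive ω z s) (hst : s ≤ t) (hc : 0 < c)
    (hb : ∀ r ∈ Icc s t, Alive ω z r → c ≤ Yc ω z r) : Alive ω z t := by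
  have hcl : IsClosed ({r | c ≤ Yc ω z r} ∩ Icc s t) := by
    rw [inter_comm]
    exact (contOn_Yc.mono fun r hr => h.1.trans hr.1).preimage_isClosed_of_isClosed isClosed_Icc isClosed_Ici
  have := hcl.Icc_subset_of_forall_exists_gt (hb s (left_mem_Icc.2 hst) h) (fun x hx y hy => by
    obtain ⟨T, hT, h'⟩ := (alive_iff.2 (hc.trans_le hx.1)).exists_gt
    have h1 : x < min y (min T t) := lt_min hy (lt_min hT hx.2.2)
    have h2 : s ≤ min y (min T t) := hx.2.1.trans h1.le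
    exact ⟨min y (min T t), hb _ ⟨h2, (min_le_right _ _).trans (min_le_right _ _)⟩
      (h'.mono (h.1.trans h2) ((min_le_right _ _).trans (min_le_left _ _))), h1, min_le_left _ _⟩)
    (right_mem_Icc.2 hst)
  exact alive_iff.2 (hc.trans_le this)

private theorem Alive.Yc_sq_ge (h : Alive ω z t) (hs : 0 ≤ s) (hst : s ≤ t) :
    Yc ω z s ^ 2 - 4 * (t - s) ≤ Yc ω z t ^ 2 := by
  refine image_le_of_deriv_right_le_deriv_boundary (f := fun r => Yc ω z s ^ 2 - 4 * (r - s))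
    (f' := fun _ => -4) (B := fun r => Yc ω z r ^ 2)
    (B' := fun r => 2 * Yc ω z r * (-2 * Yc ω z r / ‖Zc ω z r‖ ^ 2)) (by fun_prop) (fun r _ => ?_) (by simp)
    ((contOn_Yc.mono fun _ hr => hs.trans hr.1).pow 2) (fun r hr => ?_) (fun r hr => ?_) (right_mem_Icc.2 hst)
  · simpa using (((hasDerivWithinAt_id r (Ici r)).sub_const s).const_mul 4).const_sub (Yc ω z s ^ 2)
  · simpa using ((h.mono (hs.trans hr.1) hr.2.le).deriv_Yc.mono (Ici_subset_Ici.2 (hs.trans hr.1))).fun_pow 2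
  · have h' := h.mono (hs.trans hr.1) hr.2.le
    have h1 : Yc ω z r ^ 2 / ‖Zc ω z r‖ ^ 2 ≤ 1 :=
      div_le_one_of_le₀ (pow_le_pow_left₀ Yc_nonneg Yc_le_norm 2) (by positivity)
    calc (-4 : ℝ) ≤ -4 * (Yc ω z r ^ 2 / ‖Zc ω z r‖ ^ 2) := by linarith
      _ = _ := by ring

theorem Yc_sq_ge (hs : 0 ≤ s) (hst : s ≤ t) : Yc ω z s ^ 2 - 4 * (t - s) ≤ Yc ω z t ^ 2 := by
  rcases le_or_gt (Yc ω z s ^ 2 - 4 * (t - s)) 0 with h | h
  · exact h.trans (sq_nonneg _)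
  have h0 : Alive ω z s := by
    by_contra h0
    rw [(dead h0).2.1] at h
    linarith
  refine (h0.extend hst (Real.sqrt_pos.2 h) fun r hr h' => ?_).Yc_sq_ge hs hst
  refine Real.sqrt_le_iff.2 ⟨Yc_nonneg, ?_⟩
  linarith [h'.Yc_sq_ge hs hr.1, hr.2]

/-- `d log Υ ≥ 2 d log Y` -/
theorem Up_mul_Yc_sq (hs : 0 ≤ s) (hst : s ≤ t) : Up ω z s * Yc ω z t ^ 2 ≤ Up ω z t * Yc ω z s ^ 2 := by
  by_cases h : Alive ω z t
  · rw [h.Up_eq hs hst, h.Yc_eq hs hst, mul_pow, ← Real.exp_nat_mul, mul_right_comm, mul_assoc]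
    refine mul_le_mul_of_nonneg_left ?_ Up_nonneg
    refine mul_le_mul_of_nonneg_left (Real.exp_le_exp.2 ?_) (sq_nonneg _)
    rw [mul_neg, neg_le_neg_iff, ← intervalIntegral.integral_const_mul]
    refine intervalIntegral.integral_mono_on hst
      ((h.contOn_b.mono (Icc_subset_Icc_left hs)).intervalIntegrable_of_Icc hst)
      ((continuousOn_const.mul (h.contOn_a.mono (Icc_subset_Icc_left hs))).intervalIntegrable_of_Icc hst)
      fun r _ => ?_
    have h1 : Sc ω z r ^ 2 ≤ 1 := pow_le_one₀ Sc_mem.1 Sc_mem.2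
    rw [← mul_div_assoc]
    exact div_le_div_of_nonneg_right (by push_cast; linarith) (by positivity)
  · simp [(dead h).2.1, (dead h).2.2.1]

private theorem Alive.fence (h : Alive ω z t) {B D : ℝ} (hB : 0 ≤ B) (hD : 0 < D)
    (hf : ∀ s ∈ Ico 0 t, ‖gt ω z s - z‖ = B + 2 / D * s → D < ‖Zc ω z s‖) :
    ∀ s ∈ Icc 0 t, ‖gt ω z s - z‖ ≤ B + 2 / D * s := by
  refine image_norm_le_of_norm_deriv_right_lt_deriv_boundary (f := fun s => gt ω z s - z)
    (f' := fun s => 2 / Zc ω z s) (B := fun s => B + 2 / D * s) (B' := fun _ => 2 / D)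
    (h.sol.cont.sub continuousOn_const) (fun s hs => (h.sol.ode s hs).sub_const z)
    (by simpa [gt_zero h.mem] using hB) (fun s => ?_) fun s hs e => ?_
  · simpa using ((hasDerivAt_id s).const_mul (2 / D)).const_add B
  · rw [norm_div, Complex.norm_ofNat]
    exact div_lt_div_of_pos_left two_pos hD (hf s hs e)

private theorem norm_Zc_ge (hs : s ∈ Icc 0 t) :
    ‖z - ω 0‖ - osc t ω - ‖gt ω z s - z‖ ≤ ‖Zc ω z s‖ ∧ ‖gt ω z s - z‖ - osc t ω - ‖z - ω 0‖ ≤ ‖Zc ω z s‖ := by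
  have h1 : ‖((ω s - ω 0 : ℝ) : ℂ)‖ ≤ osc t ω := by rw [Complex.norm_real]; exact abs_le_osc ω hs
  have e1 : z - ω 0 = Zc ω z s + ((ω s - ω 0 : ℝ) : ℂ) - (gt ω z s - z) := by simp [Zc]
  have e2 : gt ω z s - z = Zc ω z s + ((ω s - ω 0 : ℝ) : ℂ) - (z - ω 0) := by simp [Zc]
  have h2 := norm_add_le (Zc ω z s) ((ω s - ω 0 : ℝ) : ℂ)
  constructor
  · have := norm_sub_le (Zc ω z s + ((ω s - ω 0 : ℝ) : ℂ)) (gt ω z s - z)
    rw [← e1] at this; linarith
  · have := norm_sub_le (Zc ω z s + ((ω s - ω 0 : ℝ) : ℂ)) (z - ω 0)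
    rw [← e2] at this; linarith

private theorem far_aux {D r : ℝ} (hD : 0 < D) (htD : √t ≤ D) (h : D + osc t ω + 2 * √t ≤ ‖z - ω 0‖)
    (hr : r ∈ Icc 0 t) (ha : Alive ω z r) : ∀ s ∈ Icc 0 r, D ≤ ‖Zc ω z s‖ ∧ ‖gt ω z s - z‖ ≤ 2 * t / D := by
  have ht : 0 ≤ t := hr.1.trans hr.2
  have h1 : t ≤ √t * D := by nlinarith [Real.mul_self_sqrt ht, Real.sqrt_nonneg t]
  have h2 : 2 / D * t ≤ 2 * √t := by rw [div_mul_eq_mul_div, div_le_iff₀ hD]; linarith
  have hD2 : 0 < 2 / D := by positivity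
  intro s hs
  have h3 := ha.fence le_rfl hD (fun s hs e => by
    have := (norm_Zc_ge (ω := ω) (z := z) (t := t) ⟨hs.1, hs.2.le.trans hr.2⟩).1
    have := mul_lt_mul_of_pos_left (hs.2.trans_le hr.2) hD2
    linarith) s hs
  have h4 := (norm_Zc_ge (ω := ω) (z := z) (t := t) ⟨hs.1, hs.2.trans hr.2⟩).1
  have h5 := mul_le_mul_of_nonneg_left (hs.2.trans hr.2) hD2.le
  exact ⟨by linarith, by rw [← div_mul_eq_mul_div]; linarith⟩

private theorem int_le {D c r : ℝ} {a : ℝ → ℝ} (hc : 0 ≤ c) (hr : r ∈ Icc 0 t) (ha : ContinuousOn a (Icc 0 r))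
    (hb : ∀ s ∈ Icc 0 r, a s ≤ c / D ^ 2) : -c * t / D ^ 2 ≤ -∫ u in (0 : ℝ)..r, a u := by
  have := intervalIntegral.integral_mono_on hr.1 (ha.intervalIntegrable_of_Icc (μ := volume) hr.1)
    intervalIntegrable_const hb
  simp only [intervalIntegral.integral_const, sub_zero, smul_eq_mul] at this
  have h2 := mul_le_mul_of_nonneg_right hr.2 (show 0 ≤ c / D ^ 2 by positivity)
  calc -c * t / D ^ 2 = -(t * (c / D ^ 2)) := by ring
    _ ≤ _ := by linarith

/-- points far from the driving function survive -/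
theorem far {D : ℝ} (hz : z ∈ HH) (ht : 0 ≤ t) (hD : 0 < D) (htD : √t ≤ D)
    (h : D + osc t ω + 2 * √t ≤ ‖z - ω 0‖) :
    Alive ω z t ∧ ∀ s ∈ Icc 0 t, D ≤ ‖Zc ω z s‖ ∧ ‖gt ω z s - z‖ ≤ 2 * t / D ∧
      z.im * Real.exp (-2 * t / D ^ 2) ≤ Yc ω z s ∧ z.im * Real.exp (-4 * t / D ^ 2) ≤ Up ω z s := by
  have hz' : 0 < z.im := hz
  have hY : ∀ r ∈ Icc 0 t, Alive ω z r → z.im * Real.exp (-2 * t / D ^ 2) ≤ Yc ω z r := fun r hr ha => by
    rw [ha.Yc_eq le_rfl hr.1, Yc_zero hz]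
    refine mul_le_mul_of_nonneg_left (Real.exp_le_exp.2 (int_le two_pos.le hr ha.contOn_a fun s hs => ?_)) hz'.le
    exact div_le_div_of_nonneg_left two_pos.le (by positivity)
      (pow_le_pow_left₀ hD.le (far_aux hD htD h hr ha s hs).1 2)
  have ha : Alive ω z t := (alive_zero.2 hz).extend ht (by positivity) hY
  refine ⟨ha, fun s hs => ?_⟩
  have h1 := far_aux hD htD h (right_mem_Icc.2 ht) ha
  have ha' := ha.mono hs.1 hs.2
  refine ⟨(h1 s hs).1, (h1 s hs).2, hY s hs ha', ?_⟩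
  rw [ha'.Up_eq le_rfl hs.1, Up_zero hz]
  refine mul_le_mul_of_nonneg_left (Real.exp_le_exp.2 (int_le (by norm_num) hs ha'.contOn_b fun r hr => ?_))
    hz'.le
  have h2 : Sc ω z r ^ 2 ≤ 1 := pow_le_one₀ Sc_mem.1 Sc_mem.2
  exact div_le_div₀ (by norm_num) (by linarith) (by positivity)
    (pow_le_pow_left₀ hD.le (h1 r ⟨hr.1, hr.2.trans hs.2⟩).1 2)

theorem Alive.norm_gt_sub (h : Alive ω z t) : ‖gt ω z t - z‖ ≤ 6 * (√t + osc t ω) := by
  have ho := osc_nonneg t ω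
  rcases h.1.eq_or_lt with rfl | ht
  · simpa [gt_zero h.mem] using ho
  have hD : 0 < √t := Real.sqrt_pos.2 ht
  have e : 2 / √t * t = 2 * √t := by field_simp; rw [Real.sq_sqrt ht.le]
  rcases le_or_gt (√t + osc t ω + 2 * √t) ‖z - ω 0‖ with h1 | h1
  · have := (far_aux hD le_rfl h1 (right_mem_Icc.2 h.1) h t (right_mem_Icc.2 h.1)).2
    rw [← div_mul_eq_mul_div, e] at this
    linarith
  · have := h.fence (B := 2 * osc t ω + 4 * √t) (by positivity) hD (fun s hs e' => by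
      have := (norm_Zc_ge (ω := ω) (z := z) (Ico_subset_Icc_self hs)).2
      have : 0 ≤ 2 / √t * s := mul_nonneg (by positivity) hs.1
      linarith) t (right_mem_Icc.2 h.1)
    linarith

/-! ### L7: domain Markov property and scaling -/

private theorem sh_apply (ht : 0 ≤ t) : sh s ω t = ω (s + t) - ω s := by simp [sh, ht]

private theorem shift_deriv {g : ℝ → ℂ} {a : ℂ} (h : HasDerivWithinAt g a (Ici (s + t)) (s + t)) (c : ℂ) :
    HasDerivWithinAt (fun u => g (s + u) - c) a (Ici t) t := by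
  have := h.scomp t ((hasDerivWithinAt_id t (Ici t)).const_add s) fun u hu => by simpa using hu
  simpa using this.sub_const c

private theorem Alive.sol_sh (h : Alive ω z (s + t)) (hs : 0 ≤ s) :
    Sol (sh s ω) (Zc ω z s) t fun u => gt ω z (s + u) - ω s := by
  have hm : MapsTo (fun u => s + u) (Icc 0 t) (Icc 0 (s + t)) := fun u hu =>
    ⟨add_nonneg hs hu.1, add_le_add_right hu.2 _⟩
  refine ⟨by simp [Zc], (h.sol.cont.comp (by fun_prop) hm).sub continuousOn_const, fun u hu => ?_,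
    fun u hu => ?_⟩
  · simpa using h.sol.pos _ (hm hu)
  · refine (shift_deriv (h.sol.ode _ ⟨add_nonneg hs hu.1, add_lt_add_right hu.2 _⟩) _).congr_deriv ?_
    rw [sh_apply hu.1]; push_cast; ring_nf

theorem Alive.add_iff (h : Alive ω z s) (ht : 0 ≤ t) : Alive ω z (s + t) ↔ Alive (sh s ω) (Zc ω z s) t := by
  refine ⟨fun h' => ⟨ht, _, h'.sol_sh h.1⟩, fun h' => ?_⟩
  refine h.extend (le_add_of_nonneg_right ht) h'.yc_pos fun r hr ha => ?_
  obtain ⟨u, rfl⟩ : ∃ u, r = s + u := ⟨r - s, by ring⟩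
  have hu : 0 ≤ u := by linarith [hr.1]
  refine (Yc_anti hu (by linarith [hr.2])).trans_eq ?_
  rw [Yc, (ha.sol_sh h.1).gt_eq (right_mem_Icc.2 hu)]
  simp [Yc]

theorem Alive.Zc_add (h : Alive ω z (s + t)) (hs : 0 ≤ s) (ht : 0 ≤ t) :
    Zc ω z (s + t) = Zc (sh s ω) (Zc ω z s) t := by
  rw [Zc.eq_1 (sh s ω), (h.sol_sh hs).gt_eq (right_mem_Icc.2 ht), sh_apply ht, Zc]
  push_cast; ring

theorem Alive.Yc_add (h : Alive ω z s) (ht : 0 ≤ t) : Yc ω z (s + t) = Yc (sh s ω) (Zc ω z s) t := by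
  by_cases h' : Alive ω z (s + t)
  · rw [← Zc_im, ← Zc_im, h'.Zc_add h.1 ht]
  · rw [(dead h').2.1, (dead (mt (h.add_iff ht).2 h')).2.1]

theorem Alive.Sc_add (h : Alive ω z s) (ht : 0 ≤ t) : Sc ω z (s + t) = Sc (sh s ω) (Zc ω z s) t := by
  by_cases h' : Alive ω z (s + t)
  · rw [Sc, Sc, h.Yc_add ht, h'.Zc_add h.1 ht]
  · rw [(dead h').2.2.2, (dead (mt (h.add_iff ht).2 h')).2.2.2]

theorem Alive.Up_add (h : Alive ω z s) (ht : 0 ≤ t) :
    Up ω z (s + t) = Up ω z s / Yc ω z s * Up (sh s ω) (Zc ω z s) t := by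
  by_cases h' : Alive ω z (s + t)
  · have h2 := (h.add_iff ht).1 h'
    rw [h'.Up_eq h.1 (le_add_of_nonneg_right ht), h2.Up_eq le_rfl ht, Up_zero h.Zc_mem, Zc_im, ← mul_assoc,
      div_mul_cancel₀ _ h.yc_pos.ne']
    congr 3
    have := intervalIntegral.integral_comp_add_left (a := 0) (b := t)
      (fun u => 4 * Sc ω z u ^ 2 / ‖Zc ω z u‖ ^ 2) s
    rw [add_zero] at this
    rw [← this]
    refine intervalIntegral.integral_congr fun u hu => ?_
    rw [uIcc_of_le ht] at hu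
    simp only [h.Sc_add hu.1, (h'.mono (add_nonneg h.1 hu.1) (add_le_add_right hu.2 _)).Zc_add h.1 hu.1]
  · rw [(dead h').2.2.1, (dead (mt (h.add_iff ht).2 h')).2.2.1, mul_zero]

private theorem Sol.scl {c : ℝ} {g : ℝ → ℂ} (hc : 0 < c) (h : Sol ω z (c ^ 2 * t) g) :
    Sol (scl c ω) (z / c) t fun u => g (c ^ 2 * u) / c := by
  have h2 : 0 < c ^ 2 := by positivity
  have hm : MapsTo (fun u => c ^ 2 * u) (Icc 0 t) (Icc 0 (c ^ 2 * t)) := fun u hu =>
    ⟨mul_nonneg h2.le hu.1, mul_le_mul_of_nonneg_left hu.2 h2.le⟩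
  refine ⟨by simp [h.init], (h.cont.comp (by fun_prop) hm).div_const _, fun u hu => ?_, fun u hu => ?_⟩
  · rw [Complex.div_ofReal_im]; exact div_pos (h.pos _ (hm hu)) hc
  · have h3 := (h.ode _ ⟨mul_nonneg h2.le hu.1, mul_lt_mul_of_pos_left hu.2 h2⟩).scomp u
      ((hasDerivWithinAt_id u (Ici u)).const_mul (c ^ 2)) fun v hv => mul_le_mul_of_nonneg_left hv h2.le
    refine (h3.div_const (c : ℂ)).congr_deriv ?_
    have hc' : (c : ℂ) ≠ 0 := by exact_mod_cast hc.ne'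
    have e : g (c ^ 2 * u) / c - (R162.scl c ω u : ℝ) = (g (c ^ 2 * u) - ω (c ^ 2 * u)) / c := by
      simp [R162.scl, sub_div]
    rw [e, div_div_eq_mul_div, mul_one, Complex.real_smul]
    push_cast; field_simp

private theorem scl_scl {c : ℝ} (hc : 0 < c) : scl c⁻¹ (scl c ω) = ω := by
  ext u
  have : c ^ 2 * (c⁻¹ ^ 2 * u) = u := by field_simp
  simp only [scl, ContinuousMap.coe_mk, this]
  field_simp

theorem alive_scl {c : ℝ} (hc : 0 < c) : Alive (scl c ω) (z / c) t ↔ Alive ω z (c ^ 2 * t) := by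
  have h2 : 0 < c ^ 2 := by positivity
  refine ⟨fun h => ?_, fun h => ⟨(mul_nonneg_iff_of_pos_left h2).1 h.1, _, h.sol.scl hc⟩⟩
  have e : t = c⁻¹ ^ 2 * (c ^ 2 * t) := by field_simp
  have h3 := h.sol
  rw [e] at h3
  have h4 := h3.scl (inv_pos.2 hc)
  have hc' : (c : ℂ) ≠ 0 := by exact_mod_cast hc.ne'
  rw [scl_scl hc, show z / c / (c⁻¹ : ℝ) = z by push_cast; field_simp] at h4
  exact ⟨mul_nonneg h2.le h.1, _, h4⟩

theorem gt_scl {c : ℝ} (hc : 0 < c) : gt (scl c ω) (z / c) t = gt ω z (c ^ 2 * t) / c := by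
  by_cases h : Alive ω z (c ^ 2 * t)
  · exact (h.sol.scl hc).gt_eq (right_mem_Icc.2 ((alive_scl hc).2 h).1)
  · rw [(dead h).1, (dead (mt (alive_scl hc).1 h)).1, zero_div]

private theorem Zc_scl {c : ℝ} (hc : 0 < c) : Zc (scl c ω) (z / c) t = Zc ω z (c ^ 2 * t) / c := by
  rw [Zc, gt_scl hc, Zc]; simp [scl, sub_div]

private theorem Yc_scl {c : ℝ} (hc : 0 < c) : Yc (scl c ω) (z / c) t = Yc ω z (c ^ 2 * t) / c := by
  rw [Yc, gt_scl hc, Complex.div_ofReal_im, Yc]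

theorem Up_scl {c : ℝ} (hc : 0 < c) : Up (scl c ω) (z / c) t = Up ω z (c ^ 2 * t) / c := by
  rw [Up, Up, Yc_scl hc, div_mul_eq_mul_div]
  congr 3
  have := intervalIntegral.mul_integral_comp_mul_left (a := 0) (b := t)
    (f := fun s => (2 / Zc ω z s ^ 2).re) (c ^ 2)
  rw [mul_zero] at this
  rw [← this, ← intervalIntegral.integral_const_mul]
  refine intervalIntegral.integral_congr fun u _ => ?_
  simp only [Zc_scl hc]
  rw [← Complex.re_ofReal_mul, div_pow, div_div_eq_mul_div]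
  congr 1
  push_cast; ring

theorem Sc_scl {c : ℝ} (hc : 0 < c) : Sc (scl c ω) (z / c) t = Sc ω z (c ^ 2 * t) := by
  rw [Sc, Sc, Yc_scl hc, Zc_scl hc, norm_div, Complex.norm_real, Real.norm_of_nonneg hc.le,
    div_div_div_cancel_right₀ hc.ne']

end partC

/-! ## Row 162, block L, part D: the conformal maps -/

section partD

/-! ### two general lemmas -/

private theorem littleO_mvt {𝕜 ι : Type} [RCLike 𝕜] [NormedSpace 𝕜 ℂ] {l : Filter ι} {F F' : ι → 𝕜 → ℂ} {x y : ι → 𝕜}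
    {D : ℂ} (h : ∀ η > 0, ∀ᶠ i in l, ∃ s : Set 𝕜, Convex ℝ s ∧ x i ∈ s ∧ y i ∈ s ∧
      ∀ u ∈ s, HasDerivWithinAt (F i) (F' i u) s u ∧ ‖F' i u - D‖ ≤ η) :
    (fun i => F i (y i) - F i (x i) - (y i - x i) • D) =o[l] fun i => y i - x i := by
  refine IsLittleO.of_bound fun η hη => (h η hη).mono fun i ⟨s, hs, hx, hy, hu⟩ => ?_
  have := hs.norm_image_sub_le_of_norm_hasDerivWithin_le (f := fun u => F i u - u • D)
    (f' := fun u => F' i u - D) (fun u hu' => by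
      simpa using (hu u hu').1.fun_sub ((hasDerivWithinAt_id u s).smul_const D)) (fun u hu' => (hu u hu').2) hx hy
  refine le_of_eq_of_le (congrArg _ ?_) this
  rw [sub_smul]; ring

private theorem contOn_deriv {P : Type} [TopologicalSpace P] {F : P → ℂ → ℂ} {S : Set P} {U : Set ℂ} (hU : IsOpen U)
    (hd : ∀ p ∈ S, DifferentiableOn ℂ (F p) U) (hc : ContinuousOn (fun q : P × ℂ => F q.1 q.2) (S ×ˢ U)) :
    ContinuousOn (fun q : P × ℂ => deriv (F q.1) q.2) (S ×ˢ U) := by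
  rintro ⟨p₀, w₀⟩ ⟨hp₀, hw₀⟩
  obtain ⟨R, hR, hRU⟩ := nhds_basis_closedBall.mem_iff.1 (hU.mem_nhds hw₀)
  rw [ContinuousWithinAt, Metric.tendsto_nhds]
  intro η hη
  have hr : 0 < R / 2 := half_pos hR
  have e1 : ∀ᶠ p in 𝓝 p₀, ∀ y ∈ closedBall w₀ R, p ∈ S → ‖F p y - F p₀ y‖ ≤ η / 3 * (R / 2) := by
    refine (isCompact_closedBall w₀ R).eventually_forall_of_forall_eventually fun y hy => ?_
    have h1 : ContinuousWithinAt (fun q : P × ℂ => ‖F q.1 q.2 - F p₀ q.2‖) (S ×ˢ U) (p₀, y) :=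
      ((hc (p₀, y) ⟨hp₀, hRU hy⟩).sub (((hd p₀ hp₀).continuousOn y (hRU hy)).comp (f := Prod.snd)
        (x := (p₀, y)) continuousWithinAt_snd fun q hq => hq.2)).norm
    have h2 := eventually_nhdsWithin_iff.1 (h1.eventually (ge_mem_nhds
      (show ‖F p₀ y - F p₀ y‖ < η / 3 * (R / 2) by simp only [sub_self, norm_zero]; positivity)))
    filter_upwards [h2, (continuous_snd.tendsto (p₀, y)).eventually (hU.mem_nhds (hRU hy))] with q a b c
      using a ⟨c, b⟩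
  have e2 : ∀ᶠ w in 𝓝 w₀, ‖deriv (F p₀) w - deriv (F p₀) w₀‖ < η / 2 := by
    have := ((hd p₀ hp₀).deriv hU).continuousOn.continuousAt (hU.mem_nhds hw₀)
    simpa only [dist_eq_norm] using Metric.tendsto_nhds.1 this _ (half_pos hη)
  filter_upwards [self_mem_nhdsWithin,
    mem_nhdsWithin_of_mem_nhds ((continuous_fst.tendsto (p₀, w₀)).eventually e1),
    mem_nhdsWithin_of_mem_nhds ((continuous_snd.tendsto (p₀, w₀)).eventually e2),
    mem_nhdsWithin_of_mem_nhds ((continuous_snd.tendsto (p₀, w₀)).eventually (closedBall_mem_nhds w₀ hr))]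
    with q h0 h1 h2 h3
  have hsub : closedBall q.2 (R / 2) ⊆ closedBall w₀ R :=
    closedBall_subset_closedBall' (by linarith [mem_closedBall.1 h3])
  have hdd : DifferentiableOn ℂ (fun y => F q.1 y - F p₀ y) U := (hd _ h0.1).sub (hd _ hp₀)
  have h4 := Complex.norm_deriv_le_of_forall_mem_sphere_norm_le hr
    (hdd.diffContOnCl_ball (hsub.trans hRU)) fun y hy => h1 y (hsub (sphere_subset_closedBall hy)) h0.1
  rw [deriv_fun_sub ((hd _ h0.1).differentiableAt (hU.mem_nhds h0.2))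
    ((hd _ hp₀).differentiableAt (hU.mem_nhds h0.2)), mul_div_cancel_right₀ _ hr.ne'] at h4
  have := norm_sub_le_norm_sub_add_norm_sub (deriv (F q.1) q.2) (deriv (F p₀) q.2) (deriv (F p₀) w₀)
  rw [dist_eq_norm]
  linarith

variable {ω ω' : Path} {z ζ : ℂ} {s t T : ℝ}

private theorem isOpen_HH : IsOpen HH := isOpen_lt continuous_const Complex.continuous_im

private theorem gt_sub {w : ℂ} (hz : Alive ω z t) (hw : Alive ω w t) :
    gt ω w t - gt ω z t = (w - z) * Complex.exp (-∫ u in (0 : ℝ)..t, 2 / (Zc ω w u * Zc ω z u)) := by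
  have := lin_ode (a := fun u => 2 / (Zc ω w u * Zc ω z u)) (d := fun u => gt ω w u - gt ω z u) hz.1
    (continuousOn_const.div (hw.contOn_Zc.mul hz.contOn_Zc) fun u hu =>
      mul_ne_zero (hw.mono hu.1 hu.2).Zc_ne (hz.mono hu.1 hu.2).Zc_ne)
    (hw.sol.cont.sub hz.sol.cont) fun r hr => by
      refine ((hw.sol.ode r hr).fun_sub (hz.sol.ode r hr)).congr_deriv ?_
      have h1 := (hw.mono hr.1 hr.2.le).Zc_ne
      have h2 := (hz.mono hr.1 hr.2.le).Zc_ne
      have e : gt ω w r - gt ω z r = Zc ω w r - Zc ω z r := by simp [Zc]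
      rw [e]
      change 2 / Zc ω w r - 2 / Zc ω z r = _
      field_simp
      ring
  simpa only [gt_zero hz.mem, gt_zero hw.mem] using this

theorem Alive.hasDerivAt_gt (h : Alive ω z t) :
    HasDerivAt (fun w => gt ω w t) (Complex.exp (-∫ u in (0 : ℝ)..t, 2 / Zc ω z u ^ 2)) z := by
  have hε := half_pos h.yc_pos
  have hfl := continuous_fl abs_one_le hε (T := t + 1) (by linarith [h.1])
  have h1 := (tendsto_space ω z h.1).eventually h.eventually_fl
  have h0 := h1.self_of_nhds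
  have hc : Continuous fun w : ℂ => ∫ u in (0 : ℝ)..t,
      2 / (cl (Yc ω z t / 2) (fl 1 (Yc ω z t / 2) (t + 1) ω w u - ω u) *
        cl (Yc ω z t / 2) (fl 1 (Yc ω z t / 2) (t + 1) ω z u - ω u)) := by
    refine intervalIntegral.continuous_parametric_intervalIntegral_of_continuous' ?_ _ _
    refine continuous_const.div ((continuous_cl.comp (Continuous.sub ?_ (by fun_prop))).mul
      (continuous_cl.comp (Continuous.sub ?_ (by fun_prop)))) fun _ => mul_ne_zero (cl_ne hε) (cl_ne hε)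
    · exact hfl.comp (f := fun q : ℂ × ℝ => (ω, q.1, q.2)) (by fun_prop)
    · exact hfl.comp (f := fun q : ℂ × ℝ => (ω, z, q.2)) (by fun_prop)
  have h2 : ContinuousAt (fun w => ∫ u in (0 : ℝ)..t, 2 / (Zc ω w u * Zc ω z u)) z := by
    refine hc.continuousAt.congr (h1.mono fun w hw => intervalIntegral.integral_congr fun u hu => ?_)
    rw [uIcc_of_le h.1] at hu
    have a1 := (hw.2 u hu).2
    have a2 := (h0.2 u hu).2
    simp only at a1 a2 ⊢
    rw [a1, a2]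
  rw [hasDerivAt_iff_tendsto_slope]
  have h3 := h2.fun_neg.cexp.tendsto.mono_left (nhdsWithin_le_nhds (s := {z}ᶜ))
  simp only [← sq] at h3
  refine h3.congr' ?_
  filter_upwards [self_mem_nhdsWithin, mem_nhdsWithin_of_mem_nhds (isOpen_Dom.mem_nhds h)] with w hw hw'
  rw [slope_def_field, gt_sub h hw', mul_div_cancel_left₀ _ (sub_ne_zero.2 hw)]

theorem injOn_gt : InjOn (fun w => gt ω w t) (Dom ω t) := fun z hz w hw e => by
  have := gt_sub hw hz
  rw [sub_eq_zero.2 e] at this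
  exact sub_eq_zero.1 ((mul_eq_zero.1 this.symm).resolve_right (Complex.exp_ne_zero _))

theorem Alive.ft_gt (h : Alive ω z t) : ft ω t (gt ω z t) = z := injOn_gt.leftInvOn_invFunOn h

/-- time reversal -/
private def rev (t : ℝ) (ω : Path) : Path := ⟨fun s => ω (t - s), by fun_prop⟩

private theorem continuous_rev : Continuous fun p : Path × ℝ => rev p.2 p.1 :=
  ContinuousMap.continuous_of_continuous_uncurry _
    (show Continuous fun q : (Path × ℝ) × ℝ => q.1.1 (q.1.2 - q.2) by fun_prop)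

private theorem abs_neg_one_le : |(-1 : ℝ)| ≤ 1 := by simp

private theorem sol_back {ε : ℝ} (hε : 0 < ε) (hζ : ε ≤ ζ.im) (ht : t ∈ Icc 0 T) :
    Sol ω (fl (-1) ε T (rev t ω) ζ t) t fun s => fl (-1) ε T (rev t ω) ζ (t - s) := by
  have hT := ht.1.trans ht.2
  have h := fl_tsol (ω := rev t ω) (z := ζ) abs_neg_one_le hε hT
  have hm : ∀ {a : ℝ}, 0 ≤ a → MapsTo (fun s => t - s) (Icc a t) (Icc 0 T) := fun ha s hs =>
    ⟨sub_nonneg.2 hs.2, by linarith [hs.1, ht.2]⟩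
  have key : ∀ r ∈ Icc 0 T, ε ≤ (fl (-1) ε T (rev t ω) ζ r).im := fun r hr => by
    have := h.im_anti hε (by norm_num) le_rfl hr.1 hr.2
    rw [h.init] at this
    linarith
  refine ⟨by simp, h.cont.comp (by fun_prop) (hm le_rfl), fun s hs => hε.trans_le (key _ (hm le_rfl hs)),
    fun s hs => ?_⟩
  have hs' := hm le_rfl (Ico_subset_Icc_self hs)
  have h1 := (fl_deriv (ω := rev t ω) (z := ζ) abs_neg_one_le hε hs').scomp s
    ((hasDerivWithinAt_id s (Icc s t)).const_sub t) (hm hs.1)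
  refine (h1.mono_of_mem_nhdsWithin (Icc_mem_nhdsGE hs.2)).congr_deriv ?_
  rw [fd, cl_of_le (by simpa using key _ hs')]
  simp [rev]

private theorem ft_eq_fl {ε : ℝ} (hε : 0 < ε) (hζ : ε ≤ ζ.im) (ht : t ∈ Icc 0 T) :
    ft ω t ζ = fl (-1) ε T (rev t ω) ζ t ∧ Alive ω (ft ω t ζ) t ∧ gt ω (ft ω t ζ) t = ζ := by
  have h := sol_back (ω := ω) hε hζ ht
  have ha : Alive ω _ t := ⟨ht.1, _, h⟩
  have e := h.gt_eq (right_mem_Icc.2 ht.1)
  rw [sub_self, fl_zero abs_neg_one_le hε (ht.1.trans ht.2)] at e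
  have e2 := ha.ft_gt
  rw [e] at e2
  rw [e2]
  exact ⟨rfl, ha, e⟩

theorem alive_ft (ht : 0 ≤ t) (hζ : ζ ∈ HH) : Alive ω (ft ω t ζ) t :=
  (ft_eq_fl hζ le_rfl (right_mem_Icc.2 ht)).2.1

theorem gt_ft (ht : 0 ≤ t) (hζ : ζ ∈ HH) : gt ω (ft ω t ζ) t = ζ :=
  (ft_eq_fl hζ le_rfl (right_mem_Icc.2 ht)).2.2

theorem continuousOn_ft :
    ContinuousOn (fun p : Path × ℝ × ℂ => ft p.1 p.2.1 p.2.2) (univ ×ˢ Ici 0 ×ˢ HH) := by
  rintro ⟨ω, t, ζ⟩ hp
  have ht : 0 ≤ t := hp.2.1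
  have hζ : 0 < ζ.im := hp.2.2
  have hfl := continuous_fl abs_neg_one_le (half_pos hζ) (T := t + 1) (by linarith)
  have hc : Continuous fun p : Path × ℝ × ℂ => fl (-1) (ζ.im / 2) (t + 1) (rev p.2.1 p.1) p.2.2 p.2.1 :=
    hfl.comp (f := fun p : Path × ℝ × ℂ => (rev p.2.1 p.1, p.2.2, p.2.1))
      ((continuous_rev.comp (f := fun p : Path × ℝ × ℂ => (p.1, p.2.1)) (by fun_prop)).prodMk (by fun_prop))
  refine hc.continuousWithinAt.congr_of_eventuallyEq_of_mem ?_ hp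
  have c1 : Continuous fun p : Path × ℝ × ℂ => p.2.1 := by fun_prop
  have c2 : Continuous fun p : Path × ℝ × ℂ => p.2.2.im := by fun_prop
  filter_upwards [self_mem_nhdsWithin,
    mem_nhdsWithin_of_mem_nhds ((c1.tendsto (ω, t, ζ)).eventually (ge_mem_nhds (lt_add_one t))),
    mem_nhdsWithin_of_mem_nhds ((c2.tendsto (ω, t, ζ)).eventually (le_mem_nhds (half_lt_self hζ)))]
    with p h1 h2 h3 using (ft_eq_fl (half_pos hζ) h3 ⟨h1.2.1, h2⟩).1

private theorem hasDerivAt_ft (ht : 0 ≤ t) (hζ : ζ ∈ HH) :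
    HasDerivAt (ft ω t) (Complex.exp (∫ u in (0 : ℝ)..t, 2 / Zc ω (ft ω t ζ) u ^ 2)) ζ := by
  have hc : ContinuousOn (ft ω t) HH :=
    continuousOn_ft.comp (f := fun w => (ω, t, w)) (by fun_prop) fun w hw => ⟨trivial, ht, hw⟩
  have := HasDerivAt.of_local_left_inverse (hc.continuousAt (isOpen_HH.mem_nhds hζ))
    (alive_ft ht hζ).hasDerivAt_gt (Complex.exp_ne_zero _)
    (mem_of_superset (isOpen_HH.mem_nhds hζ) fun w hw => gt_ft ht hw)
  rwa [Complex.exp_neg, inv_inv] at this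

theorem differentiableOn_ft (ht : 0 ≤ t) : DifferentiableOn ℂ (ft ω t) HH := fun _ hζ =>
  (hasDerivAt_ft ht hζ).differentiableAt.differentiableWithinAt

theorem injOn_ft (ht : 0 ≤ t) : InjOn (ft ω t) HH := fun a ha b hb e => by
  rw [← gt_ft (ω := ω) ht ha, e, gt_ft ht hb]

theorem image_ft (ht : 0 ≤ t) : ft ω t '' HH = Dom ω t :=
  Subset.antisymm (image_subset_iff.2 fun _ h => alive_ft ht h) fun z (hz : Alive ω z t) =>
    ⟨_, hz.gt_mem, hz.ft_gt⟩

theorem Up_ft (ht : 0 ≤ t) (hζ : ζ ∈ HH) : Up ω (ft ω t ζ) t = ζ.im * ‖deriv (ft ω t) ζ‖ := by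
  rw [(alive_ft ht hζ).Up_eq_re, (hasDerivAt_ft ht hζ).deriv, Complex.norm_exp, Yc, gt_ft ht hζ]

theorem norm_ft_sub (ht : 0 ≤ t) (hζ : ζ ∈ HH) : ‖ft ω t ζ - ζ‖ ≤ 2 * t / ζ.im := by
  rw [(ft_eq_fl hζ le_rfl (right_mem_Icc.2 ht)).1, ← div_mul_eq_mul_div]
  exact (fl_tsol abs_neg_one_le hζ ht).norm_sub abs_neg_one_le hζ t (right_mem_Icc.2 ht)

theorem norm_deriv_ft (ht : 0 ≤ t) (hζ : ζ ∈ HH) : ‖deriv (ft ω t) ζ‖ ≤ √(1 + 4 * t / ζ.im ^ 2) := by
  have hy : 0 < ζ.im := hζ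
  have ha := alive_ft (ω := ω) ht hζ
  have h1 := Up_anti (ω := ω) (z := ft ω t ζ) le_rfl ht
  have h2 := Yc_sq_ge (ω := ω) (z := ft ω t ζ) le_rfl ht
  rw [Up_ft ht hζ, Up_zero ha.mem] at h1
  rw [Yc_zero ha.mem, Yc, gt_ft ht hζ] at h2
  refine Real.le_sqrt_of_sq_le ?_
  have h3 := pow_le_pow_left₀ (by positivity) h1 2
  rw [one_add_div (by positivity), le_div_iff₀ (by positivity)]
  nlinarith

theorem norm_deriv2_ft (ht : 0 ≤ t) (hζ : ζ ∈ HH) :
    ‖deriv (deriv (ft ω t)) ζ‖ ≤ 2 * √(1 + 16 * t / ζ.im ^ 2) / ζ.im := by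
  have hy : 0 < ζ.im := hζ
  have key : ∀ w ∈ closedBall ζ (ζ.im / 2), ζ.im / 2 ≤ w.im := fun w hw => by
    have h1 := (Complex.abs_im_le_norm (w - ζ)).trans (mem_closedBall_iff_norm.1 hw)
    rw [Complex.sub_im, abs_le] at h1
    linarith [h1.1]
  have := Complex.norm_deriv_le_of_forall_mem_sphere_norm_le (C := √(1 + 16 * t / ζ.im ^ 2)) (half_pos hy)
    (((differentiableOn_ft (ω := ω) ht).deriv isOpen_HH).diffContOnCl_ball fun w hw =>
      (half_pos hy).trans_le (key w hw)) fun w hw => by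
      have h1 := key w (sphere_subset_closedBall hw)
      refine (norm_deriv_ft ht ((half_pos hy).trans_le h1)).trans (Real.sqrt_le_sqrt (add_le_add_right ?_ _))
      calc 4 * t / w.im ^ 2 ≤ 4 * t / (ζ.im / 2) ^ 2 := by gcongr
        _ = _ := by ring
  refine this.trans_eq (by ring)

private theorem assoc_contOn {F : Path × ℝ → ℂ → ℂ} :
    ContinuousOn (fun q : (Path × ℝ) × ℂ => F q.1 q.2) ((univ ×ˢ Ici 0) ×ˢ HH) ↔
      ContinuousOn (fun p : Path × ℝ × ℂ => F (p.1, p.2.1) p.2.2) (univ ×ˢ Ici 0 ×ˢ HH) :=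
  ⟨fun h => h.comp (f := fun p : Path × ℝ × ℂ => ((p.1, p.2.1), p.2.2)) (by fun_prop) fun _ hp =>
      ⟨⟨trivial, hp.2.1⟩, hp.2.2⟩,
    fun h => h.comp (f := fun q : (Path × ℝ) × ℂ => (q.1.1, q.1.2, q.2)) (by fun_prop) fun _ hp =>
      ⟨trivial, hp.1.2, hp.2⟩⟩

theorem continuousOn_deriv_ft :
    ContinuousOn (fun p : Path × ℝ × ℂ => deriv (ft p.1 p.2.1) p.2.2) (univ ×ˢ Ici 0 ×ˢ HH) :=
  (assoc_contOn (F := fun p => deriv (ft p.1 p.2))).1 (contOn_deriv isOpen_HH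
    (fun _ hp => differentiableOn_ft hp.2) ((assoc_contOn (F := fun p => ft p.1 p.2)).2 continuousOn_ft))

theorem continuousOn_deriv2_ft :
    ContinuousOn (fun p : Path × ℝ × ℂ => deriv (deriv (ft p.1 p.2.1)) p.2.2) (univ ×ˢ Ici 0 ×ˢ HH) :=
  (assoc_contOn (F := fun p => deriv (deriv (ft p.1 p.2)))).1 (contOn_deriv isOpen_HH
    (fun _ hp => (differentiableOn_ft hp.2).deriv isOpen_HH)
    ((assoc_contOn (F := fun p => deriv (ft p.1 p.2))).2 continuousOn_deriv_ft))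

theorem deriv_time_ft (ht : 0 ≤ t) (hζ : ζ ∈ HH) :
    HasDerivWithinAt (fun r => ft ω r ζ) (-2 * deriv (ft ω t) ζ / (ζ - ω t)) (Ici 0) t := by
  have ha := alive_ft (ω := ω) ht hζ
  have hz : Tendsto (fun r => ft ω r ζ) (𝓝[Ici 0] t) (𝓝 (ft ω t ζ)) :=
    continuousOn_ft.comp (f := fun r => (ω, r, ζ)) (by fun_prop) (fun r hr => ⟨trivial, hr, hζ⟩) t ht
  have hp : Tendsto (fun q : ℂ × ℝ => (ω, q.1, q.2)) (𝓝 (ft ω t ζ) ×ˢ 𝓝[Ici 0] t)
      (𝓝[univ ×ˢ univ ×ˢ Ici 0] (ω, ft ω t ζ, t)) := by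
    refine tendsto_nhdsWithin_iff.2 ⟨tendsto_const_nhds.prodMk_nhds (tendsto_fst.prodMk_nhds
      (tendsto_snd.mono_right nhdsWithin_le_nhds)), ?_⟩
    exact (tendsto_snd.eventually eventually_mem_nhdsWithin).mono fun _ h => ⟨trivial, trivial, h⟩
  have hZ : Zc ω (ft ω t ζ) t = ζ - ω t := by rw [Zc, gt_ft ht hζ]
  have h1 := littleO_mvt (l := 𝓝[Ici 0] t) (F := fun r => gt ω (ft ω r ζ))
    (F' := fun r u => 2 / Zc ω (ft ω r ζ) u) (x := fun _ => t) (y := fun r => r) (D := 2 / (ζ - ω t))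
    fun η hη => by
      have c1 := ((continuousWithinAt_const (b := (2 : ℂ))).div ha.cont_Zc ha.Zc_ne).sub
        (continuousWithinAt_const (b := 2 / (ζ - ω t))) |>.norm
      have c2 := c1.eventually (ge_mem_nhds (a := η) (by simpa [hZ] using hη))
      obtain ⟨pa, h1, pb, h2, h3⟩ := eventually_prod_iff.1 (hp.eventually (ha.eventually_alive.and c2))
      obtain ⟨δ, hδ, h4⟩ := Metric.mem_nhdsWithin_iff.1 h2
      filter_upwards [hz.eventually h1, inter_mem (mem_nhdsWithin_of_mem_nhds (ball_mem_nhds t hδ))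
        self_mem_nhdsWithin] with r a b
      exact ⟨_, (convex_ball t δ).inter (convex_Ici 0), ⟨mem_ball_self hδ, ht⟩, b, fun u hu =>
        ⟨(h3 a (h4 hu)).1.deriv_gt.mono inter_subset_right, (h3 a (h4 hu)).2⟩⟩
  have h2 : HasDerivWithinAt (fun r => gt ω (ft ω r ζ) t) (-(2 / (ζ - ω t))) (Ici 0) t := by
    rw [hasDerivWithinAt_iff_isLittleO]
    refine h1.neg_left.congr' (eventually_mem_nhdsWithin.mono fun r hr => ?_) EventuallyEq.rfl
    simp only [gt_ft hr hζ, gt_ft ht hζ, smul_neg]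
    ring
  have h3 : HasDerivAt (ft ω t) (deriv (ft ω t) ζ) (gt ω (ft ω t ζ) t) := by
    rw [gt_ft ht hζ]; exact (hasDerivAt_ft ht hζ).differentiableAt.hasDerivAt
  have h4 := (h3.hasFDerivAt.restrictScalars ℝ).comp_hasDerivWithinAt (f := fun r => gt ω (ft ω r ζ) t) t h2
  refine (h4.congr_of_eventuallyEq_of_mem ?_ ht).congr_deriv ?_
  · filter_upwards [hz.eventually (isOpen_Dom.mem_nhds ha)] with r hr using (Alive.ft_gt hr).symm
  · simp; ring

/-- change of variables `z = ft ζ` -/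
theorem lintegral_Dom (ht : 0 ≤ t) (F : ℂ → ℝ≥0∞) :
    ∫⁻ z in Dom ω t, F z = ∫⁻ ζ in HH, ENNReal.ofReal (‖deriv (ft ω t) ζ‖ ^ 2) * F (ft ω t ζ) := by
  rw [← image_ft ht, lintegral_image_eq_lintegral_abs_det_fderiv_mul volume isOpen_HH.measurableSet
    (f' := fun ζ => ContinuousLinearMap.mul ℝ ℂ (deriv (ft ω t) ζ)) (fun ζ hζ => ?_) (injOn_ft ht)]
  · refine lintegral_congr fun ζ => ?_
    have : (ContinuousLinearMap.mul ℝ ℂ (deriv (ft ω t) ζ)).det = ‖deriv (ft ω t) ζ‖ ^ 2 := by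
      rw [Complex.sq_norm, ← Algebra.norm_complex_apply, Algebra.norm_apply]
      rfl
    rw [this, abs_of_nonneg (sq_nonneg _)]
  · refine ((hasDerivAt_ft ht hζ).differentiableAt.hasDerivAt.hasFDerivAt.restrictScalars
      ℝ).hasFDerivWithinAt.congr_fderiv ?_
    ext w
    simp [mul_comm]

end partD

/-! ## Row 162, block L, part E: the basic jets -/

section partE

private theorem joint_deriv {F : ℝ → ℂ → ℂ} {S : Set ℝ} {U : Set ℂ} {t : ℝ} {w : ℝ → ℂ} {a b : ℂ} (hU : IsOpen U)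
    (hw0 : w t ∈ U) (hd : ∀ r ∈ S, DifferentiableOn ℂ (F r) U)
    (hc : Tendsto (fun q : ℝ × ℂ => deriv (F q.1) q.2) (𝓝[S] t ×ˢ 𝓝 (w t)) (𝓝 (deriv (F t) (w t))))
    (ha : HasDerivWithinAt (fun r => F r (w t)) a S t) (hb : HasDerivWithinAt w b S t) :
    HasDerivWithinAt (fun r => F r (w r)) (deriv (F t) (w t) * b + a) S t := by
  have h1 := littleO_mvt (l := 𝓝[S] t) (F := F) (F' := fun r u => deriv (F r) u) (x := fun _ => w t) (y := w)
    (D := deriv (F t) (w t)) fun η hη => by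
      have c1 := Metric.tendsto_nhds.1 hc η hη
      obtain ⟨pa, h1, pb, h2, h3⟩ := eventually_prod_iff.1 c1
      obtain ⟨δ, hδ, h4⟩ := Metric.mem_nhds_iff.1 (h2.and (hU.mem_nhds hw0))
      filter_upwards [h1, self_mem_nhdsWithin, hb.continuousWithinAt.eventually (ball_mem_nhds _ hδ)] with r a b c
      exact ⟨_, convex_ball (w t) δ, mem_ball_self hδ, c, fun u hu =>
        ⟨((hd r b).differentiableAt (hU.mem_nhds (h4 hu).2)).hasDerivAt.hasDerivWithinAt,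
          (dist_eq_norm _ _).symm.trans_le (h3 a (h4 hu).1).le⟩⟩
  have h2 := h1.trans_isBigO hb.hasFDerivWithinAt.isBigO_sub
  have h3 : HasDerivWithinAt (fun r => F r (w r) - F r (w t) - (w r - w t) • deriv (F t) (w t)) 0 S t := by
    rw [hasDerivWithinAt_iff_isLittleO]
    simpa using h2
  have h4 := (h3.fun_add ((hb.sub_const (w t)).mul_const (deriv (F t) (w t)))).fun_add ha
  refine (h4.congr (fun r _ => ?_) ?_).congr_deriv (by ring) <;> simp

variable {ω ω' : Path} {z ζ : ℂ} {s t T : ℝ}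

private theorem pull2 {E : Type} [TopologicalSpace E] {F : Path × ℂ × ℝ → E}
    (h : ContinuousWithinAt F (univ ×ˢ univ ×ˢ Ici 0) (ω, z, t)) :
    ContinuousWithinAt (fun p : ℝ × Path => F (p.2, z, p.1)) (Ici 0 ×ˢ univ) (t, ω) :=
  h.comp (f := fun p : ℝ × Path => (p.2, z, p.1)) (x := (t, ω)) (Continuous.continuousWithinAt (by fun_prop))
    fun _ hp => ⟨trivial, trivial, hp.1⟩

private theorem pull3 {E : Type} [TopologicalSpace E] {F : Path × ℂ × ℝ → E} {x : ℝ}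
    (h : ContinuousWithinAt F (univ ×ˢ univ ×ˢ Ici 0) (ω, z, t)) :
    ContinuousWithinAt (fun p : ℝ × ℝ × Path => F (p.2.2, z, p.1)) (Ici 0 ×ˢ univ) (t, x, ω) :=
  h.comp (f := fun p : ℝ × ℝ × Path => (p.2.2, z, p.1)) (x := (t, x, ω))
    (Continuous.continuousWithinAt (by fun_prop)) fun _ hp => ⟨trivial, trivial, hp.1⟩

/-! ### L6: the basic jets -/

theorem Alive.at_jG {x : ℝ} (h : Alive ω z t) : (jG z).At t x ω :=
  Jet.at_fv (pull2 h.cont_gt) (pull2 (continuousWithinAt_const.div h.cont_Zc h.Zc_ne))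
    (h.deriv_gt.mono (Ici_subset_Ici.2 h.1))

theorem Alive.at_jZ {x : ℝ} (h : Alive ω z t) : (jZ z).At t x ω where
  cf := (pull3 h.cont_gt).sub (Continuous.continuousWithinAt (by fun_prop))
  cs := pull3 (continuousWithinAt_const.div h.cont_Zc h.Zc_ne)
  cx := continuousWithinAt_const
  cxx := continuousWithinAt_const
  ds := (h.deriv_gt.mono (Ici_subset_Ici.2 h.1)).sub_const _
  dx := by simpa [jZ] using (hasDerivAt_id x).ofReal_comp.const_sub (gt ω z t)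
  dxx := hasDerivAt_const _ _

theorem Alive.at_jY {x : ℝ} (h : Alive ω z t) : (jY z).At t x ω :=
  Jet.at_fv (pull2 (continuousOn_Yc _ h.pmem)) (pull2 ((continuousWithinAt_const.mul
    (continuousOn_Yc _ h.pmem)).div (h.cont_Zc.norm.pow 2) (pow_ne_zero 2 h.norm_pos.ne')))
    (h.deriv_Yc.mono (Ici_subset_Ici.2 h.1))

theorem Alive.at_jU {x : ℝ} (h : Alive ω z t) : (jU z).At t x ω :=
  Jet.at_fv (pull2 h.cont_Up) (pull2 (((continuousWithinAt_const.mul h.cont_Up).mul (h.cont_Sc.pow 2)).div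
    (h.cont_Zc.norm.pow 2) (pow_ne_zero 2 h.norm_pos.ne'))) (h.deriv_Up.mono (Ici_subset_Ici.2 h.1))

private theorem sub_ne_of_mem (h : ζ ∈ HH) (c : ℝ) : ζ - c ≠ 0 := fun e => by
  have := congrArg Complex.im e
  simp only [Complex.sub_im, Complex.ofReal_im, sub_zero, Complex.zero_im] at this
  exact ne_of_gt h this

theorem Jet.At.ft {x : ℝ} {J : Jet ℂ} (ht : 0 ≤ t) (hJ : J.At t x ω) (h : J.f t x ω ∈ HH) : J.ft.At t x ω := by
  have pull : ∀ {F : Path × ℝ × ℂ → ℂ}, ContinuousOn F (univ ×ˢ Ici 0 ×ˢ HH) →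
      ContinuousWithinAt (fun p : ℝ × ℝ × Path => F (p.2.2, p.1, J.f p.1 p.2.1 p.2.2)) (Ici 0 ×ˢ univ)
        (t, x, ω) := fun {F} hF => by
    refine (hF (ω, t, J.f t x ω) ⟨trivial, ht, h⟩).tendsto.comp (tendsto_nhdsWithin_iff.2 ⟨?_, ?_⟩)
    · exact ((continuous_snd.comp continuous_snd).continuousWithinAt.prodMk
        (continuousWithinAt_fst.prodMk hJ.cf)).tendsto
    · filter_upwards [self_mem_nhdsWithin, hJ.cf.eventually (isOpen_HH.mem_nhds h)] with p a b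
        using ⟨trivial, a.1, b⟩
  have c0 := pull continuousOn_ft
  have c1 := pull continuousOn_deriv_ft
  have c2 := pull continuousOn_deriv2_ft
  have d1 := (hasDerivAt_ft (ω := ω) ht h).differentiableAt.hasDerivAt
  have d2 := (((differentiableOn_ft (ω := ω) ht).deriv isOpen_HH).differentiableAt
    (isOpen_HH.mem_nhds h)).hasDerivAt
  refine ⟨c0, c1.mul (hJ.cs.sub (continuousWithinAt_const.div (hJ.cf.sub
    (Continuous.continuousWithinAt (by fun_prop))) (sub_ne_of_mem h _))), c1.mul hJ.cx,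
    ((c2.mul hJ.cx).mul hJ.cx).add (c1.mul hJ.cxx), ?_, ?_, ?_⟩
  · refine (joint_deriv (F := R162.ft ω) (w := fun r => J.f r x ω) isOpen_HH h
      (fun r hr => differentiableOn_ft (ht.trans hr)) ?_
      ((deriv_time_ft ht h).mono (Ici_subset_Ici.2 ht)) hJ.ds).congr_deriv (by simp only [Jet.ft]; ring)
    refine (continuousOn_deriv_ft (ω, t, J.f t x ω) ⟨trivial, ht, h⟩).tendsto.comp
      (f := fun q : ℝ × ℂ => (ω, q.1, q.2)) (tendsto_nhdsWithin_iff.2 ⟨?_, ?_⟩)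
    · exact tendsto_const_nhds.prodMk_nhds ((tendsto_fst.mono_right nhdsWithin_le_nhds).prodMk_nhds tendsto_snd)
    · filter_upwards [tendsto_fst.eventually eventually_mem_nhdsWithin,
        tendsto_snd.eventually (isOpen_HH.mem_nhds h)] with q a b using ⟨trivial, ht.trans a, b⟩
  · refine ((d1.hasFDerivAt.restrictScalars ℝ).comp_hasDerivAt (f := fun y => J.f t y ω) x hJ.dx).congr_deriv ?_
    simp [Jet.ft, mul_comm]
  · have := ((d2.hasFDerivAt.restrictScalars ℝ).comp_hasDerivAt (f := fun y => J.f t y ω) x hJ.dx).fun_mul hJ.dxx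
    refine this.congr_deriv ?_
    simp [Jet.ft, mul_comm]

/-- a cut-off in `Y` vanishes near every point where `Y < η` (in particular near dead points) -/
theorem eventually_Yc_lt {x η : ℝ} (ht : 0 ≤ t) (h : Yc ω z t < η) :
    ∀ᶠ p in nb t x ω, Yc p.2.2 z p.1 < η :=
  (pull3 (continuousOn_Yc (ω, z, t) ⟨trivial, trivial, ht⟩)).eventually (gt_mem_nhds h)

end partE

/-! ## Row 162, block L, part F: measurability, hitting times, the density -/

section partF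

variable {ω ω' : Path} {z ζ : ℂ} {s t T : ℝ}

/-! ### measurability -/

private theorem measurableSet_pos : MeasurableSet (univ ×ˢ univ ×ˢ Ici 0 : Set (Path × ℂ × ℝ)) :=
  MeasurableSet.univ.prod (MeasurableSet.univ.prod measurableSet_Ici)

private theorem measurable_Yc : Measurable fun p : Path × ℂ × ℝ => Yc p.1 p.2.1 p.2.2 := by
  classical
  convert continuousOn_Yc.measurable_piecewise (continuousOn_const (c := (0 : ℝ))) measurableSet_pos using 2 with p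
  by_cases hp : p ∈ (univ ×ˢ univ ×ˢ Ici 0 : Set (Path × ℂ × ℝ))
  · rw [piecewise_eq_of_mem _ _ _ hp]
  · rw [piecewise_eq_of_notMem _ _ _ hp]
    exact (dead fun h => hp h.pmem).2.1

theorem measurableSet_alive : MeasurableSet {p : Path × ℂ × ℝ | Alive p.1 p.2.1 p.2.2} := by
  simp only [alive_iff]
  exact measurableSet_lt measurable_const measurable_Yc

private theorem measurable_of_alive {E : Type} [TopologicalSpace E] [MeasurableSpace E] [BorelSpace E] [Zero E]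
    {F : Path × ℂ × ℝ → E}
    (h : ∀ p, Alive p.1 p.2.1 p.2.2 → ContinuousWithinAt F (univ ×ˢ univ ×ˢ Ici 0) p)
    (h0 : ∀ p, ¬Alive p.1 p.2.1 p.2.2 → F p = 0) : Measurable F := by
  classical
  have hc : ContinuousOn F {p : Path × ℂ × ℝ | Alive p.1 p.2.1 p.2.2} := fun p hp =>
    (h p hp).mono fun q hq => Alive.pmem hq
  convert hc.measurable_piecewise (continuousOn_const (c := (0 : E))) measurableSet_alive using 1
  ext p
  by_cases hp : p ∈ {p : Path × ℂ × ℝ | Alive p.1 p.2.1 p.2.2}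
  · rw [piecewise_eq_of_mem _ _ _ hp]
  · rw [piecewise_eq_of_notMem _ _ _ hp]
    exact h0 p hp

theorem measurable_gt : Measurable fun p : Path × ℂ × ℝ => gt p.1 p.2.1 p.2.2 :=
  measurable_of_alive (fun _ h => h.cont_gt) fun _ h => (dead h).1

theorem measurable_Up : Measurable fun p : Path × ℂ × ℝ => Up p.1 p.2.1 p.2.2 :=
  measurable_of_alive (fun _ h => h.cont_Up) fun _ h => (dead h).2.2.1

theorem measurable_Sc : Measurable fun p : Path × ℂ × ℝ => Sc p.1 p.2.1 p.2.2 :=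
  measurable_of_alive (fun _ h => h.cont_Sc) fun _ h => (dead h).2.2.2

private theorem measurable_Zc : Measurable fun p : Path × ℂ × ℝ => Zc p.1 p.2.1 p.2.2 :=
  measurable_gt.sub (Continuous.measurable (by fun_prop))

/-! ### L8: the hitting times `hitU` -/

private theorem bdd_hitU {x : ℂ} {ρ : ℝ} :
    BddBelow ({t | t ∈ Icc 0 T ∧ Alive ω x t ∧ Up ω x t ≤ ρ} ∪ {T}) :=
  BddBelow.union ⟨0, fun _ h => h.1.1⟩ bddBelow_singleton

private theorem hitU_le_T {x : ℂ} {ρ : ℝ} : hitU x ρ T ω ≤ T := csInf_le bdd_hitU (Or.inr rfl)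

private theorem hitU_le_of {x : ℂ} {ρ : ℝ} (ht : t ∈ Icc 0 T) (h : Alive ω x t) (h' : Up ω x t ≤ ρ) :
    hitU x ρ T ω ≤ t := csInf_le bdd_hitU (Or.inl ⟨ht, h, h'⟩)

private theorem le_hitU {x : ℂ} {ρ a : ℝ} (hT : a ≤ T)
    (h : ∀ t ∈ Icc 0 T, Alive ω x t → Up ω x t ≤ ρ → a ≤ t) : a ≤ hitU x ρ T ω := by
  refine le_csInf ⟨T, Or.inr rfl⟩ ?_
  rintro r (hr | rfl)
  exacts [h r hr.1 hr.2.1 hr.2.2, hT]

theorem hitU_mem {x : ℂ} {ρ : ℝ} (hT : 0 ≤ T) : hitU x ρ T ω ∈ Icc 0 T :=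
  ⟨le_hitU hT fun _ h _ _ => h.1, hitU_le_T⟩

theorem lt_Up_of_lt_hitU {x : ℂ} {ρ : ℝ} (ht : t < hitU x ρ T ω) (h : Alive ω x t) : ρ < Up ω x t :=
  lt_of_not_ge fun h' => ht.not_ge (hitU_le_of ⟨h.1, ht.le.trans hitU_le_T⟩ h h')

private theorem hitU_spec' {x : ℂ} {ρ : ℝ} (h : ω ∈ Hit x ρ T) :
    Alive ω x (hitU x ρ T ω) ∧ Up ω x (hitU x ρ T ω) ≤ ρ := by
  obtain ⟨t, ht, ha, hu⟩ := h
  have hK : IsClosed (Icc 0 t ∩ Up ω x ⁻¹' Iic ρ) :=
    ha.contOn_Up.preimage_isClosed_of_isClosed isClosed_Icc isClosed_Iic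
  have hne : (Icc 0 t ∩ Up ω x ⁻¹' Iic ρ).Nonempty := ⟨t, right_mem_Icc.2 ht.1, hu⟩
  have hb : BddBelow (Icc 0 t ∩ Up ω x ⁻¹' Iic ρ) := ⟨0, fun _ h => h.1.1⟩
  have hm := hK.csInf_mem hne hb
  have e : hitU x ρ T ω = sInf (Icc 0 t ∩ Up ω x ⁻¹' Iic ρ) := by
    refine (hitU_le_of ⟨hm.1.1, hm.1.2.trans ht.2⟩ (ha.mono hm.1.1 hm.1.2) hm.2).antisymm
      (le_hitU (hm.1.2.trans ht.2) fun r hr _ h2 => ?_)
    rcases le_total r t with h3 | h3
    exacts [csInf_le hb ⟨⟨hr.1, h3⟩, h2⟩, hm.1.2.trans h3]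
  rw [e]
  exact ⟨ha.mono hm.1.1 hm.1.2, hm.2⟩

theorem hitU_spec {x : ℂ} {ρ : ℝ} (h : ω ∈ Hit x ρ T) :
    Alive ω x (hitU x ρ T ω) ∧ Up ω x (hitU x ρ T ω) = min ρ x.im := by
  obtain ⟨ha, hu⟩ := hitU_spec' h
  refine ⟨ha, ?_⟩
  rcases ha.1.eq_or_lt with e | h0
  · rw [← e, Up_zero ha.mem] at hu ⊢
    exact (min_eq_right hu).symm
  · have h1 := lt_Up_of_lt_hitU h0 (alive_zero.2 ha.mem)
    rw [Up_zero ha.mem] at h1
    rw [min_eq_left h1.le]
    refine hu.antisymm ?_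
    have hc : ContinuousWithinAt (Up ω x) (Ico 0 (hitU x ρ T ω)) (hitU x ρ T ω) :=
      (ha.contOn_Up _ (right_mem_Icc.2 ha.1)).mono Ico_subset_Icc_self
    have : (𝓝[Ico 0 (hitU x ρ T ω)] (hitU x ρ T ω)).NeBot := right_nhdsWithin_Ico_neBot h0
    exact ge_of_tendsto hc (eventually_mem_nhdsWithin.mono fun r hr =>
      (lt_Up_of_lt_hitU hr.2 (ha.mono hr.1 hr.2.le)).le)

theorem hitU_of_not_hit {x : ℂ} {ρ : ℝ} (h : ω ∉ Hit x ρ T) : hitU x ρ T ω = T :=
  hitU_le_T.antisymm (le_hitU le_rfl fun r hr h1 h2 => (h ⟨r, hr, h1, h2⟩).elim)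

theorem hit_of_agr {x : ℂ} {ρ : ℝ} (h : Agr (hitU x ρ T ω) ω ω') : ω' ∈ Hit x ρ T ↔ ω ∈ Hit x ρ T := by
  refine ⟨fun h' => by_contra fun h0 => ?_, fun h' => ?_⟩
  · rw [hitU_of_not_hit h0] at h
    obtain ⟨t, ht, ha, hu⟩ := h'
    exact h0 ⟨t, ht, (h.of_le ht.2).alive.1 ha, (h.of_le ht.2).Up ▸ hu⟩
  · obtain ⟨ha, hu⟩ := hitU_spec' h'
    exact ⟨_, ⟨ha.1, hitU_le_T⟩, h.alive.2 ha, h.Up.symm ▸ hu⟩

private theorem hit_iff {x : ℂ} {ρ : ℝ} : ω ∈ Hit x ρ T ↔ (Alive ω x T ∧ Up ω x T ≤ ρ) ∨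
    ∃ q : ℚ, (q : ℝ) ≤ T ∧ Alive ω x q ∧ Up ω x q ≤ ρ := by
  refine ⟨fun ⟨t, ht, ha, hu⟩ => ?_, ?_⟩
  · rcases ht.2.eq_or_lt with rfl | h1
    · exact Or.inl ⟨ha, hu⟩
    · obtain ⟨T', h2, h3⟩ := ha.exists_gt
      obtain ⟨q, h4, h5⟩ := exists_rat_btwn (lt_min h1 h2)
      exact Or.inr ⟨q, (h5.trans_le (min_le_left _ _)).le,
        h3.mono (ht.1.trans h4.le) (h5.trans_le (min_le_right _ _)).le, (Up_anti ht.1 h4.le).trans hu⟩
  · rintro (⟨ha, hu⟩ | ⟨q, hq, ha, hu⟩)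
    exacts [⟨T, right_mem_Icc.2 ha.1, ha, hu⟩, ⟨q, ⟨ha.1, hq⟩, ha, hu⟩]

theorem measurableSet_hit : MeasurableSet {p : Path × ℂ × ℝ × ℝ | p.1 ∈ Hit p.2.1 p.2.2.1 p.2.2.2} := by
  have key : ∀ {f : Path × ℂ × ℝ × ℝ → ℝ}, Measurable f →
      MeasurableSet {p : Path × ℂ × ℝ × ℝ | Alive p.1 p.2.1 (f p) ∧ Up p.1 p.2.1 (f p) ≤ p.2.2.1} :=
    fun {f} hf => by
      have hm : Measurable fun p : Path × ℂ × ℝ × ℝ => (p.1, p.2.1, f p) := by fun_prop
      exact (hm measurableSet_alive).inter (measurableSet_le (measurable_Up.comp hm) (by fun_prop))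
  simp only [hit_iff, ofPred_or, ofPred_exists]
  refine (key (by fun_prop)).union (MeasurableSet.iUnion fun q => ?_)
  have h1 : MeasurableSet {p : Path × ℂ × ℝ × ℝ | (q : ℝ) ≤ p.2.2.2} :=
    measurableSet_le measurable_const (by fun_prop)
  exact h1.inter (key (f := fun _ => (q : ℝ)) measurable_const)

theorem stop_hitU (x : ℂ) (ρ : ℝ) (hT : 0 ≤ T) : Stop (hitU x ρ T) := by
  refine ⟨measurable_of_Iic fun a => ?_, fun _ => (hitU_mem hT).1, fun ω ω' h => ?_⟩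
  · rcases le_or_gt T a with h | h
    · have : hitU x ρ T ⁻¹' Iic a = univ := eq_univ_of_forall fun ω => hitU_le_T.trans h
      rw [this]; exact MeasurableSet.univ
    · have : hitU x ρ T ⁻¹' Iic a = (fun ω => (ω, x, ρ, a)) ⁻¹'
          {p : Path × ℂ × ℝ × ℝ | p.1 ∈ Hit p.2.1 p.2.2.1 p.2.2.2} := by
        ext ω
        refine ⟨fun h1 => ?_, fun ⟨t, ht, ha, hu⟩ => (hitU_le_of ⟨ht.1, ht.2.trans h.le⟩ ha hu).trans ht.2⟩
        have h2 : ω ∈ Hit x ρ T := by_contra fun h2 => (h.trans_eq (hitU_of_not_hit h2).symm).not_ge h1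
        obtain ⟨ha, hu⟩ := hitU_spec' h2
        exact ⟨_, ⟨ha.1, h1⟩, ha, hu⟩
      rw [this]
      exact measurableSet_hit.preimage (by fun_prop)
  · by_cases h0 : ω ∈ Hit x ρ T
    · obtain ⟨ha, hu⟩ := hitU_spec' h0
      refine (hitU_le_of ⟨ha.1, hitU_le_T⟩ (h.alive.2 ha) (h.Up.symm ▸ hu)).antisymm
        (le_hitU hitU_le_T fun r hr h1 h2 => le_of_not_gt fun h3 => ?_)
      have h4 := h.of_le h3.le
      exact (lt_Up_of_lt_hitU h3 (h4.alive.1 h1)).not_ge (h4.Up ▸ h2)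
    · rw [hitU_of_not_hit h0, hitU_of_not_hit (mt (hit_of_agr h).1 h0)]

/-! ### L9: the density `dens` -/

variable {κ s₀ y : ℝ}

theorem measurable_dens :
    Measurable fun p : ℝ × Path × ℂ × ℝ => dens κ s₀ p.1 p.2.1 p.2.2.1 p.2.2.2 := by
  have hU : Measurable fun p : ℝ × Path × ℂ × ℝ => Up p.2.1 p.2.2.1 p.2.2.2 := measurable_Up.comp measurable_snd
  have hS : Measurable fun p : ℝ × Path × ℂ × ℝ => Sc p.2.1 p.2.2.1 p.2.2.2 := measurable_Sc.comp measurable_snd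
  have hZ : Measurable fun p : ℝ × Path × ℂ × ℝ => Zc p.2.1 p.2.2.1 p.2.2.2 := measurable_Zc.comp measurable_snd
  unfold dens Gr Vg
  exact ((((measurable_const.mul ((measurable_deriv _).comp (hU.div measurable_fst).log)).mul
    ((hU.pow_const _).mul (hS.pow_const _))).mul (hS.pow_const _)).mul
    (Real.smoothTransition.continuous.measurable.comp ((hS.div_const _).sub_const _))).div (hZ.norm.pow_const _)

theorem measurable_nz :
    Measurable fun p : ℝ × Path × ℂ × ℝ × ℝ => nz κ s₀ p.1 p.2.1 p.2.2.1 (Ioc p.2.2.2.1 p.2.2.2.2) := by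
  have hm : Measurable fun q : (ℝ × Path × ℂ × ℝ × ℝ) × ℝ => (q.1.1, q.1.2.1, q.1.2.2.1, q.2) := by fun_prop
  have hs1 : MeasurableSet {q : (ℝ × Path × ℂ × ℝ × ℝ) × ℝ | q.1.2.2.2.1 < q.2} :=
    measurableSet_lt (by fun_prop) (by fun_prop)
  have hs2 : MeasurableSet {q : (ℝ × Path × ℂ × ℝ × ℝ) × ℝ | q.2 ≤ q.1.2.2.2.2} :=
    measurableSet_le (by fun_prop) (by fun_prop)
  have hs := hs1.inter hs2
  have := (((measurable_dens (κ := κ) (s₀ := s₀)).comp hm).ennreal_ofReal.indicator hs).lintegral_prod_right'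
    (ν := volume)
  convert this using 2 with p
  rw [nz, ← lintegral_indicator measurableSet_Ioc]
  rfl

theorem measurable_nu {A : Set ℂ} :
    Measurable fun p : Path × ℝ × ℝ => nu κ s₀ y p.1 A (Ioc p.2.1 p.2.2) := by
  have hm : Measurable fun q : (Path × ℝ × ℝ) × ℂ => (y, q.1.1, q.2, q.1.2) := by fun_prop
  exact ((measurable_nz (κ := κ) (s₀ := s₀)).comp hm).lintegral_prod_right' (ν := volume.restrict A)

private theorem deriv_st_nonneg (u : ℝ) : 0 ≤ deriv Real.smoothTransition u :=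
  Real.smoothTransition.monotone.deriv_nonneg

private theorem deriv_st_supp {u : ℝ} (h : deriv Real.smoothTransition u ≠ 0) : 0 < u ∧ u < 1 := by
  refine ⟨lt_of_not_ge fun h' => h (IsLocalMin.deriv_eq_zero (Eventually.of_forall fun v => ?_)),
    lt_of_not_ge fun h' => h (IsLocalMax.deriv_eq_zero (Eventually.of_forall fun v => ?_))⟩
  · rw [Real.smoothTransition.zero_of_nonpos h']; exact Real.smoothTransition.nonneg v
  · rw [Real.smoothTransition.one_of_one_le h']; exact Real.smoothTransition.le_one v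

private theorem Gr_nonneg : 0 ≤ Gr κ ω z t := mul_nonneg (Real.rpow_nonneg Up_nonneg _) (Real.rpow_nonneg Sc_mem.1 _)

theorem dens_nonneg : 0 ≤ dens κ s₀ y ω z t :=
  div_nonneg (mul_nonneg (mul_nonneg (mul_nonneg (mul_nonneg (by norm_num) (deriv_st_nonneg _)) Gr_nonneg)
    (sq_nonneg _)) (Real.smoothTransition.nonneg _)) (sq_nonneg _)

private theorem dens_dead (h : ¬Alive ω z t) : dens κ s₀ y ω z t = 0 := by simp [dens, (dead h).2.2.2]

theorem dens_supp (hκ : κ < 8) (hy : 0 < y) (hs₀ : 0 < s₀) (h : dens κ s₀ y ω z t ≠ 0) :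
    Alive ω z t ∧ y < Up ω z t ∧ Up ω z t < 3 * y ∧ s₀ < Sc ω z t := by
  have _ := hκ
  have ha : Alive ω z t := by_contra fun h' => h (dens_dead h')
  have h1 : deriv Real.smoothTransition (Real.log (Up ω z t / y)) ≠ 0 := fun e => h (by simp [dens, e])
  have h2 : Real.smoothTransition (Sc ω z t / s₀ - 1) ≠ 0 := fun e => h (by simp [dens, e])
  obtain ⟨h3, h4⟩ := deriv_st_supp h1
  have h5 : 0 < Up ω z t / y := div_pos ha.up_pos hy
  rw [Real.log_pos_iff h5.le, one_lt_div hy] at h3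
  rw [Real.log_lt_iff_lt_exp h5, div_lt_iff₀ hy] at h4
  rw [Ne, Real.smoothTransition.zero_iff_nonpos, not_le, sub_pos, one_lt_div hs₀] at h2
  exact ⟨ha, h3, h4.trans (mul_lt_mul_of_pos_right (Real.exp_one_lt_d9.trans (by norm_num)) hy), h2⟩

theorem Agr.dens (h : Agr t ω ω') : dens κ s₀ y ω' z t = dens κ s₀ y ω z t := by
  simp only [R162.dens, Gr, Vg, h.Up, h.Sc, h.Zc]

theorem Agr.nz {I : Set ℝ} (h : Agr t ω ω') (hI : MeasurableSet I) (hIt : I ⊆ Iic t) :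
    nz κ s₀ y ω' z I = nz κ s₀ y ω z I :=
  setLIntegral_congr_fun hI fun _ hr => by simp only [(h.of_le (hIt hr)).dens]

private theorem Alive.nz_Icc (hκ0 : 0 < κ) (hκ : κ < 8) (hy : 0 < y) (h : Alive ω z t) :
    nz κ s₀ y ω z (Icc 0 t) ≤ ENNReal.ofReal (y ^ (-bb κ)) := by
  set b : ℝ → ℝ := fun u => deriv Real.smoothTransition (Real.log (Up ω z u / y)) *
    (4 * Sc ω z u ^ 2 / ‖Zc ω z u‖ ^ 2) with hb
  have hsm : ContDiff ℝ 1 Real.smoothTransition := Real.smoothTransition.contDiff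
  have hlog : ContinuousOn (fun u => Real.log (Up ω z u / y)) (Icc 0 t) :=
    (h.contOn_Up.div_const y).log fun u hu => (div_pos (h.mono hu.1 hu.2).up_pos hy).ne'
  have hbc : ContinuousOn b (Icc 0 t) := ((hsm.continuous_deriv le_rfl).comp_continuousOn hlog).mul h.contOn_b
  have hb0 : ∀ u, 0 ≤ b u := fun u => mul_nonneg (deriv_st_nonneg _) (by positivity)
  have hint : ∫ u in (0 : ℝ)..t, b u = -Real.smoothTransition (Real.log (Up ω z t / y)) -
      -Real.smoothTransition (Real.log (Up ω z 0 / y)) := by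
    refine intervalIntegral.integral_eq_sub_of_hasDeriv_right_of_le
      (f := fun u => -Real.smoothTransition (Real.log (Up ω z u / y))) h.1
      (hsm.continuous.comp_continuousOn hlog).neg (fun u hu => ?_) (hbc.intervalIntegrable_of_Icc h.1)
    have h' := h.mono hu.1.le hu.2.le
    have h1 := ((h'.deriv_Up.mono fun v (hv : u < v) => hu.1.le.trans hv.le).div_const y).log
      (div_pos h'.up_pos hy).ne'
    refine ((hsm.differentiable one_ne_zero _).hasDerivAt.comp_hasDerivWithinAt u h1).fun_neg.congr_deriv ?_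
    have := h'.up_pos.ne'
    simp only [hb]
    field_simp
  have hle : ∫ u in (0 : ℝ)..t, b u ≤ 1 := by
    rw [hint]
    linarith [Real.smoothTransition.nonneg (Real.log (Up ω z t / y)),
      Real.smoothTransition.le_one (Real.log (Up ω z 0 / y))]
  have hbb : 0 ≤ bb κ := by unfold bb; linarith
  have haa : 0 ≤ aa κ := by
    unfold aa; rw [sub_nonneg, one_le_div hκ0]; exact hκ.le
  have hpt : ∀ u ∈ Icc 0 t, dens κ s₀ y ω z u ≤ y ^ (-bb κ) * b u := fun u hu => by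
    by_cases h1 : deriv Real.smoothTransition (Real.log (Up ω z u / y)) = 0
    · simp [dens, hb, h1]
    have h3 := (deriv_st_supp h1).1
    rw [Real.log_pos_iff (div_nonneg Up_nonneg hy.le), one_lt_div hy] at h3
    have h4 : Gr κ ω z u ≤ y ^ (-bb κ) :=
      (mul_le_of_le_one_right (Real.rpow_nonneg Up_nonneg _) (Real.rpow_le_one Sc_mem.1 Sc_mem.2 haa)).trans
        (Real.rpow_le_rpow_of_nonpos hy h3.le (neg_nonpos.2 hbb))
    calc dens κ s₀ y ω z u = Gr κ ω z u * Real.smoothTransition (Sc ω z u / s₀ - 1) * b u := by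
          simp only [dens, hb]; ring
      _ ≤ _ := mul_le_mul_of_nonneg_right ((mul_le_of_le_one_right Gr_nonneg
          (Real.smoothTransition.le_one _)).trans h4) (hb0 u)
  have hy0 : 0 ≤ y ^ (-bb κ) := Real.rpow_nonneg hy.le _
  calc nz κ s₀ y ω z (Icc 0 t) ≤ ∫⁻ u in Icc 0 t, ENNReal.ofReal (y ^ (-bb κ) * b u) :=
        setLIntegral_mono' measurableSet_Icc fun u hu => ENNReal.ofReal_le_ofReal (hpt u hu)
    _ = ENNReal.ofReal (∫ u in Icc 0 t, y ^ (-bb κ) * b u) :=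
        (ofReal_integral_eq_lintegral_ofReal ((continuousOn_const.mul hbc).integrableOn_Icc)
          (Eventually.of_forall fun u => mul_nonneg hy0 (hb0 u))).symm
    _ ≤ _ := by
        rw [integral_const_mul, integral_Icc_eq_integral_Ioc, ← intervalIntegral.integral_of_le h.1]
        exact ENNReal.ofReal_le_ofReal (mul_le_of_le_one_right hy0 hle)

/-- deterministic bound: every point produces mass at most `y^{-b}` -/
theorem nz_le (hκ0 : 0 < κ) (hκ : κ < 8) (hy : 0 < y) (hs₀ : 0 < s₀) (I : Set ℝ) :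
    nz κ s₀ y ω z I ≤ ENNReal.ofReal (y ^ (-bb κ)) := by
  have _ := hs₀
  set J : Set ℝ := ⋃ q : {q : ℚ // Alive ω z q}, Icc 0 (q.1 : ℝ)
  have hJ : MeasurableSet J := MeasurableSet.iUnion fun _ => measurableSet_Icc
  have hd : Directed (· ⊆ ·) fun q : {q : ℚ // Alive ω z q} => Icc 0 (q.1 : ℝ) :=
    Monotone.directed_le fun a b hab => Icc_subset_Icc_right (by exact_mod_cast hab)
  calc nz κ s₀ y ω z I ≤ ∫⁻ u, ENNReal.ofReal (dens κ s₀ y ω z u) := setLIntegral_le_lintegral _ _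
    _ = ∫⁻ u in J, ENNReal.ofReal (dens κ s₀ y ω z u) := by
        rw [← lintegral_indicator hJ]
        refine lintegral_congr fun u => ?_
        by_cases hu : u ∈ J
        · rw [indicator_of_mem hu]
        rw [indicator_of_notMem hu, dens_dead, ENNReal.ofReal_zero]
        intro ha
        obtain ⟨T, h1, h2⟩ := ha.exists_gt
        obtain ⟨q, h3, h4⟩ := exists_rat_btwn h1
        exact hu (mem_iUnion.2 ⟨⟨q, h2.mono (ha.1.trans h3.le) h4.le⟩, ha.1, h3.le⟩)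
    _ ≤ _ := by
        rw [setLIntegral_iUnion_of_directed _ hd]
        exact iSup_le fun q => q.2.nz_Icc hκ0 hκ hy

private theorem Alive.dens_add (h : Alive ω z s) (ht : 0 ≤ t) :
    dens κ s₀ y ω z (s + t) = (Up ω z s / Yc ω z s) ^ (-bb κ) *
      dens κ s₀ (y / (Up ω z s / Yc ω z s)) (sh s ω) (Zc ω z s) t := by
  by_cases h' : Alive ω z (s + t)
  · have hl := div_pos h.up_pos h.yc_pos
    simp only [dens, Gr, Vg, h.Up_add ht, h.Sc_add ht, h'.Zc_add h.1 ht]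
    rw [Real.mul_rpow hl.le Up_nonneg, div_div_eq_mul_div, mul_comm (Up (sh s ω) (Zc ω z s) t)]
    ring
  · rw [dens_dead h', dens_dead (mt (h.add_iff ht).2 h'), mul_zero]

theorem Alive.nz_add (hκ : κ < 8) (hy : 0 < y) (h : Alive ω z s) {a b : ℝ} (ha : 0 ≤ a) :
    nz κ s₀ y ω z (Ioc (s + a) (s + b)) = ENNReal.ofReal ((Up ω z s / Yc ω z s) ^ (-bb κ)) *
      nz κ s₀ (y / (Up ω z s / Yc ω z s)) (sh s ω) (Zc ω z s) (Ioc a b) := by
  have _ := hκ
  have _ := hy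
  rw [nz, nz, ← image_const_add_Ioc, ← (measurePreserving_add_left volume s).setLIntegral_comp_emb
    (measurableEmbedding_addLeft s), ← lintegral_const_mul' _ _ ENNReal.ofReal_ne_top]
  refine setLIntegral_congr_fun measurableSet_Ioc fun u hu => ?_
  rw [h.dens_add (ha.trans hu.1.le),
    ENNReal.ofReal_mul (Real.rpow_nonneg (div_pos h.up_pos h.yc_pos).le _)]

private theorem dens_scl {c : ℝ} (hc : 0 < c) :
    dens κ s₀ (y / c) (scl c ω) (z / c) t = c ^ bb κ * (c ^ 2 * dens κ s₀ y ω z (c ^ 2 * t)) := by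
  simp only [dens, Gr, Vg, Up_scl hc, Sc_scl hc, Zc_scl hc]
  rw [div_div_div_cancel_right₀ hc.ne', Real.div_rpow Up_nonneg hc.le, Real.rpow_neg hc.le, norm_div,
    Complex.norm_real, Real.norm_of_nonneg hc.le, div_inv_eq_mul, div_pow, div_div_eq_mul_div]
  ring

theorem nz_scl (hy : 0 < y) {c : ℝ} (hc : 0 < c) (a b : ℝ) :
    nz κ s₀ (y / c) (scl c ω) (z / c) (Ioc a b) =
      ENNReal.ofReal (c ^ bb κ) * nz κ s₀ y ω z (Ioc (c ^ 2 * a) (c ^ 2 * b)) := by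
  have _ := hy
  have h2 : 0 < c ^ 2 := by positivity
  rw [nz, nz, ← image_mul_left_Ioc h2, lintegral_image_eq_lintegral_abs_deriv_mul measurableSet_Ioc
    (f' := fun _ => c ^ 2) (fun u _ => by simpa using (hasDerivWithinAt_id u _).const_mul (c ^ 2))
    (mul_right_injective₀ h2.ne').injOn, ← lintegral_const_mul' _ _ ENNReal.ofReal_ne_top]
  refine lintegral_congr fun u => ?_
  rw [dens_scl hc, ENNReal.ofReal_mul (Real.rpow_nonneg hc.le _), ENNReal.ofReal_mul h2.le, abs_of_pos h2]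

end partF

/-! ## exported auxiliary facts -/

namespace Lx

variable {ω ω' : Path} {z ζ : ℂ} {s t T : ℝ}

theorem yc_zero (hz : z ∈ HH) : Yc ω z 0 = z.im := Yc_zero hz
theorem zc_im : (Zc ω z t).im = Yc ω z t := Zc_im
theorem norm_pos (h : Alive ω z t) : 0 < ‖Zc ω z t‖ := h.norm_pos
theorem zc_ne (h : Alive ω z t) : Zc ω z t ≠ 0 := h.Zc_ne
theorem gt_mem (h : Alive ω z t) : gt ω z t ∈ HH := h.gt_mem
theorem zc_mem (h : Alive ω z t) : Zc ω z t ∈ HH := h.Zc_mem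
theorem agr_symm (h : Agr t ω ω') : Agr t ω' ω := h.symm
theorem agr_of_le (h : Agr t ω ω') (hst : s ≤ t) : Agr s ω ω' := h.of_le hst
theorem agr_Zc (h : Agr t ω ω') : Zc ω' z t = Zc ω z t := h.Zc
theorem agr_Yc (h : Agr t ω ω') : Yc ω' z t = Yc ω z t := h.Yc
theorem agr_Sc (h : Agr t ω ω') : Sc ω' z t = Sc ω z t := h.Sc
theorem eventually_alive (h : Alive ω z t) :
    ∀ᶠ p : Path × ℂ × ℝ in 𝓝[univ ×ˢ univ ×ˢ Ici 0] (ω, z, t), Alive p.1 p.2.1 p.2.2 := h.eventually_alive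
theorem cont_Zc (h : Alive ω z t) :
    ContinuousWithinAt (fun p : Path × ℂ × ℝ => Zc p.1 p.2.1 p.2.2) (univ ×ˢ univ ×ˢ Ici 0) (ω, z, t) := h.cont_Zc
theorem cont_Sc (h : Alive ω z t) :
    ContinuousWithinAt (fun p : Path × ℂ × ℝ => Sc p.1 p.2.1 p.2.2) (univ ×ˢ univ ×ˢ Ici 0) (ω, z, t) := h.cont_Sc
theorem exists_gt (h : Alive ω z t) : ∃ T, t < T ∧ Alive ω z T := h.exists_gt
theorem contOn_Yc' : ContinuousOn (Yc ω z) (Ici 0) := contOn_Yc
theorem contOn_Zc (h : Alive ω z t) : ContinuousOn (Zc ω z) (Icc 0 t) := h.contOn_Zc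
theorem contOn_Up (h : Alive ω z t) : ContinuousOn (Up ω z) (Icc 0 t) := h.contOn_Up
theorem contOn_Sc (h : Alive ω z t) : ContinuousOn (Sc ω z) (Icc 0 t) := h.contOn_Sc
/-- continuation principle -/
theorem extend {c : ℝ} (h : Alive ω z s) (hst : s ≤ t) (hc : 0 < c)
    (hb : ∀ r ∈ Icc s t, Alive ω z r → c ≤ Yc ω z r) : Alive ω z t := h.extend hst hc hb
theorem zc_scl {c : ℝ} (hc : 0 < c) : Zc (scl c ω) (z / c) t = Zc ω z (c ^ 2 * t) / c := Zc_scl hc
theorem yc_scl {c : ℝ} (hc : 0 < c) : Yc (scl c ω) (z / c) t = Yc ω z (c ^ 2 * t) / c := Yc_scl hc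
theorem isOpen_HH' : IsOpen HH := isOpen_HH
theorem gt_sub' {w : ℂ} (hz : Alive ω z t) (hw : Alive ω w t) :
    gt ω w t - gt ω z t = (w - z) * Complex.exp (-∫ u in (0 : ℝ)..t, 2 / (Zc ω w u * Zc ω z u)) := gt_sub hz hw
theorem hasDerivAt_ft' (ht : 0 ≤ t) (hζ : ζ ∈ HH) :
    HasDerivAt (ft ω t) (Complex.exp (∫ u in (0 : ℝ)..t, 2 / Zc ω (ft ω t ζ) u ^ 2)) ζ := hasDerivAt_ft ht hζ
theorem measurable_Yc' : Measurable fun p : Path × ℂ × ℝ => Yc p.1 p.2.1 p.2.2 := measurable_Yc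
theorem measurable_Zc' : Measurable fun p : Path × ℂ × ℝ => Zc p.1 p.2.1 p.2.2 := measurable_Zc
theorem dens_dead' {κ s₀ y : ℝ} (h : ¬Alive ω z t) : dens κ s₀ y ω z t = 0 := dens_dead h
theorem dens_add {κ s₀ y : ℝ} (h : Alive ω z s) (ht : 0 ≤ t) :
    dens κ s₀ y ω z (s + t) = (Up ω z s / Yc ω z s) ^ (-bb κ) *
      dens κ s₀ (y / (Up ω z s / Yc ω z s)) (sh s ω) (Zc ω z s) t := h.dens_add ht
theorem dens_scl' {κ s₀ y c : ℝ} (hc : 0 < c) :
    dens κ s₀ (y / c) (scl c ω) (z / c) t = c ^ bb κ * (c ^ 2 * dens κ s₀ y ω z (c ^ 2 * t)) := dens_scl hc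

end Lx

end Crest.Agent.R162
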