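import Crest.Agent.R162.P
import Crest.Agent.R162.C

/-! # Row 162: assembly -/

set_option autoImplicit false

open scoped ENNReal NNReal Topology
open Set Filter MeasureTheory Metric

noncomputable section
namespace Crest.Agent.R162

open Crest.ProbabilityR.Loewner

theorem main {Ω : Type*} [MeasurableSpace Ω] (P : Measure Ω) [IsProbabilityMeasure P]
    (κ : ℝ) (hκ : 0 < κ) (hκ8 : κ < 8) (B : NNReal → Ω → ℝ) (hB : ProbabilityTheory.IsBrownianReal B P)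
    (γ : Ω → ℝ → ℂ) (hγ : ∀ᵐ ω ∂P, IsChordalTrace (driving κ B ω) (γ ω)) :
    (∀ᵐ ω ∂P, ∀ s t : ℝ, 0 < s → s < t →
        0 < gaugeMeasure κ (γ ω '' Set.Icc s t) ∧ gaugeMeasure κ (γ ω '' Set.Icc s t) < ⊤) ∧
      ∀ R : ℝ, ∫⁻ ω, gaugeMeasure κ (γ ω '' Set.Ici 0 ∩ Metric.closedBall 0 R) ∂P < ⊤ := by
  obtain ⟨W, hWm, hW, hμ⟩ := exists_wie P hκ B hB
  have hγ' : ∀ᵐ ω ∂P, IsChordalTrace (W ω) (γ ω) := by
    filter_upwards [hγ, hW] with ω h1 h2
    rw [h2]; exact h1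
  choose F hFm hFi hF using fun R : ℝ => finiteness hκ hκ8 hμ R
  have hFW : ∀ R, ∫⁻ ω, F R (W ω) ∂P < ⊤ := fun R => by
    rw [← lintegral_map' (hFm R).aemeasurable hWm]; exact hFi R
  refine ⟨?_, fun R => lt_of_le_of_lt (lintegral_mono_ae ?_) (hFW R)⟩
  · have h1 := ae_of_ae_map hWm (positivity hκ hκ8 hμ)
    have h2 : ∀ᵐ ω ∂P, ∀ n : ℕ, F n (W ω) < ⊤ := ae_all_iff.2 fun n =>
      ae_lt_top' ((hFm n).comp_aemeasurable hWm) (hFW n).ne
    filter_upwards [h1, h2, hγ'] with ω h1 h2 h3 s t hs hst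
    refine ⟨h1 _ h3 s t hs hst, ?_⟩
    have hc : IsCompact (γ ω '' Icc s t) :=
      isCompact_Icc.image_of_continuousOn (h3.continuousOn.mono fun u hu => hs.le.trans hu.1)
    obtain ⟨R, hR⟩ := hc.isBounded.subset_closedBall 0
    obtain ⟨n, hn⟩ := exists_nat_ge R
    refine lt_of_le_of_lt (le_trans (measure_mono ?_) (hF n (W ω) _ h3)) (h2 n)
    exact subset_inter (image_mono fun u hu => hs.le.trans hu.1) (hR.trans (closedBall_subset_closedBall hn))
  · filter_upwards [hγ'] with ω h using hF R (W ω) _ h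

end Crest.Agent.R162
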