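import Crest.Agent.R162.J
import Crest.Agent.R162.O.Lyap
import Crest.Agent.R162.O.Low

/-!
# Row 162, block O: one-point estimates.  API file: statements are FROZEN; the owner proves them in
`R162/O/*.lean` and fills the `sorry`s here by `exact`.  See `notes162/R162.md`.
-/

set_option autoImplicit false

open scoped ENNReal NNReal Topology
open Set Filter MeasureTheory Metric

noncomputable section
namespace Crest.Agent.R162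

variable {κ : ℝ} {μ : Measure Path}

/-- O0: the Green's function process is a supermartingale -/
theorem green_super (hκ : 0 < κ) (hκ8 : κ < 8) (hμ : Wie κ μ) (z : ℂ) {τ : Path → ℝ} {ω : Path} {s T : ℝ}
    (hτ : After τ ω s T) :
    EE μ ω s (fun ω₁ => ENNReal.ofReal (Gr κ ω₁ z (τ ω₁))) ≤ ENNReal.ofReal (Gr κ ω z s) := by
  exact O.green_super hκ hκ8 hμ z hτ

/-- O1, conditional form -/
theorem nz_cond_le (hκ : 0 < κ) (hκ8 : κ < 8) (hμ : Wie κ μ) {s₀ y : ℝ} (hs₀ : 0 < s₀) (hy : 0 < y) (z : ℂ)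
    (ω : Path) {s : ℝ} (hs : 0 ≤ s) :
    EE μ ω s (fun ω₁ => nz κ s₀ y ω₁ z (Ioi s)) ≤ ENNReal.ofReal (Gr κ ω z s) := by
  exact O.nz_cond_le hκ hκ8 hμ hs₀ hy z ω hs

/-- O1 -/
theorem nz_mean_le (hκ : 0 < κ) (hκ8 : κ < 8) (hμ : Wie κ μ) {s₀ y : ℝ} (hs₀ : 0 < s₀) (hy : 0 < y) {z : ℂ}
    (hz : z ∈ HH) : ∫⁻ ω, nz κ s₀ y ω z (Ioi 0) ∂μ ≤ ENNReal.ofReal (z.im ^ (-bb κ)) := by
  exact O.nz_mean_le hκ hκ8 hμ hs₀ hy hz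

/-- O2 (Lyapunov function) and O3 (hitting probability) for an exponent `g` -/
structure Lyap (κ : ℝ) (μ : Measure Path) (g C : ℝ) : Prop where
  one_le : 1 ≤ C
  lyap : ∀ (z : ℂ) (ε : ℝ) (τ : Path → ℝ) (ω : Path) (s T : ℝ), 0 < ε → After τ ω s T →
    EE μ ω s (fun ω₁ => ENNReal.ofReal (Vg κ g ω₁ z (τ ω₁) * wt 1 ε (Up ω₁ z (τ ω₁)))) ≤
      ENNReal.ofReal (2 * Vg κ g ω z s * wt 1 ε (Up ω z s) + C * Gr κ ω z s)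
  hit : ∀ (z : ℂ) (ε : ℝ) (ω : Path) (s T : ℝ), 0 < ε → Alive ω z s → 3 * ε ≤ Up ω z s →
    μ {ω' | spl s ω ω' ∈ Hit z ε T} ≤ ENNReal.ofReal (C * ε ^ bb κ * Vg κ g ω z s)
  hit0 : ∀ (z : ℂ) (ε T : ℝ), 0 < ε → 3 * ε ≤ z.im →
    μ (Hit z ε T) ≤ ENNReal.ofReal (C * (ε / z.im) ^ bb κ)

theorem exists_lyap (hκ : 0 < κ) (hκ8 : κ < 8) (hμ : Wie κ μ) {g : ℝ} (hg : 0 < g) (hga : g < aa κ) (hg2 : g ≤ 2) :
    ∃ C, Lyap κ μ g C := by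
  obtain ⟨C₁, hC₁, h₁⟩ := O.lyap hκ hκ8 hμ hg hga
  obtain ⟨C₂, hC₂, h₂⟩ := O.hit hκ hκ8 hμ hg hga hg2
  have h₃ : ∀ (z : ℂ) (ε : ℝ) (ω : Path) (s T : ℝ), 0 < ε → Alive ω z s → 3 * ε ≤ Up ω z s →
      μ {ω' | spl s ω ω' ∈ Hit z ε T} ≤ ENNReal.ofReal ((1 + C₁ + C₂) * ε ^ bb κ * Vg κ g ω z s) := by
    intro z ε ω s T hε ha h3
    refine (h₂ z ε ω s T hε ha h3).trans (ENNReal.ofReal_le_ofReal ?_)
    have := O.Vg_nonneg (κ := κ) (ω := ω) (z := z) (t := s) g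
    gcongr
    linarith
  refine ⟨1 + C₁ + C₂, by linarith, fun z ε τ ω s T hε hτ => ?_, h₃, O.hit0 hμ hg (by linarith) h₃⟩
  refine (h₁ z ε τ ω s T hε hτ).trans (ENNReal.ofReal_le_ofReal ?_)
  have : 0 ≤ Gr κ ω z s := O.Vg_nonneg _
  gcongr
  linarith

/-- O4: lower bound for the mass produced at a point with `S ≥ 1/2` in time `≍ ‖z‖²` -/
structure Low (κ : ℝ) (μ : Measure Path) (s₀ c C : ℝ) : Prop where
  s_pos : 0 < s₀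
  c_pos : 0 < c
  one_le : 1 ≤ C
  low : ∀ (z : ℂ) (y : ℝ), ‖z‖ ≤ 2 * z.im → 0 < y → 3 * y ≤ z.im →
    ENNReal.ofReal (c * z.im ^ (-bb κ)) ≤
      ∫⁻ ω in {ω | osc (C * ‖z‖ ^ 2) ω ≤ C * ‖z‖}, nz κ s₀ y ω z (Ioc 0 (C * ‖z‖ ^ 2)) ∂μ

theorem exists_low (hκ : 0 < κ) (hκ8 : κ < 8) (hμ : Wie κ μ) : ∃ s₀ c C, Low κ μ s₀ c C := by
  obtain ⟨s₀, c, C, h1, h2, h3, h4⟩ := O.low hκ hκ8 hμ
  exact ⟨s₀, c, C, h1, h2, h3, h4⟩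

end Crest.Agent.R162
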