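import Crest.Agent.R162.W.Ex

/-!
# Row 162, block W: Wiener measure on path space.  API file: statements are FROZEN; the owner proves them in
`R162/W/*.lean` and fills the `sorry`s here by `exact`.  See `notes162/R162.md`.
-/

set_option autoImplicit false
set_option linter.unusedVariables false

open scoped ENNReal NNReal Topology
open Set Filter MeasureTheory Metric

noncomputable section
namespace Crest.Agent.R162

/-! ### deterministic path algebra -/

theorem continuous_spl : Continuous fun p : ℝ × Path × Path => spl p.1 p.2.1 p.2.2 := by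
  exact W.continuous_spl

theorem continuous_sh : Continuous fun p : ℝ × Path => sh p.1 p.2 := by
  refine ContinuousMap.continuous_of_continuous_uncurry _ ?_
  change Continuous fun q : (ℝ × Path) × ℝ => q.1.2 (q.1.1 + max q.2 0) - q.1.2 q.1.1
  fun_prop

theorem continuous_scl {c : ℝ} : Continuous (scl c) := by
  exact W.continuous_scl c

/-- `scl` with a random factor -/
theorem measurable_scl : Measurable fun p : ℝ × Path => scl p.1 p.2 := by
  refine W.measurable_path fun t => ?_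
  change Measurable fun p : ℝ × Path => p.2 (p.1 ^ 2 * t) / p.1
  exact Measurable.div (by fun_prop : Continuous _).measurable measurable_fst

theorem continuous_osc (T : ℝ) : Continuous (osc T) := by
  refine isCompact_Icc.continuous_sSup (f := fun (ω : Path) (t : ℝ) => |ω t - ω 0|) ?_
  change Continuous fun q : Path × ℝ => |q.1 q.2 - q.1 0|
  fun_prop

theorem osc_nonneg (T : ℝ) (ω : Path) : 0 ≤ osc T ω := by
  exact Real.sSup_nonneg (by rintro _ ⟨t, -, rfl⟩; exact abs_nonneg _)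

theorem abs_le_osc {T t : ℝ} (ω : Path) (ht : t ∈ Icc 0 T) : |ω t - ω 0| ≤ osc T ω := by
  exact le_csSup (isCompact_Icc.image (by fun_prop)).bddAbove ⟨t, ht, rfl⟩

theorem osc_le {T c : ℝ} {ω : Path} (hc : 0 ≤ c) (h : ∀ t ∈ Icc 0 T, |ω t - ω 0| ≤ c) : osc T ω ≤ c := by
  exact Real.sSup_le (by rintro _ ⟨t, ht, rfl⟩; exact h t ht) hc

theorem agr_spl (t : ℝ) (ω ω' : Path) : Agr t ω (spl t ω ω') := by
  exact W.agr_spl t ω ω'

theorem spl_of_agr {t : ℝ} {ω₁ ω₂ : Path} (h : Agr t ω₁ ω₂) (ω' : Path) : spl t ω₂ ω' = spl t ω₁ ω' := by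
  ext s
  change ω₂ (min s t) + _ = ω₁ (min s t) + _
  rw [h _ (min_le_right s t)]

theorem spl_spl (s : ℝ) {t : ℝ} (ht : 0 ≤ t) (ω ω' ω'' : Path) :
    spl (s + t) (spl s ω ω') ω'' = spl s ω (spl t ω' ω'') := by
  ext u
  change ω (min (min u (s + t)) s) + (ω' (max (min u (s + t) - s) 0) - ω' 0) + (ω'' (max (u - (s + t)) 0) - ω'' 0) =
    ω (min u s) + (ω' (min (max (u - s) 0) t) + (ω'' (max (max (u - s) 0 - t) 0) - ω'' 0) -
      (ω' (min 0 t) + (ω'' (max (0 - t) 0) - ω'' 0)))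
  have e1 : min (min u (s + t)) s = min u s := by simp only [min_def]; split_ifs <;> linarith
  have e2 : max (min u (s + t) - s) 0 = min (max (u - s) 0) t := by
    simp only [min_def, max_def]; split_ifs <;> linarith
  have e3 : max (u - (s + t)) 0 = max (max (u - s) 0 - t) 0 := by simp only [max_def]; split_ifs <;> linarith
  rw [e1, e2, e3, min_eq_left ht, max_eq_right (by linarith : 0 - t ≤ 0)]
  ring

theorem agr_spl_spl (s : ℝ) {t : ℝ} (ω : Path) {ω' ω'' : Path} (ht : 0 ≤ t) (h : Agr t ω' ω'') :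
    Agr (s + t) (spl s ω ω') (spl s ω ω'') := by
  intro u hu
  change ω (min u s) + (ω'' (max (u - s) 0) - ω'' 0) = ω (min u s) + (ω' (max (u - s) 0) - ω' 0)
  rw [h _ (max_le (by linarith) ht), h 0 ht]

theorem sh_spl (s : ℝ) (ω ω' : Path) : sh s (spl s ω ω') = sh 0 ω' := by
  ext u
  change ω (min (s + max u 0) s) + (ω' (max (s + max u 0 - s) 0) - ω' 0) -
    (ω (min s s) + (ω' (max (s - s) 0) - ω' 0)) = ω' (0 + max u 0) - ω' 0
  rw [min_eq_right (le_add_of_nonneg_right (le_max_right u 0)), add_sub_cancel_left, max_assoc, max_self,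
    min_self, sub_self, max_self, zero_add]
  ring

theorem spl_sh (s : ℝ) (ω : Path) : spl s ω (sh s ω) = ω := by
  ext u
  change ω (min u s) + (ω (s + max (max (u - s) 0) 0) - ω s - (ω (s + max 0 0) - ω s)) = ω u
  rw [max_assoc, max_self, add_zero]
  rcases le_total u s with h | h
  · rw [min_eq_left h, max_eq_right (sub_nonpos.2 h), add_zero]; ring
  · rw [min_eq_right h, max_eq_left (sub_nonneg.2 h), add_sub_cancel]; ring

theorem sh_sh (s : ℝ) {t : ℝ} (ht : 0 ≤ t) (ω : Path) : sh t (sh s ω) = sh (s + t) ω := by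
  ext u
  change ω (s + max (t + max u 0) 0) - ω s - (ω (s + max t 0) - ω s) = ω (s + t + max u 0) - ω (s + t)
  rw [max_eq_left (add_nonneg ht (le_max_right u 0)), max_eq_left ht, add_assoc]
  ring

theorem sh_zero_of_zero {ω : Path} (h : ∀ t, t ≤ 0 → ω t = 0) : sh 0 ω = ω := by
  ext u
  change ω (0 + max u 0) - ω 0 = ω u
  rw [zero_add, h 0 le_rfl, sub_zero]
  rcases le_total u 0 with hu | hu
  · rw [max_eq_right hu, h 0 le_rfl, h u hu]
  · rw [max_eq_left hu]

theorem Stop.const {T : ℝ} (hT : 0 ≤ T) : Stop fun _ => T := by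
  exact ⟨measurable_const, fun _ => hT, fun _ _ _ => rfl⟩

theorem Stop.min {σ τ : Path → ℝ} (hσ : Stop σ) (hτ : Stop τ) : Stop fun ω => min (σ ω) (τ ω) := by
  have key : ∀ {σ τ : Path → ℝ}, Stop σ → Stop τ → ∀ ω ω', σ ω ≤ τ ω → Agr (σ ω) ω ω' →
      Min.min (σ ω') (τ ω') = σ ω := fun {σ τ} hσ hτ ω ω' hle h => by
    rw [hσ.agr ω ω' h]
    refine min_eq_left (not_lt.1 fun hlt => ?_)
    have := hτ.agr ω' ω fun s hs => (h s (hs.trans hlt.le)).symm
    linarith
  refine ⟨hσ.meas.min hτ.meas, fun ω => le_min (hσ.nonneg ω) (hτ.nonneg ω), fun ω ω' h => ?_⟩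
  rcases le_total (σ ω) (τ ω) with hle | hle
  · rw [min_eq_left hle] at h ⊢
    exact key hσ hτ ω ω' hle h
  · rw [min_eq_right hle] at h ⊢
    rw [min_comm]
    exact key hτ hσ ω ω' hle h

theorem Stop.max {σ τ : Path → ℝ} (hσ : Stop σ) (hτ : Stop τ) : Stop fun ω => max (σ ω) (τ ω) := by
  refine ⟨hσ.meas.max hτ.meas, fun ω => (hσ.nonneg ω).trans (le_max_left _ _), fun ω ω' h => ?_⟩
  rw [hσ.agr ω ω' fun s hs => h s (hs.trans (le_max_left _ _)),
    hτ.agr ω ω' fun s hs => h s (hs.trans (le_max_right _ _))]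

/-- a stopping time seen from time `s` on -/
theorem Stop.after {τ : Path → ℝ} (hτ : Stop τ) (ω : Path) {s : ℝ} (h : ∀ ω', s ≤ τ (spl s ω ω')) :
    Stop fun ω' => τ (spl s ω ω') - s := by
  refine ⟨(hτ.meas.comp (continuous_spl.comp
    (continuous_const.prodMk (continuous_const.prodMk continuous_id))).measurable).sub_const s,
    fun ω' => sub_nonneg.2 (h ω'), fun ω' ω'' ha => ?_⟩
  have := agr_spl_spl s ω (sub_nonneg.2 (h ω')) ha
  rw [add_sub_cancel] at this
  rw [hτ.agr _ _ this]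

/-- restart at `σ`, rescale by an `F_σ`-measurable factor `c`, and wait for `τ` -/
theorem Stop.restart {σ τ c : Path → ℝ} (hσ : Stop σ) (hτ : Stop τ) (hc : Measurable c) (hc0 : ∀ ω, 0 < c ω)
    (hca : ∀ ω ω', Agr (σ ω) ω ω' → c ω' = c ω) :
    Stop fun ω => σ ω + c ω ^ 2 * τ (scl (c ω) (sh (σ ω) ω)) := by
  have hm : Measurable fun ω => scl (c ω) (sh (σ ω) ω) :=
    measurable_scl.comp (hc.prodMk (continuous_sh.measurable.comp (hσ.meas.prodMk measurable_id)))
  have h0 : ∀ ω, 0 ≤ c ω ^ 2 * τ (scl (c ω) (sh (σ ω) ω)) := fun ω => mul_nonneg (sq_nonneg _) (hτ.nonneg _)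
  refine ⟨hσ.meas.add ((hc.pow_const 2).mul (hτ.meas.comp hm)), fun ω => add_nonneg (hσ.nonneg ω) (h0 ω),
    fun ω ω' h => ?_⟩
  have h1 : Agr (σ ω) ω ω' := fun s hs => h s (hs.trans (le_add_of_nonneg_right (h0 ω)))
  have h2 : Agr (τ (scl (c ω) (sh (σ ω) ω))) (scl (c ω) (sh (σ ω) ω)) (scl (c ω) (sh (σ ω) ω')) := fun s hs => by
    change (ω' (σ ω + Max.max (c ω ^ 2 * s) 0) - ω' (σ ω)) / c ω = (ω (σ ω + Max.max (c ω ^ 2 * s) 0) - ω (σ ω)) / c ω
    rw [h1 _ le_rfl, h _ (add_le_add_right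
      (max_le (mul_le_mul_of_nonneg_left hs (sq_nonneg _)) (h0 ω)) _)]
  rw [hσ.agr ω ω' h1, hca ω ω' h1, hτ.agr _ _ h2]

/-! ### Wiener measure -/

/-- the law of the driving function -/
theorem exists_wie {Ω : Type*} [MeasurableSpace Ω] (P : Measure Ω) [IsProbabilityMeasure P] {κ : ℝ} (hκ : 0 < κ)
    (B : ℝ≥0 → Ω → ℝ) (hB : ProbabilityTheory.IsBrownianReal B P) :
    ∃ W : Ω → Path, AEMeasurable W P ∧
      (∀ᵐ ω ∂P, (W ω : ℝ → ℝ) = Crest.ProbabilityR.Loewner.driving κ B ω) ∧ Wie κ (P.map W) := by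
  exact W.exists_wie P hκ B hB

variable {κ : ℝ} {μ : Measure Path}

theorem Wie.sh_zero (hμ : Wie κ μ) : ∀ᵐ ω ∂μ, sh 0 ω = ω := by
  exact hμ.zero.mono fun _ h => sh_zero_of_zero h

theorem Wie.lintegral_eq_EE (hμ : Wie κ μ) {τ : Path → ℝ} (hτ : Stop τ) {F : Path → ℝ≥0∞} (hF : Measurable F) :
    ∫⁻ ω, F ω ∂μ = ∫⁻ ω, EE μ ω (τ ω) F ∂μ := by
  have := hμ.prob
  rw [← (hμ.markov τ hτ).lintegral_comp hF]
  exact lintegral_prod _ (hF.comp (hμ.markov τ hτ).measurable).aemeasurable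

theorem Wie.measurable_EE (hμ : Wie κ μ) {α : Type} [MeasurableSpace α] {F : α → Path → ℝ≥0∞}
    (hF : Measurable fun p : α × Path => F p.1 p.2) :
    Measurable fun p : α × Path × ℝ => EE μ p.2.1 p.2.2 (F p.1) := by
  have := hμ.prob
  have h : Measurable fun q : (α × Path × ℝ) × Path => F q.1.1 (spl q.1.2.2 q.1.2.1 q.2) :=
    hF.comp (measurable_fst.fst.prodMk (continuous_spl.measurable.comp
      (measurable_fst.snd.snd.prodMk (measurable_fst.snd.fst.prodMk measurable_snd))))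
  exact h.lintegral_prod_right'

/-- tower property / conditional strong Markov property -/
theorem Wie.EE_tower (hμ : Wie κ μ) {τ : Path → ℝ} (hτ : Stop τ) {ω : Path} {s : ℝ}
    (h : ∀ ω', s ≤ τ (spl s ω ω')) {F : Path → ℝ≥0∞} (hF : Measurable F) :
    EE μ ω s F = EE μ ω s fun ω₁ => EE μ ω₁ (τ ω₁) F := by
  have hm : Measurable (spl s ω) :=
    (continuous_spl.comp (continuous_const.prodMk (continuous_const.prodMk continuous_id))).measurable
  refine (hμ.lintegral_eq_EE (hτ.after ω h) (hF.comp hm)).trans (lintegral_congr fun ω' => ?_)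
  refine lintegral_congr fun ω'' => ?_
  rw [Function.comp, ← spl_spl s (sub_nonneg.2 (h ω')), add_sub_cancel]

/-- an `F_s`-measurable factor times a functional of the future -/
theorem Wie.EE_sh (hμ : Wie κ μ) (ω : Path) (s : ℝ) (F : Path → ℝ≥0∞) :
    EE μ ω s (fun ω₁ => F (sh s ω₁)) = ∫⁻ ω', F ω' ∂μ := by
  exact lintegral_congr_ae (hμ.sh_zero.mono fun ω' h => by simp only [sh_spl, h])

theorem Wie.EE_zero (hμ : Wie κ μ) {ω : Path} (h : ∀ t, t ≤ 0 → ω t = 0) (F : Path → ℝ≥0∞) :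
    EE μ ω 0 F = ∫⁻ ω', F ω' ∂μ := by
  refine lintegral_congr_ae (hμ.sh_zero.mono fun ω' h' => ?_)
  have : spl 0 ω ω' = R162.sh 0 ω' := by
    ext u
    change ω (min u 0) + (ω' (max (u - 0) 0) - ω' 0) = ω' (0 + max u 0) - ω' 0
    rw [h _ (min_le_right u 0), sub_zero, zero_add, zero_add]
  simp only [this, h']

theorem Wie.sh (hμ : Wie κ μ) {τ : Path → ℝ} (hτ : Stop τ) :
    MeasurePreserving (fun ω => sh (τ ω) ω) μ μ := by
  have := hμ.prob
  have hm : Measurable fun ω => R162.sh (τ ω) ω := continuous_sh.measurable.comp (hτ.meas.prodMk measurable_id)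
  refine ⟨hm, ?_⟩
  conv_lhs => rw [← (hμ.markov τ hτ).map_eq, Measure.map_map hm (hμ.markov τ hτ).measurable]
  refine (Measure.map_congr ?_).trans (measurePreserving_snd (μ := μ) (ν := μ)).map_eq
  filter_upwards [Measure.quasiMeasurePreserving_snd.ae hμ.sh_zero] with p hp
  rw [Function.comp, hτ.agr _ _ (agr_spl _ p.1 p.2), sh_spl, hp]

theorem W.gauss_symm (v : ℝ≥0) (l : ℝ) :
    ProbabilityTheory.gaussianReal 0 v (Iic (-l)) = ProbabilityTheory.gaussianReal 0 v (Ici l) := by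
  have := ProbabilityTheory.gaussianReal_map_neg (μ := 0) (v := v)
  rw [neg_zero] at this
  conv_lhs => rw [← this, Measure.map_apply measurable_neg measurableSet_Iic]
  congr 1
  ext x
  simp

theorem W.gauss_half (v : ℝ≥0) : 1 ≤ 2 * ProbabilityTheory.gaussianReal 0 v (Ici 0) := by
  have h := W.gauss_symm v 0
  rw [neg_zero] at h
  rw [two_mul, ← measure_univ (μ := ProbabilityTheory.gaussianReal 0 v), ← Iic_union_Ici (a := (0 : ℝ))]
  exact (measure_union_le _ _).trans_eq (by rw [h])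

theorem W.gauss_tail (v : ℝ≥0) {l : ℝ} (hl : 0 ≤ l) :
    ProbabilityTheory.gaussianReal 0 v (Ici l) ≤ ENNReal.ofReal (Real.exp (-l ^ 2 / (2 * v))) := by
  have h : ProbabilityTheory.HasSubgaussianMGF id v (ProbabilityTheory.gaussianReal 0 v) :=
    ⟨ProbabilityTheory.integrable_exp_mul_gaussianReal, fun t => by
      rw [ProbabilityTheory.mgf_id_gaussianReal]; simp⟩
  rw [← ofReal_measureReal]
  exact ENNReal.ofReal_le_ofReal (h.measure_ge_le hl)

theorem W.le_osc_iff {T l : ℝ} (hT : 0 ≤ T) (ω : Path) : l ≤ osc T ω ↔ ∃ t ∈ Icc 0 T, l ≤ |ω t - ω 0| := by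
  refine ⟨fun h => ?_, fun ⟨t, ht, h⟩ => h.trans (abs_le_osc ω ht)⟩
  obtain ⟨t, ht, e⟩ := isCompact_Icc.exists_sSup_image_eq (nonempty_Icc.2 hT)
    (f := fun t => |ω t - ω 0|) (by fun_prop)
  exact ⟨t, ht, h.trans_eq e⟩

theorem W.exists_hit {T : ℝ} (hT : 0 ≤ T) (l : ℝ) : ∃ τ : Path → ℝ, Stop τ ∧ (∀ ω, τ ω ≤ T) ∧
    ∀ ω, l ≤ osc T ω → l ≤ |ω (τ ω) - ω 0| := by
  let S : Path → Set ℝ := fun ω => Icc 0 T ∩ {t | l ≤ |ω t - ω 0|} ∪ {T}
  have hb : ∀ ω, ∀ t ∈ S ω, 0 ≤ t := fun ω t ht => ht.elim (fun h => h.1.1) fun h => h ▸ hT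
  have hm : ∀ ω, sInf (S ω) ∈ S ω := fun ω =>
    ((isClosed_Icc.inter (isClosed_le continuous_const (by fun_prop))).union isClosed_singleton).csInf_mem
      ⟨T, Or.inr rfl⟩ ⟨0, hb ω⟩
  have hle : ∀ ω, ∀ t ∈ S ω, sInf (S ω) ≤ t := fun ω t ht => csInf_le ⟨0, hb ω⟩ ht
  have ha : ∀ t ω ω', Agr t ω ω' → t ∈ S ω → t ∈ S ω' := fun t ω ω' h ht =>
    ht.imp_left fun h1 => ⟨h1.1, by
      have := h1.2
      rwa [mem_ofPred_eq, ← h t le_rfl, ← h 0 h1.1.1] at this⟩
  refine ⟨fun ω => sInf (S ω), ⟨measurable_of_Iic fun t => ?_, fun ω => hb ω _ (hm ω), fun ω ω' h => ?_⟩,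
    fun ω => hle ω T (Or.inr rfl), fun ω h => ?_⟩
  · rcases le_or_gt T t with h1 | h1
    · exact MeasurableSet.univ.congr (eq_univ_of_forall fun ω => (hle ω T (Or.inr rfl)).trans h1).symm
    rcases lt_or_ge t 0 with h2 | h2
    · exact MeasurableSet.empty.congr
        (eq_empty_of_forall_notMem fun ω h => (h2.trans_le (hb ω _ (hm ω))).not_ge h).symm
    refine (isClosed_le (continuous_const (y := l)) (continuous_osc t)).measurableSet.congr (Set.ext fun ω => ?_)
    rw [mem_ofPred_eq, W.le_osc_iff h2]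
    refine ⟨fun ⟨s, hs, h⟩ => (hle ω s (Or.inl ⟨⟨hs.1, hs.2.trans h1.le⟩, h⟩)).trans hs.2, fun h => ?_⟩
    rcases hm ω with h3 | h3
    · exact ⟨_, ⟨h3.1.1, h⟩, h3.2⟩
    · exact absurd (h3.symm.le.trans h) h1.not_ge
  · have h1 := hle _ _ (ha _ _ _ h (hm ω))
    exact le_antisymm h1 (hle _ _ (ha _ _ _ (fun s hs => (h s (hs.trans h1)).symm) (hm ω')))
  · obtain ⟨t, ht, h1⟩ := (W.le_osc_iff hT ω).1 h
    rcases hm ω with h3 | h3
    · exact h3.2
    · have h4 := hle ω t (Or.inl ⟨ht, h1⟩)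
      have h5 : sInf (S ω) = t := le_antisymm h4 (h3 ▸ ht.2)
      simpa only [h5] using h1

theorem W.reflect (hμ : Wie κ μ) {T : ℝ} (hT : 0 ≤ T) (l : ℝ) :
    μ {ω | l ≤ osc T ω} ≤ 2 * μ {ω | l ≤ |ω T - ω 0|} := by
  obtain ⟨τ, hτ, hle, h⟩ := W.exists_hit hT l
  have hB : MeasurableSet {ω : Path | l ≤ |ω T - ω 0|} :=
    (isClosed_le continuous_const (by fun_prop)).measurableSet
  have hA : MeasurableSet {ω : Path | l ≤ osc T ω} :=
    (isClosed_le continuous_const (continuous_osc T)).measurableSet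
  rw [← lintegral_indicator_one hA, ← lintegral_indicator_one hB,
    hμ.lintegral_eq_EE hτ (measurable_one.indicator hB), ← lintegral_const_mul' _ _ ENNReal.ofNat_ne_top]
  refine lintegral_mono fun ω => ?_
  by_cases hω : ω ∈ {ω : Path | l ≤ osc T ω}
  swap
  · simp only [indicator_of_notMem hω, zero_le]
  simp only [indicator_of_mem hω, Pi.one_apply]
  have hm : Measurable fun ω' : Path => ω' (T - τ ω) := (by fun_prop : Continuous _).measurable
  have key : ∀ I : Set ℝ, MeasurableSet I → (∀ x ∈ I, l ≤ |ω (τ ω) + x - ω 0|) →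
      ProbabilityTheory.gaussianReal 0 (κ * (T - τ ω)).toNNReal I ≤
        EE μ ω (τ ω) (indicator {ω : Path | l ≤ |ω T - ω 0|} 1) := fun I hI hx => by
    rw [← hμ.law _ (sub_nonneg.2 (hle ω)), Measure.map_apply hm hI, ← lintegral_indicator_one (hm hI)]
    refine lintegral_mono_ae (hμ.zero.mono fun ω' h0 => ?_)
    by_cases h1 : ω' ∈ (fun ω' : Path => ω' (T - τ ω)) ⁻¹' I
    · have h2 : spl (τ ω) ω ω' ∈ {ω : Path | l ≤ |ω T - ω 0|} := by
        rw [mem_ofPred_eq, agr_spl _ ω ω' 0 (hτ.nonneg ω)]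
        change l ≤ |ω (min T (τ ω)) + (ω' (max (T - τ ω) 0) - ω' 0) - ω 0|
        rw [min_eq_right (hle ω), max_eq_left (sub_nonneg.2 (hle ω)), h0 0 le_rfl, sub_zero]
        exact hx _ h1
      simp only [indicator_of_mem h1, indicator_of_mem h2, Pi.one_apply, le_refl]
    · simp only [indicator_of_notMem h1, zero_le]
  refine (W.gauss_half (κ * (T - τ ω)).toNNReal).trans (mul_le_mul_right ?_ 2)
  rcases le_abs'.1 (h ω hω) with h1 | h1
  · rw [← W.gauss_symm, neg_zero]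
    exact key _ measurableSet_Iic fun x hx => le_abs'.2 (Or.inl (by linarith [mem_Iic.1 hx]))
  · exact key _ measurableSet_Ici fun x hx => le_abs'.2 (Or.inr (by linarith [mem_Ici.1 hx]))

/-- Gaussian tail of the running maximum (strong Markov at the hitting time + symmetry of the Gaussian) -/
theorem Wie.osc_tail (hκ : 0 < κ) (hμ : Wie κ μ) {T l : ℝ} (hT : 0 < T) (hl : 0 ≤ l) :
    μ {ω | l ≤ osc T ω} ≤ ENNReal.ofReal (4 * Real.exp (-l ^ 2 / (2 * κ * T))) := by
  have hm : Measurable fun ω : Path => ω T := (by fun_prop : Continuous _).measurable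
  have h1 : μ {ω | l ≤ |ω T - ω 0|} ≤ μ ((fun ω : Path => ω T) ⁻¹' (Iic (-l) ∪ Ici l)) :=
    measure_mono_ae (hμ.zero.mono fun ω h0 h => by
      have h : l ≤ |ω T - ω 0| := h
      rw [h0 0 le_rfl, sub_zero] at h
      exact le_abs'.1 h)
  rw [← Measure.map_apply hm (measurableSet_Iic.union measurableSet_Ici), hμ.law T hT.le] at h1
  have h2 := W.gauss_tail (κ * T).toNNReal hl
  rw [Real.coe_toNNReal _ (mul_pos hκ hT).le, ← mul_assoc] at h2
  have h3 := h1.trans ((measure_union_le _ _).trans (add_le_add ((W.gauss_symm _ l).trans_le h2) h2))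
  refine (W.reflect hμ hT.le l).trans ((mul_le_mul_right h3 2).trans_eq ?_)
  rw [ENNReal.ofReal_mul (by norm_num), ENNReal.ofReal_ofNat]
  ring

theorem Wie.osc_exp (hκ : 0 < κ) (hμ : Wie κ μ) (T θ : ℝ) :
    ∫⁻ ω, ENNReal.ofReal (Real.exp (θ * osc T ω)) ∂μ < ⊤ := by
  have hT : 0 < max T 1 := lt_max_of_lt_right one_pos
  have h1 : ∀ ω, osc T ω ≤ osc (max T 1) ω := fun ω => osc_le (osc_nonneg _ _) fun t ht =>
    abs_le_osc ω ⟨ht.1, ht.2.trans (le_max_left _ _)⟩
  generalize max T 1 = T' at hT h1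
  have hA : ∀ n : ℕ, MeasurableSet {ω : Path | (n : ℝ) ≤ osc T' ω} := fun n =>
    (isClosed_le continuous_const (continuous_osc T')).measurableSet
  have hb : 0 < 2 * κ * T' := by positivity
  calc _ ≤ ∫⁻ ω, ∑' n : ℕ, {ω : Path | (n : ℝ) ≤ osc T' ω}.indicator
        (fun _ => ENNReal.ofReal (Real.exp (|θ| * (n + 1)))) ω ∂μ := by
        refine lintegral_mono fun ω => le_trans ?_ (ENNReal.le_tsum ⌊osc T' ω⌋₊)
        rw [indicator_of_mem (s := {ω₁ : Path | (⌊osc T' ω⌋₊ : ℝ) ≤ osc T' ω₁}) (Nat.floor_le (osc_nonneg T' ω))]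
        exact ENNReal.ofReal_le_ofReal (Real.exp_le_exp.2 (mul_le_mul (le_abs_self θ)
          ((h1 ω).trans (Nat.lt_floor_add_one _).le) (osc_nonneg _ _) (abs_nonneg θ)))
    _ ≤ ∑' n : ℕ, ENNReal.ofReal (4 * Real.exp (|θ| + 2 * κ * T' * (|θ| + 1) ^ 2 / 4) * Real.exp (-n)) := by
        rw [lintegral_tsum fun n => (measurable_const.indicator (hA n)).aemeasurable]
        refine ENNReal.tsum_le_tsum fun n => ?_
        rw [lintegral_indicator_const (hA n)]
        refine (mul_le_mul_right (hμ.osc_tail hκ hT n.cast_nonneg) _).trans ?_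
        rw [← ENNReal.ofReal_mul (Real.exp_pos _).le, mul_left_comm, ← Real.exp_add, mul_assoc 4, ← Real.exp_add]
        refine ENNReal.ofReal_le_ofReal (mul_le_mul_of_nonneg_left (Real.exp_le_exp.2 ?_) (by norm_num))
        generalize 2 * κ * T' = b at hb
        have : 0 ≤ (2 * n - b * (|θ| + 1)) ^ 2 / (4 * b) := by positivity
        have e : (2 * n - b * (|θ| + 1)) ^ 2 / (4 * b) =
            (n : ℝ) ^ 2 / b - n * (|θ| + 1) + b * (|θ| + 1) ^ 2 / 4 := by field_simp; ring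
        rw [neg_div]
        linarith
    _ < ⊤ := (Real.summable_exp_neg_nat.mul_left _).tsum_ofReal_lt_top

end Crest.Agent.R162
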