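import Crest.Agent.R162.P.Good
import Crest.Agent.R162.P.Zero
import Crest.Agent.R162.P.Tr

/-!
# Row 162, block P: positivity.  API file: the statement is FROZEN; the owner proves it in `R162/P/*.lean`.
See `notes162/R162.md`.
-/

set_option autoImplicit false

open scoped ENNReal NNReal Topology
open Set Filter MeasureTheory Metric

noncomputable section
namespace Crest.Agent.R162

open Crest.ProbabilityR.Loewner

theorem positivity {κ : ℝ} {μ : Measure Path} (hκ : 0 < κ) (hκ8 : κ < 8) (hμ : Wie κ μ) :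
    ∀ᵐ ω : Path ∂μ, ∀ γ : ℝ → ℂ, IsChordalTrace ω γ → ∀ s t : ℝ, 0 < s → s < t →
      0 < gaugeMeasure κ (γ '' Icc s t) := by
  obtain ⟨T, A, hT, hA, h0, h1, h2⟩ := p_event hκ hκ8 hμ
  have key : ∀ᵐ ω ∂μ, ∀ q : ℚ × ℚ, (0 : ℝ) ≤ q.1 → (q.1 : ℝ) < q.2 →
      ∃ u c, (q.1 : ℝ) ≤ u ∧ 0 < c ∧ u + c ^ 2 * T ≤ q.2 ∧ scl c (sh u ω) ∈ A :=
    ae_all_iff.2 fun q => eventually_imp_distrib_left.2 fun a => eventually_imp_distrib_left.2 fun b =>
      p_window hμ hA h0 hT h1 a b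
  filter_upwards [key] with ω hω γ hγ s t hs hst
  obtain ⟨a, ha, hat⟩ := exists_rat_btwn hst
  obtain ⟨b, hb, hbt⟩ := exists_rat_btwn hat
  obtain ⟨u, c, h3, hc, h4, h5⟩ := hω (a, b) (hs.trans ha).le hb
  exact (p_transfer hκ hκ8 hγ ((hs.trans ha).le.trans h3) hc (h2 _ h5)).trans_le
    (measure_mono (image_mono (Icc_subset_Icc (ha.le.trans h3) (h4.trans hbt.le))))

end Crest.Agent.R162
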