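import Crest.Agent.R162.Z.Fin

/-!
# Row 162, block Z: the zigzag (snake) mark.  API file: the statement is FROZEN; the owner proves it in
`R162/Z/*.lean`.  See `notes162/R162.md`.
-/

set_option autoImplicit false

open scoped ENNReal NNReal Topology
open Set Filter MeasureTheory Metric

noncomputable section
namespace Crest.Agent.R162

/-- the properties of the mark at speed `m`; `exp (-C m²)` is its probability (up to constants) -/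
structure Snake (κ : ℝ) (μ : Measure Path) (s₀ A δ δ' c C m T : ℝ) (π : Path → ℝ) : Prop where
  T_pos : 0 < T
  T_le : T ≤ C
  mark : Mark π T (C * m ^ 2)
  /-- Z0 -/
  rare : ∫⁻ ω, ENNReal.ofReal (π ω * Real.exp (osc T ω)) ∂μ ≤ ENNReal.ofReal (C * Real.exp (-C * m ^ 2))
  /-- Z1: the snake produces the mass `m^b` per unit area at heights in `[1 - 3δ/4, 1 - δ/4]` -/
  mass : ∀ (ζ : ℂ) (y : ℝ), |ζ.re| ≤ A → ζ.im ∈ Icc (1 - 3 * δ / 4) (1 - δ / 4) → 0 < y → y ≤ c / m →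
    ENNReal.ofReal (c * Real.exp (-C * m ^ 2) * m ^ bb κ) ≤
      ∫⁻ ω in {ω | osc T ω ≤ C}, ENNReal.ofReal (π ω) * nz κ s₀ y ω ζ (Ioc 0 T) ∂μ
  /-- Z2: points at heights in `[1 - δ', 2]` survive -/
  surv : ∀ ζ : ℂ, |ζ.re| ≤ A → ζ.im ∈ Icc (1 - δ') 2 →
    ENNReal.ofReal (c * Real.exp (-C * m ^ 2)) ≤
      ∫⁻ ω in {ω | c ≤ Up ω ζ T}, ENNReal.ofReal (π ω * Gr κ ω ζ T) ∂μ

theorem exists_snake {κ : ℝ} {μ : Measure Path} (hκ : 0 < κ) (hκ8 : κ < 8) (hμ : Wie κ μ) {s₀ c₀ C₀ : ℝ}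
    (hlow : Low κ μ s₀ c₀ C₀) {A δ : ℝ} (hA : 1 ≤ A) (hδ : 0 < δ) (hδ1 : δ ≤ 1 / 2) :
    ∃ δ' c C m₀ : ℝ, 0 < δ' ∧ δ' ≤ δ ∧ 0 < c ∧ c ≤ 1 ∧ 1 ≤ C ∧ 1 ≤ m₀ ∧
      ∀ m, m₀ ≤ m → ∃ (T : ℝ) (π : Path → ℝ), Snake κ μ s₀ A δ δ' c C m T π := by
  obtain ⟨c, C, m₀, h1, h2, h3, h4, h⟩ := Z.main hκ hκ8 hμ hlow hA hδ hδ1
  refine ⟨δ / 32, c, C, m₀, by positivity, by linarith, h1, h2, h3, h4, fun m hm => ?_⟩
  obtain ⟨T, π, k1, k2, k3, k4, k5, k6⟩ := h m hm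
  exact ⟨T, π, k1, k2, k3, k4, k5, k6⟩

end Crest.Agent.R162
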